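import Mathlib
import Crest.Prelude.Def_Doubling

/-!
# Row 254 (S0392): common definitions

Interface between the chunks of the proof.
* `Cov a b Λ S`: every ball of radius `a t` meets `S` in a union of `Λ` sets of diameter `≤ b t`.
* `Bilip D S f`: `f` is `D`-bi-Lipschitz on `S`.
* `GoalA`: finite sets in Euclidean spaces with a universal covering constant that are not
  `D`-bi-Lipschitz embeddable in `ℝ^d`.
* `GoalB`: isomorphic Dvoretzky theorem with a universal constant.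
-/

set_option autoImplicit false

namespace Crest.Agent.Doub

open Metric Set

universe u v

/-- `Cov a b Λ S`: for every centre `x` (not nec. in `S`) and every `t > 0`, the set
`S ∩ closedBall x (a t)` is covered by `Λ` sets of diameter at most `b t`. -/
def Cov {X : Type*} [PseudoMetricSpace X] (a b : ℝ) (Λ : ℕ) (S : Set X) : Prop :=
  ∀ (x : X) (t : ℝ), 0 < t → ∃ F : Fin Λ → Set X,
    (∀ i, ∀ p ∈ F i, ∀ q ∈ F i, dist p q ≤ b * t) ∧ S ∩ closedBall x (a * t) ⊆ ⋃ i, F i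

/-- `f` is `D`-bi-Lipschitz on `S`. -/
def Bilip {X Y : Type*} [PseudoMetricSpace X] [PseudoMetricSpace Y] (D : ℝ) (S : Set X)
    (f : X → Y) : Prop :=
  ∀ x ∈ S, ∀ y ∈ S, dist x y ≤ D * dist (f x) (f y) ∧ dist (f x) (f y) ≤ D * dist x y

/-- Part A: finite Euclidean sets, universally doubling, not `D`-bi-Lipschitz embeddable
in `ℝ^d`. -/
def GoalA : Prop :=
  ∃ Λ : ℕ, ∀ (d : ℕ) (D : ℝ), ∃ (M : ℕ) (S : Set (EuclideanSpace ℝ (Fin M))),
    S.Finite ∧ (0 : EuclideanSpace ℝ (Fin M)) ∈ S ∧ Cov 2 1 Λ S ∧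
      ∀ f : EuclideanSpace ℝ (Fin M) → EuclideanSpace ℝ (Fin d), ¬ Bilip D S f

/-- Part B: isomorphic Dvoretzky theorem with a universal constant. -/
def GoalB : Prop :=
  ∃ C : ℝ, 0 < C ∧ ∀ (B : Type u) [NormedAddCommGroup B] [NormedSpace ℝ B],
    ¬ FiniteDimensional ℝ B → ∀ k : ℕ, ∃ T : EuclideanSpace ℝ (Fin k) →ₗ[ℝ] B,
      ∀ x, ‖x‖ ≤ ‖T x‖ ∧ ‖T x‖ ≤ C * ‖x‖

end Crest.Agent.Doub
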