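import Crest.Agent.Doub.Core

/-!
# Row 254: chord maps and lenses
-/

set_option autoImplicit false

namespace Crest.Agent.Doub

open Metric Set
open scoped RealInnerProductSpace

variable {E : Type*} [NormedAddCommGroup E] [InnerProductSpace ℝ E]

theorem chordMap_zero (e : E) (c : E × E) : chordMap e c 0 = c.1 := by
  simp [chordMap]

theorem chordMap_norm_sub (e : E) (c : E × E) (z w : E) :
    ‖chordMap e c z - chordMap e c w‖ = ‖c.2 - c.1‖ * ‖z - w‖ := by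
  unfold chordMap
  rw [add_sub_add_left_eq_sub, ← smul_sub, ← map_sub, norm_smul, LinearIsometryEquiv.norm_map,
    norm_norm]

theorem chordMap_smul_e {e : E} (he : ‖e‖ = 1) (c : E × E) (x : ℝ) :
    chordMap e c (x • e) = c.1 + x • (c.2 - c.1) := by
  unfold chordMap
  by_cases h : c.2 - c.1 = 0
  · simp [h]
  · have hn : ‖c.2 - c.1‖ ≠ 0 := norm_ne_zero_iff.mpr h
    have h1 : ‖e‖ = ‖‖c.2 - c.1‖⁻¹ • (c.2 - c.1)‖ := by
      rw [norm_smul, norm_inv, norm_norm, inv_mul_cancel₀ hn, he]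
    have h2 := Submodule.reflection_sub h1
    rw [map_smul, h2, smul_smul, smul_smul, mul_comm ‖c.2 - c.1‖ x, mul_assoc,
      mul_inv_cancel₀ hn, mul_one]

theorem chordMap_self {e : E} (he : ‖e‖ = 1) (c : E × E) : chordMap e c e = c.2 := by
  have := chordMap_smul_e he c 1
  simpa using this

theorem chordMap_combo (e : E) (c : E × E) (σ : ℝ) (z w : E) :
    chordMap e c ((1 - σ) • z + σ • w) =
      (1 - σ) • chordMap e c z + σ • chordMap e c w := by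
  unfold chordMap
  rw [map_add, map_smul, map_smul]
  module

theorem chordMap_degenerate (e : E) (c : E × E) (h : c.1 = c.2) (z : E) :
    chordMap e c z = c.1 := by
  simp [chordMap, h]

theorem chordMap_injective (e : E) (c : E × E) (h : c.1 ≠ c.2) :
    Function.Injective (chordMap e c) := by
  intro z w hzw
  have h1 := chordMap_norm_sub e c z w
  rw [hzw, sub_self, norm_zero] at h1
  have hn : ‖c.2 - c.1‖ ≠ 0 := norm_ne_zero_iff.mpr (sub_ne_zero.mpr (Ne.symm h))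
  have h2 : ‖z - w‖ = 0 := by
    rcases mul_eq_zero.mp h1.symm with h' | h'
    · exact absurd h' hn
    · exact h'
  exact sub_eq_zero.mp (norm_eq_zero.mp h2)

theorem chordMap_surjective (e : E) (c : E × E) (h : c.1 ≠ c.2) :
    Function.Surjective (chordMap e c) := by
  intro y
  have hn : ‖c.2 - c.1‖ ≠ 0 := norm_ne_zero_iff.mpr (sub_ne_zero.mpr (Ne.symm h))
  refine ⟨(Submodule.reflection
    (Submodule.span ℝ {e - ‖c.2 - c.1‖⁻¹ • (c.2 - c.1)})ᗮ).symm (‖c.2 - c.1‖⁻¹ • (y - c.1)), ?_⟩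
  unfold chordMap
  rw [LinearIsometryEquiv.apply_symm_apply, smul_smul, mul_inv_cancel₀ hn, one_smul]
  abel

/-! ### Lenses -/

theorem Lens_inner_mem {κ : ℝ} {e z : E} (hκ : 0 < κ) (hz : z ∈ Lens κ e) :
    0 ≤ (⟪e, z⟫ : ℝ) ∧ (⟪e, z⟫ : ℝ) ≤ 1 := by
  obtain ⟨h1, h2⟩ := hz
  have h3 := norm_nonneg (z - (⟪e, z⟫ : ℝ) • e)
  constructor
  · by_contra h
    push Not at h
    nlinarith
  · by_contra h
    push Not at h
    nlinarith

theorem zero_mem_Lens (κ : ℝ) (hκ : 0 ≤ κ) (e : E) : (0 : E) ∈ Lens κ e := by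
  simp [Lens, hκ]

theorem self_mem_Lens (κ : ℝ) (hκ : 0 ≤ κ) {e : E} (he : ‖e‖ = 1) : e ∈ Lens κ e := by
  simp [Lens, he, hκ]

theorem Lens_convex (κ : ℝ) (e : E) : Convex ℝ (Lens κ e) := by
  intro z hz w hw a b ha hb hab
  have key : (a • z + b • w) - (⟪e, a • z + b • w⟫ : ℝ) • e =
      a • (z - (⟪e, z⟫ : ℝ) • e) + b • (w - (⟪e, w⟫ : ℝ) • e) := by
    rw [inner_add_right, inner_smul_right, inner_smul_right]
    module
  have hle : ‖(a • z + b • w) - (⟪e, a • z + b • w⟫ : ℝ) • e‖ ≤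
      a * ‖z - (⟪e, z⟫ : ℝ) • e‖ + b * ‖w - (⟪e, w⟫ : ℝ) • e‖ := by
    rw [key]
    refine (norm_add_le _ _).trans ?_
    rw [norm_smul, norm_smul, Real.norm_of_nonneg ha, Real.norm_of_nonneg hb]
  have hin : (⟪e, a • z + b • w⟫ : ℝ) = a * ⟪e, z⟫ + b * ⟪e, w⟫ := by
    rw [inner_add_right, inner_smul_right, inner_smul_right]
  constructor
  · refine hle.trans ?_
    rw [hin]
    nlinarith [mul_le_mul_of_nonneg_left hz.1 ha, mul_le_mul_of_nonneg_left hw.1 hb]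
  · refine hle.trans ?_
    rw [hin]
    have h1 := mul_le_mul_of_nonneg_left hz.2 ha
    have h2 := mul_le_mul_of_nonneg_left hw.2 hb
    have h3 : κ * (1 - (a * ⟪e, z⟫ + b * ⟪e, w⟫)) =
        a * (κ * (1 - (⟪e, z⟫ : ℝ))) + b * (κ * (1 - (⟪e, w⟫ : ℝ))) := by
      linear_combination (-κ) * hab
    linarith

theorem Lens_eq_zero {κ : ℝ} {e z : E} (hz : z ∈ Lens κ e) (h : (⟪e, z⟫ : ℝ) = 0) : z = 0 := by
  have h1 := hz.1
  rw [h] at h1
  simpa using h1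

theorem Lens_eq_self {κ : ℝ} {e z : E} (hz : z ∈ Lens κ e) (h : (⟪e, z⟫ : ℝ) = 1) : z = e := by
  have h1 := hz.2
  rw [h] at h1
  simp only [one_smul, sub_self, mul_zero] at h1
  exact sub_eq_zero.mp (norm_le_zero_iff.mp h1)

/-- `0` is an extreme point of the lens. -/
theorem Lens_extreme_zero {κ : ℝ} (hκ : 0 < κ) {e z w : E} (hz : z ∈ Lens κ e)
    (hw : w ∈ Lens κ e) {σ : ℝ} (h0 : 0 < σ) (h1 : σ < 1) (h : (1 - σ) • z + σ • w = 0) :
    z = 0 ∧ w = 0 := by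
  have hi : (1 - σ) * (⟪e, z⟫ : ℝ) + σ * ⟪e, w⟫ = 0 := by
    have := congrArg (fun y => (⟪e, y⟫ : ℝ)) h
    simpa [inner_add_right, inner_smul_right] using this
  have hz' := Lens_inner_mem hκ hz
  have hw' := Lens_inner_mem hκ hw
  have a1 : (⟪e, z⟫ : ℝ) = 0 := by nlinarith [mul_nonneg h0.le hw'.1]
  have a2 : (⟪e, w⟫ : ℝ) = 0 := by nlinarith [mul_nonneg (sub_nonneg.2 h1.le) hz'.1]
  exact ⟨Lens_eq_zero hz a1, Lens_eq_zero hw a2⟩

/-- `e` is an extreme point of the lens. -/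
theorem Lens_extreme_self {κ : ℝ} (hκ : 0 < κ) {e z w : E} (he : ‖e‖ = 1) (hz : z ∈ Lens κ e)
    (hw : w ∈ Lens κ e) {σ : ℝ} (h0 : 0 < σ) (h1 : σ < 1) (h : (1 - σ) • z + σ • w = e) :
    z = e ∧ w = e := by
  have hi : (1 - σ) * (⟪e, z⟫ : ℝ) + σ * ⟪e, w⟫ = 1 := by
    have := congrArg (fun y => (⟪e, y⟫ : ℝ)) h
    simpa [inner_add_right, inner_smul_right, he] using this
  have hz' := Lens_inner_mem hκ hz
  have hw' := Lens_inner_mem hκ hw
  have a1 : (⟪e, z⟫ : ℝ) = 1 := by nlinarith [mul_nonneg h0.le (sub_nonneg.2 hw'.2)]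
  have a2 : (⟪e, w⟫ : ℝ) = 1 := by nlinarith [mul_nonneg (sub_nonneg.2 h1.le) (sub_nonneg.2 hz'.2)]
  exact ⟨Lens_eq_self hz a1, Lens_eq_self hw a2⟩

theorem Lens_norm_le {κ : ℝ} (hκ : 0 < κ) {e z : E} (he : ‖e‖ = 1) (hz : z ∈ Lens κ e) :
    ‖z‖ ≤ 1 + κ := by
  have h1 := Lens_inner_mem hκ hz
  have h2 : ‖z‖ ≤ ‖z - (⟪e, z⟫ : ℝ) • e‖ + ‖(⟪e, z⟫ : ℝ) • e‖ := by
    simpa using norm_add_le (z - (⟪e, z⟫ : ℝ) • e) ((⟪e, z⟫ : ℝ) • e)
  rw [norm_smul, he, mul_one, Real.norm_of_nonneg h1.1] at h2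
  nlinarith [hz.1, hz.2]

/-- Star-shapedness: scaling towards `0`. -/
theorem smul_mem_Lens {κ : ℝ} (hκ : 0 < κ) {e z : E} (hz : z ∈ Lens κ e) {r : ℝ} (h0 : 0 ≤ r)
    (h1 : r ≤ 1) : r • z ∈ Lens κ e := by
  have := Lens_convex κ e (zero_mem_Lens κ hκ.le e) hz (sub_nonneg.2 h1) h0 (by ring)
  simpa using this

/-- The foot of a point of the substituted lens: for `z` in the lens there is a point of the
chord at distance at most `κ * endDist`. -/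
theorem foot {κ : ℝ} (hκ : 0 < κ) {e z : E} (he : ‖e‖ = 1) (hz : z ∈ Lens κ e) (c : E × E) :
    ∃ a ∈ segment ℝ c.1 c.2, ‖chordMap e c z - a‖ ≤ κ * endDist c a ∧
      a = c.1 + (⟪e, z⟫ : ℝ) • (c.2 - c.1) ∧ ‖chordMap e c z - a‖ ≤ κ * ‖c.2 - c.1‖ := by
  have h1 := Lens_inner_mem hκ hz
  refine ⟨c.1 + (⟪e, z⟫ : ℝ) • (c.2 - c.1), ?_, ?_, rfl, ?_⟩
  · rw [segment_eq_image']
    exact ⟨_, ⟨h1.1, h1.2⟩, rfl⟩
  · rw [← chordMap_smul_e he, chordMap_norm_sub, chordMap_smul_e he]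
    unfold endDist
    have e1 : ‖c.1 + (⟪e, z⟫ : ℝ) • (c.2 - c.1) - c.1‖ = ⟪e, z⟫ * ‖c.2 - c.1‖ := by
      rw [add_sub_cancel_left, norm_smul, Real.norm_of_nonneg h1.1]
    have e2 : ‖c.1 + (⟪e, z⟫ : ℝ) • (c.2 - c.1) - c.2‖ = (1 - ⟪e, z⟫) * ‖c.2 - c.1‖ := by
      have : c.1 + (⟪e, z⟫ : ℝ) • (c.2 - c.1) - c.2 = (-(1 - (⟪e, z⟫ : ℝ))) • (c.2 - c.1) := by
        module
      rw [this, norm_smul, norm_neg, Real.norm_of_nonneg (by linarith)]
    rw [e1, e2, mul_min_of_nonneg _ _ hκ.le]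
    refine le_min ?_ ?_
    · nlinarith [mul_le_mul_of_nonneg_left hz.1 (norm_nonneg (c.2 - c.1))]
    · nlinarith [mul_le_mul_of_nonneg_left hz.2 (norm_nonneg (c.2 - c.1))]
  · rw [← chordMap_smul_e he, chordMap_norm_sub]
    have h2 : ‖z - (⟪e, z⟫ : ℝ) • e‖ ≤ κ := by nlinarith [hz.1, hz.2]
    nlinarith [mul_le_mul_of_nonneg_left h2 (norm_nonneg (c.2 - c.1))]

theorem endDist_nonneg (c : E × E) (a : E) : 0 ≤ endDist c a :=
  le_min (norm_nonneg _) (norm_nonneg _)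

/-- Characterisation of lens membership from a decomposition. -/
theorem mem_Lens_of_decomp {κ : ℝ} {e z y : E} (he : ‖e‖ = 1) {x : ℝ} (hz : z = x • e + y)
    (hy : (⟪e, y⟫ : ℝ) = 0) (h1 : ‖y‖ ≤ κ * x) (h2 : ‖y‖ ≤ κ * (1 - x)) : z ∈ Lens κ e := by
  have hx : (⟪e, z⟫ : ℝ) = x := by
    rw [hz, inner_add_right, inner_smul_right, hy, real_inner_self_eq_norm_sq, he]
    ring
  have hy' : z - (⟪e, z⟫ : ℝ) • e = y := by rw [hx, hz]; abel
  exact ⟨by rw [hy', hx]; exact h1, by rw [hy', hx]; exact h2⟩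

/-- Thinness of substituted lenses near the centre. -/
theorem thin_of_central {κ : ℝ} (hκ : 0 < κ) (hκ1 : κ ≤ 1) {e : E} (he : ‖e‖ = 1) {c : E × E}
    (hc1 : ‖c.1 - (⟪e, c.1⟫ : ℝ) • e‖ ≤ κ / 16) (hc2 : ‖c.2 - (⟪e, c.2⟫ : ℝ) • e‖ ≤ κ / 16)
    (hx1 : 3 / 8 ≤ (⟪e, c.1⟫ : ℝ)) (hx1' : (⟪e, c.1⟫ : ℝ) ≤ 5 / 8)
    (hx2 : 3 / 8 ≤ (⟪e, c.2⟫ : ℝ)) (hx2' : (⟪e, c.2⟫ : ℝ) ≤ 5 / 8)
    (hlen : ‖c.2 - c.1‖ ≤ 1 / 16) {z : E} (hz : z ∈ Lens κ e) : chordMap e c z ∈ Lens κ e := by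
  obtain ⟨a, -, -, ha, hd⟩ := foot hκ he hz c
  have hzi := Lens_inner_mem hκ hz
  set x : ℝ := ⟪e, z⟫ with hx
  set w := chordMap e c z with hw
  have hd' : ‖w - a‖ ≤ κ / 16 := hd.trans (by nlinarith)
  -- inner product of `a`
  have hai : (⟪e, a⟫ : ℝ) = (1 - x) * ⟪e, c.1⟫ + x * ⟪e, c.2⟫ := by
    rw [ha, inner_add_right, inner_smul_right, inner_sub_right]; ring
  have hap : a - (⟪e, a⟫ : ℝ) • e =
      (1 - x) • (c.1 - (⟪e, c.1⟫ : ℝ) • e) + x • (c.2 - (⟪e, c.2⟫ : ℝ) • e) := by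
    rw [hai, ha]; module
  have hap' : ‖a - (⟪e, a⟫ : ℝ) • e‖ ≤ κ / 16 := by
    rw [hap]
    refine (norm_add_le _ _).trans ?_
    rw [norm_smul, norm_smul, Real.norm_of_nonneg (by linarith : 0 ≤ 1 - x),
      Real.norm_of_nonneg hzi.1]
    nlinarith [mul_le_mul_of_nonneg_left hc1 (by linarith : 0 ≤ 1 - x),
      mul_le_mul_of_nonneg_left hc2 hzi.1]
  have hwi : |(⟪e, w⟫ : ℝ) - ⟪e, a⟫| ≤ κ / 16 := by
    rw [← inner_sub_right]
    refine (abs_real_inner_le_norm _ _).trans ?_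
    rw [he, one_mul]; exact hd'
  have hwp : ‖w - (⟪e, w⟫ : ℝ) • e‖ ≤ 3 * κ / 16 := by
    have : w - (⟪e, w⟫ : ℝ) • e =
        (w - a) + (a - (⟪e, a⟫ : ℝ) • e) + ((⟪e, a⟫ : ℝ) - ⟪e, w⟫) • e := by module
    rw [this]
    refine (norm_add₃_le).trans ?_
    rw [norm_smul, he, mul_one, Real.norm_eq_abs, abs_sub_comm]
    linarith
  have hb := abs_le.mp hwi
  have ha1 : 3 / 8 ≤ (⟪e, a⟫ : ℝ) := by rw [hai]; nlinarith
  have ha2 : (⟪e, a⟫ : ℝ) ≤ 5 / 8 := by rw [hai]; nlinarith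
  constructor
  · refine hwp.trans ?_
    nlinarith
  · refine hwp.trans ?_
    nlinarith

/-- Thinness for chords on the axis. -/
theorem thin_of_axis {κ : ℝ} (hκ : 0 < κ) {e : E} (he : ‖e‖ = 1) {x y : ℝ} (h0 : 0 ≤ x)
    (hxy : x < y) (h1 : y ≤ 1) {z : E} (hz : z ∈ Lens κ e) :
    chordMap e (x • e, y • e) z ∈ Lens κ e := by
  have hzi := Lens_inner_mem hκ hz
  have hn : ‖y • e - x • e‖ = y - x := by
    rw [← sub_smul, norm_smul, he, mul_one, Real.norm_of_nonneg (by linarith)]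
  have hpos : 0 < y - x := by linarith
  have hmap : chordMap e (x • e, y • e) z = x • e + (y - x) • z := by
    unfold chordMap
    simp only [hn]
    have : e - (y - x)⁻¹ • (y • e - x • e) = 0 := by
      rw [← sub_smul, smul_smul, inv_mul_cancel₀ hpos.ne', one_smul, sub_self]
    have key : ∀ d : E, d = 0 → Submodule.reflection (Submodule.span ℝ {d})ᗮ z = z := by
      rintro d rfl
      rw [Submodule.reflection_eq_self_iff]
      simp
    rw [key _ this]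
  rw [hmap]
  refine mem_Lens_of_decomp he (x := x + (y - x) * ⟪e, z⟫)
    (y := (y - x) • (z - (⟪e, z⟫ : ℝ) • e)) ?_ ?_ ?_ ?_
  · module
  · rw [inner_smul_right, inner_sub_right, inner_smul_right, real_inner_self_eq_norm_sq, he]; ring
  · rw [norm_smul, Real.norm_of_nonneg hpos.le]
    nlinarith [mul_le_mul_of_nonneg_left hz.1 hpos.le]
  · rw [norm_smul, Real.norm_of_nonneg hpos.le]
    nlinarith [mul_le_mul_of_nonneg_left hz.2 hpos.le, mul_nonneg hκ.le (sub_nonneg.2 h1)]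

end Crest.Agent.Doub
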