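import Crest.Agent.Doub.Basic

/-!
# Row 254: core definitions for `GoalA`
-/

set_option autoImplicit false

namespace Crest.Agent.Doub

open Metric Set
open scoped RealInnerProductSpace

section chords

variable {E : Type*} [NormedAddCommGroup E] [InnerProductSpace ℝ E]

/-- The thin lens about the segment `[0, e]` (`e` a unit vector). -/
def Lens (κ : ℝ) (e : E) : Set E :=
  {z | ‖z - (⟪e, z⟫ : ℝ) • e‖ ≤ κ * ⟪e, z⟫ ∧ ‖z - (⟪e, z⟫ : ℝ) • e‖ ≤ κ * (1 - ⟪e, z⟫)}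

/-- The similarity of `E` mapping `0 ↦ c.1`, `e ↦ c.2` (if `‖e‖ = 1`). For a degenerate chord
it is constant. -/
noncomputable def chordMap (e : E) (c : E × E) (z : E) : E :=
  c.1 + ‖c.2 - c.1‖ •
    Submodule.reflection (Submodule.span ℝ {e - ‖c.2 - c.1‖⁻¹ • (c.2 - c.1)})ᗮ z

/-- Distance to the nearer endpoint. -/
noncomputable def endDist (c : E × E) (a : E) : ℝ := min ‖a - c.1‖ ‖a - c.2‖

/-- Linear separation of a family of segments: distinct segments only meet in common endpoints,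
in a quantitative way. -/
def LS (k : ℝ) (C : Set (E × E)) : Prop :=
  ∀ c ∈ C, ∀ c' ∈ C, c ≠ c' → ∀ a ∈ segment ℝ c.1 c.2, ∀ a' ∈ segment ℝ c'.1 c'.2,
    k * endDist c a ≤ ‖a - a'‖

/-- Union of the segments. -/
def segs (C : Set (E × E)) : Set E := ⋃ c ∈ C, segment ℝ c.1 c.2

/-- Substitute `S` in every chord of `C`. -/
def subst (e : E) (C : Set (E × E)) (S : Set E) : Set E := ⋃ c ∈ C, chordMap e c '' S

end chords

section flows

variable {V : Type*} [NormedAddCommGroup V] [InnerProductSpace ℝ V]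

/-- Cross-section at intermediate time `σ` of a set of unit-time moves. -/
def cross (M : Set (V × V)) (σ : ℝ) : Set V := (fun m : V × V => (1 - σ) • m.1 + σ • m.2) '' M

/-- A good set of unit-time moves. -/
structure GoodStep (Λ : ℕ) (M : Set (V × V)) : Prop where
  fin : M.Finite
  slow : ∀ m ∈ M, ‖m.2 - m.1‖ ≤ 1 / 100
  nc : ∀ m ∈ M, ∀ m' ∈ M, ∀ σ : ℝ, 0 < σ → σ < 1 →
    (1 - σ) • m.1 + σ • m.2 = (1 - σ) • m'.1 + σ • m'.2 → m = m'
  cov : ∀ σ : ℝ, 0 ≤ σ → σ ≤ 1 → Cov 4 (1 / 4) Λ (cross M σ)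

/-- A flow: a sequence `M 0, ..., M (T-1)` of good sets of moves, matching,
from the point set `A` to the point set `B`. -/
structure Flow (Λ : ℕ) (A B : Set V) (T : ℕ) (M : ℕ → Set (V × V)) : Prop where
  Tpos : 0 < T
  step : ∀ m < T, GoodStep Λ (M m)
  chain : ∀ m, m + 1 < T → Prod.snd '' (M m) = Prod.fst '' (M (m + 1))
  start : Prod.fst '' (M 0) = A
  stop : Prod.snd '' (M (T - 1)) = B

/-- A good structure: a flow from `{0, e}` to `{0, e}` containing the constant moves at `0` and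
`e`, all in the lens. -/
structure Good (κ : ℝ) (Λ : ℕ) (e : V) (T : ℕ) (M : ℕ → Set (V × V)) : Prop
    extends Flow Λ {0, e} {0, e} T M where
  lens : ∀ m < T, ∀ p ∈ M m, p.1 ∈ Lens κ e ∧ p.2 ∈ Lens κ e
  const0 : ∀ m < T, ((0 : V), (0 : V)) ∈ M m
  conste : ∀ m < T, (e, e) ∈ M m

/-- The moves of a set of moves substituted in every chord of `C`. -/
def substStep (e : V) (C : Set (V × V)) (M : Set (V × V)) : Set (V × V) :=
  ⋃ c ∈ C, Prod.map (chordMap e c) (chordMap e c) '' M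

/-- Points of `Q` are static; points `p ∈ P` move from `(m/n) p` to `((m+1)/n) p`. -/
def radStep (Q P : Set V) (n m : ℕ) : Set (V × V) :=
  (fun q => (q, q)) '' Q ∪
    (fun p => (((m : ℝ) / n) • p, (((m : ℝ) + 1) / n) • p)) '' P

/-- Points of `Q` are static; points `p ∈ P` move from `((n-m)/n) p` to `((n-m-1)/n) p`. -/
def radBack (Q P : Set V) (n m : ℕ) : Set (V × V) :=
  (fun q => (q, q)) '' Q ∪
    (fun p => ((((n : ℝ) - m) / n) • p, (((n : ℝ) - m - 1) / n) • p)) '' P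

/-- Concatenation in time. -/
def tappend (T₁ : ℕ) (M₁ M₂ : ℕ → Set (V × V)) (m : ℕ) : Set (V × V) :=
  if m < T₁ then M₁ m else M₂ (m - T₁)

/-- Loop over blocks of equal length `L`. -/
def tloop (L : ℕ) (blk : ℕ → ℕ → Set (V × V)) (m : ℕ) : Set (V × V) := blk (m / L) (m % L)

/-- The analytic property carried through the recursion. -/
def PProp {W : Type*} [NormedAddCommGroup W] [InnerProductSpace ℝ W] (D : ℝ) (e : V) (T : ℕ)
    (M : ℕ → Set (V × V)) (ε η R : ℝ) : Prop :=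
  ∀ (l S : ℝ) (u : W) (f : ℕ → V → W), 0 < l → l ≤ 1 → 0 < S → S ≤ D → ‖u‖ = 1 →
    (∀ m < T, ∀ p ∈ M m, ∀ q ∈ M m,
      l * ‖p.1 - q.1‖ ≤ D * ‖f m p.1 - f m q.1‖ ∧ ‖f m p.1 - f m q.1‖ ≤ D * (l * ‖p.1 - q.1‖)) →
    (∀ m < T, ∀ p ∈ M m,
      ‖f (m + 1) p.2 - f m p.1‖ ≤ (1 + ε * l ^ 2) * S * (1 + l ^ 2 * ‖p.2 - p.1‖ ^ 2)) →
    S * T - η * l ^ 2 ≤ ⟪u, f T 0 - f 0 0⟫ →
    S * T - η * l ^ 2 ≤ ⟪u, f T e - f 0 e⟫ →
    ‖f 0 e - f 0 0‖ * R ≤ D * l

end flows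

section pattern

variable {V : Type*} [NormedAddCommGroup V] [InnerProductSpace ℝ V]

/-- An orthonormal frame `e, v 0, ..., v (N-1)`. -/
structure Frame (N : ℕ) (e : V) (v : ℕ → V) : Prop where
  norm_e : ‖e‖ = 1
  norm_v : ∀ i < N, ‖v i‖ = 1
  inner_ev : ∀ i < N, (⟪e, v i⟫ : ℝ) = 0
  inner_vv : ∀ i < N, ∀ j < N, i ≠ j → (⟪v i, v j⟫ : ℝ) = 0

/-- Half-width of the raised part: `5 s (N+1) + s/θ`. -/
noncomputable def halfW (N : ℕ) (s θ : ℝ) : ℝ := 5 * s * (N + 1) + s / θ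

/-- `x`-coordinates of the vertices `0, l₋, b_0, ..., b_{N+1}, l₊, e` of the base path;
indices `0, 1, 2, ..., N+3, N+4, N+5`. -/
noncomputable def xs (N : ℕ) (s θ : ℝ) (j : ℕ) : ℝ :=
  if j = 0 then 0
  else if j = 1 then 1 / 2 - halfW N s θ
  else if j ≤ N + 3 then 1 / 2 + 10 * s * ((j : ℝ) - 2 - (N + 1) / 2)
  else if j = N + 4 then 1 / 2 + halfW N s θ
  else 1

/-- Heights of the vertices of the raised path. -/
noncomputable def ys (N : ℕ) (s : ℝ) (j : ℕ) : ℝ := if 2 ≤ j ∧ j ≤ N + 3 then s else 0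

/-- Base vertices. -/
noncomputable def bp (N : ℕ) (s θ : ℝ) (e : V) (j : ℕ) : V := xs N s θ j • e

/-- Raised vertices in direction `v i`. -/
noncomputable def up (N : ℕ) (s θ : ℝ) (e : V) (v : ℕ → V) (i j : ℕ) : V :=
  xs N s θ j • e + ys N s j • v i

/-- The persistent raised vertex `h_i` (over base vertex of index `i + 3`). -/
noncomputable def hp (N : ℕ) (s θ : ℝ) (e : V) (v : ℕ → V) (i : ℕ) : V := up N s θ e v i (i + 3)

/-- Chords of phase `i` (with the other persistent raised points as degenerate chords). -/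
def chords (N : ℕ) (s θ : ℝ) (e : V) (v : ℕ → V) (i : ℕ) : Set (V × V) :=
  {c | ∃ j, j ≤ N + 4 ∧ c = (bp N s θ e j, bp N s θ e (j + 1))} ∪
  {c | ∃ j, 1 ≤ j ∧ j ≤ N + 3 ∧ c = (up N s θ e v i j, up N s θ e v i (j + 1))} ∪
  {c | ∃ k, k < N ∧ k ≠ i ∧ c = (hp N s θ e v k, hp N s θ e v k)}

/-- Persistent points (other than `0`, `e`). -/
def pers (N : ℕ) (s θ : ℝ) (e : V) (v : ℕ → V) : Set V :=
  {p | ∃ j, 1 ≤ j ∧ j ≤ N + 4 ∧ p = bp N s θ e j} ∪ {p | ∃ k, k < N ∧ p = hp N s θ e v k}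

/-- Points of phase `i` only. -/
def phas (N : ℕ) (s θ : ℝ) (e : V) (v : ℕ → V) (i : ℕ) : Set V :=
  {p | ∃ j, 2 ≤ j ∧ j ≤ N + 3 ∧ p = up N s θ e v i j}

/-- Standing assumptions on the parameters. -/
structure Params (N : ℕ) (s θ κ : ℝ) : Prop where
  θpos : 0 < θ
  θle : θ * (N + 1) ≤ 1 / 100
  κeq : κ = θ / 1024
  seq : s = θ / 16384

end pattern

end Crest.Agent.Doub
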