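import Crest.Agent.Doub.Chord

/-!
# Row 254: covering lemmas
-/

set_option autoImplicit false
set_option linter.unusedSectionVars false

namespace Crest.Agent.Doub

open Metric Set
open scoped RealInnerProductSpace

section general

variable {X : Type*} [PseudoMetricSpace X] {a b : ℝ} {Λ Λ' Λ₁ Λ₂ : ℕ} {S S' S₁ S₂ : Set X}

theorem Cov.mono (h : Cov a b Λ S) (hs : S' ⊆ S) : Cov a b Λ S' := by
  intro x t ht
  obtain ⟨F, h1, h2⟩ := h x t ht
  exact ⟨F, h1, (inter_subset_inter_left _ hs).trans h2⟩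

theorem Cov.mono_card (h : Cov a b Λ S) (hΛ : Λ ≤ Λ') : Cov a b Λ' S := by
  intro x t ht
  obtain ⟨F, h1, h2⟩ := h x t ht
  refine ⟨fun i => if hi : (i : ℕ) < Λ then F ⟨i, hi⟩ else ∅, ?_, ?_⟩
  · intro i
    by_cases hi : (i : ℕ) < Λ
    · simpa [hi] using h1 ⟨i, hi⟩
    · simp [hi]
  · intro z hz
    obtain ⟨j, hj⟩ := mem_iUnion.mp (h2 hz)
    refine mem_iUnion.mpr ⟨⟨j, lt_of_lt_of_le j.2 hΛ⟩, ?_⟩
    simpa using hj

theorem Cov.mono_consts (h : Cov a b Λ S) {a' b' : ℝ} (ha : a' ≤ a) (hb : b ≤ b') :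
    Cov a' b' Λ S := by
  intro x t ht
  obtain ⟨F, h1, h2⟩ := h x t ht
  refine ⟨F, fun i p hp q hq => (h1 i p hp q hq).trans (by nlinarith), ?_⟩
  refine (inter_subset_inter_right _ (closedBall_subset_closedBall (by nlinarith))).trans h2

theorem Cov.union (h₁ : Cov a b Λ₁ S₁) (h₂ : Cov a b Λ₂ S₂) : Cov a b (Λ₁ + Λ₂) (S₁ ∪ S₂) := by
  intro x t ht
  obtain ⟨F₁, h1, h2⟩ := h₁ x t ht
  obtain ⟨F₂, h3, h4⟩ := h₂ x t ht
  refine ⟨Fin.append F₁ F₂, ?_, ?_⟩
  · intro i
    refine Fin.addCases (fun j => ?_) (fun j => ?_) i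
    · rw [Fin.append_left]; exact h1 j
    · rw [Fin.append_right]; exact h3 j
  · rintro z ⟨hz | hz, hzb⟩
    · obtain ⟨j, hj⟩ := mem_iUnion.mp (h2 ⟨hz, hzb⟩)
      refine mem_iUnion.mpr ⟨Fin.castAdd _ j, ?_⟩
      rw [Fin.append_left]; exact hj
    · obtain ⟨j, hj⟩ := mem_iUnion.mp (h4 ⟨hz, hzb⟩)
      refine mem_iUnion.mpr ⟨Fin.natAdd _ j, ?_⟩
      rw [Fin.append_right]; exact hj

theorem cov_subsingleton (hb : 0 ≤ b) (hS : S.Subsingleton) : Cov a b 1 S := by
  intro x t ht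
  refine ⟨fun _ => S, fun _ p hp q hq => ?_, fun z hz => mem_iUnion.mpr ⟨0, hz.1⟩⟩
  rw [hS hp hq, dist_self]; positivity

/-- Coverings are preserved by surjective similarities. -/
theorem Cov.image {Y : Type*} [PseudoMetricSpace Y] (h : Cov a b Λ S) (φ : X → Y) {r : ℝ}
    (hr : 0 < r) (hφ : ∀ x y, dist (φ x) (φ y) = r * dist x y) (hs : Function.Surjective φ) :
    Cov a b Λ (φ '' S) := by
  intro y t ht
  obtain ⟨x, rfl⟩ := hs y
  obtain ⟨F, h1, h2⟩ := h x (t / r) (by positivity)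
  refine ⟨fun i => φ '' F i, ?_, ?_⟩
  · rintro i _ ⟨p, hp, rfl⟩ _ ⟨q, hq, rfl⟩
    rw [hφ]
    have := h1 i p hp q hq
    calc r * dist p q ≤ r * (b * (t / r)) := mul_le_mul_of_nonneg_left this hr.le
      _ = b * t := by field_simp
  · rintro _ ⟨⟨z, hz, rfl⟩, hzb⟩
    have hz' : z ∈ S ∩ closedBall x (a * (t / r)) := by
      refine ⟨hz, ?_⟩
      rw [mem_closedBall] at hzb ⊢
      rw [hφ] at hzb
      rw [← mul_div_assoc, le_div_iff₀ hr]
      linarith
    obtain ⟨j, hj⟩ := mem_iUnion.mp (h2 hz')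
    exact mem_iUnion.mpr ⟨j, mem_image_of_mem _ hj⟩

end general

variable {E : Type*} [NormedAddCommGroup E] [InnerProductSpace ℝ E]

/-- Covering of sets that are Lipschitz graphs over a line. -/
theorem cov_of_graph {S : Set E} {e : E} (he : ‖e‖ = 1) {L a b : ℝ} (hL : 0 < L) (ha : 0 < a)
    (hb : 0 < b) (h : ∀ p ∈ S, ∀ q ∈ S, ‖p - q‖ ≤ L * |(⟪e, p - q⟫ : ℝ)|) {Λ : ℕ}
    (hΛ : 2 * a * L / b + 1 ≤ Λ) : Cov a b Λ S := by
  intro x t ht
  set w : ℝ := b * t / L with hw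
  have hwpos : 0 < w := by positivity
  set X : ℝ := ⟪e, x⟫ - a * t with hX
  refine ⟨fun i => {p | p ∈ S ∧ X + i * w ≤ ⟪e, p⟫ ∧ ⟪e, p⟫ ≤ X + (i + 1) * w}, ?_, ?_⟩
  · rintro i p ⟨hp, hp1, hp2⟩ q ⟨hq, hq1, hq2⟩
    rw [dist_eq_norm]
    refine (h p hp q hq).trans ?_
    have : |(⟪e, p - q⟫ : ℝ)| ≤ w := by
      rw [inner_sub_right, abs_le]
      constructor <;> nlinarith
    calc L * |(⟪e, p - q⟫ : ℝ)| ≤ L * w := mul_le_mul_of_nonneg_left this hL.le
      _ = b * t := by rw [hw]; field_simp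
  · rintro p ⟨hp, hpb⟩
    rw [mem_closedBall, dist_eq_norm] at hpb
    have hin : |(⟪e, p⟫ : ℝ) - ⟪e, x⟫| ≤ a * t := by
      rw [← inner_sub_right]
      refine (abs_real_inner_le_norm _ _).trans ?_
      rw [he, one_mul]; exact hpb
    have hin' := abs_le.mp hin
    have h0 : 0 ≤ ((⟪e, p⟫ : ℝ) - X) / w := by
      apply div_nonneg _ hwpos.le
      rw [hX]; linarith
    have h1 : ((⟪e, p⟫ : ℝ) - X) / w ≤ 2 * a * L / b := by
      rw [div_le_iff₀ hwpos]
      have : 2 * a * L / b * w = 2 * a * t := by rw [hw]; field_simp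
      rw [this, hX]; linarith
    have h2 : ⌊((⟪e, p⟫ : ℝ) - X) / w⌋₊ < Λ := by
      rw [Nat.floor_lt h0]
      linarith
    refine mem_iUnion.mpr ⟨⟨_, h2⟩, hp, ?_, ?_⟩
    · have := Nat.floor_le h0
      rw [le_div_iff₀ hwpos] at this
      simp only
      linarith
    · have := (Nat.lt_floor_add_one (((⟪e, p⟫ : ℝ) - X) / w)).le
      rw [div_le_iff₀ hwpos] at this
      simp only
      linarith

/-- **Graph lemma**: substituting a well-covered subset of a thin lens in every edge of a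
well-covered linearly separated graph does not increase the covering constant. -/
theorem cov_subst {e : E} (he : ‖e‖ = 1) {κ k a b τ : ℝ} {Λ ΛG : ℕ} {C : Set (E × E)} {S : Set E}
    (hκ : 0 < κ) (ha : 0 < a) (hτ : 0 ≤ τ) (hb : 0 ≤ b) (hS : S ⊆ Lens κ e) (hLS : LS k C)
    (hcov : Cov a b Λ S) (hG : Cov (a + τ) (b - 2 * τ) ΛG (segs C))
    (h1 : 4 * a * κ ≤ k * τ) (h2 : 4 * κ ≤ k) (hΛ : 1 ≤ Λ) :
    Cov a b (max Λ ΛG) (subst e C S) := by
  intro x t ht
  have hk : 0 < k := by linarith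
  by_cases H : ∃ c ∈ C, subst e C S ∩ closedBall x (a * t) ⊆ chordMap e c '' S
  · obtain ⟨c, hc, hsub⟩ := H
    have hcov' : Cov a b (max Λ ΛG) (chordMap e c '' S) := by
      by_cases hd : c.1 = c.2
      · refine (cov_subsingleton hb ?_).mono_card (hΛ.trans (le_max_left _ _))
        rintro _ ⟨z, -, rfl⟩ _ ⟨w, -, rfl⟩
        rw [chordMap_degenerate e c hd, chordMap_degenerate e c hd]
      · refine Cov.mono_card ?_ (le_max_left _ _)
        refine hcov.image (chordMap e c) (r := ‖c.2 - c.1‖)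
          (norm_pos_iff.mpr (sub_ne_zero.mpr (Ne.symm hd))) ?_ (chordMap_surjective e c hd)
        intro z w
        rw [dist_eq_norm, dist_eq_norm, chordMap_norm_sub]
    obtain ⟨F, h3, h4⟩ := hcov' x t ht
    refine ⟨F, h3, fun z hz => h4 ⟨hsub hz, hz.2⟩⟩
  · push Not at H
    have hG' := hG.mono_card (le_max_right Λ ΛG)
    obtain ⟨F, h3, h4⟩ := hG' x t ht
    refine ⟨fun i => {z | ∃ p ∈ F i, ‖z - p‖ ≤ τ * t}, ?_, ?_⟩
    · rintro i z ⟨p, hp, hzp⟩ w ⟨q, hq, hwq⟩
      have h5 := h3 i p hp q hq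
      rw [dist_eq_norm] at h5 ⊢
      have : z - w = (z - p) + (p - q) - (w - q) := by abel
      rw [this]
      refine (norm_sub_le _ _).trans ?_
      have := norm_add_le (z - p) (p - q)
      nlinarith
    · rintro z ⟨hz, hzb⟩
      have hz0 := hz
      simp only [subst, mem_iUnion, exists_prop] at hz
      obtain ⟨c, hc, s, hs, rfl⟩ := hz
      obtain ⟨z', ⟨hz', hz'b⟩, hz'n⟩ := not_subset.mp (H c hc)
      simp only [subst, mem_iUnion, exists_prop] at hz'
      obtain ⟨c', hc', s', hs', rfl⟩ := hz'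
      have hne : c ≠ c' := by
        rintro rfl
        exact hz'n ⟨s', hs', rfl⟩
      obtain ⟨p, hp, hp1, -, -⟩ := foot hκ he (hS hs) c
      obtain ⟨q, hq, hq1, -, -⟩ := foot hκ he (hS hs') c'
      have l1 := hLS c hc c' hc' hne p hp q hq
      have l2 := hLS c' hc' c hc hne.symm q hq p hp
      rw [norm_sub_rev q p] at l2
      rw [mem_closedBall, dist_eq_norm] at hzb hz'b
      set ρ := endDist c p
      set ρ' := endDist c' q
      have hρ : 0 ≤ ρ := endDist_nonneg c p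
      have hρ' : 0 ≤ ρ' := endDist_nonneg c' q
      set z := chordMap e c s
      set z' := chordMap e c' s'
      have t1 : ‖p - q‖ ≤ 2 * a * t + κ * (ρ + ρ') := by
        have : p - q = -(z - p) + (z - x) - (z' - x) + (z' - q) := by abel
        rw [this]
        have n1 := norm_add_le (-(z - p) + (z - x) - (z' - x)) (z' - q)
        have n2 := norm_sub_le (-(z - p) + (z - x)) (z' - x)
        have n3 := norm_add_le (-(z - p)) (z - x)
        rw [norm_neg] at n3
        linarith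
      -- `k (ρ+ρ') ≤ 8 a t`
      have t2 : k * (ρ + ρ') ≤ 8 * (a * t) := by
        have : k * (ρ + ρ') ≤ 2 * (2 * a * t + κ * (ρ + ρ')) := by linarith
        have h5 : 2 * (κ * (ρ + ρ')) ≤ k * (ρ + ρ') / 2 := by
          nlinarith [mul_le_mul_of_nonneg_right h2 (add_nonneg hρ hρ')]
        linarith
      have t3 : k * ρ ≤ 4 * (a * t) := by
        have h5 : κ * (ρ + ρ') ≤ k * (ρ + ρ') / 4 := by
          nlinarith [mul_le_mul_of_nonneg_right h2 (add_nonneg hρ hρ')]
        linarith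
      have t4 : κ * ρ ≤ τ * t := by
        have h5 : k * (κ * ρ) ≤ k * (τ * t) := by
          calc k * (κ * ρ) = κ * (k * ρ) := by ring
            _ ≤ κ * (4 * (a * t)) := mul_le_mul_of_nonneg_left t3 hκ.le
            _ = (4 * a * κ) * t := by ring
            _ ≤ (k * τ) * t := mul_le_mul_of_nonneg_right h1 ht.le
            _ = k * (τ * t) := by ring
        exact le_of_mul_le_mul_left h5 hk
      have hzp : ‖z - p‖ ≤ τ * t := hp1.trans t4
      have hpG : p ∈ segs C ∩ closedBall x ((a + τ) * t) := by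
        refine ⟨?_, ?_⟩
        · simp only [segs, mem_iUnion, exists_prop]
          exact ⟨c, hc, hp⟩
        · rw [mem_closedBall, dist_eq_norm]
          have : p - x = (z - x) - (z - p) := by abel
          rw [this]
          refine (norm_sub_le _ _).trans ?_
          nlinarith
      obtain ⟨j, hj⟩ := mem_iUnion.mp (h4 hpG)
      exact mem_iUnion.mpr ⟨j, p, hj, hzp⟩

/-- Non-crossing for substituted lenses: a common point of two substituted lenses is a common
endpoint of the chords. -/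
theorem subst_meet {e : E} (he : ‖e‖ = 1) {κ k : ℝ} {C : Set (E × E)} (hκ : 0 < κ)
    (hLS : LS k C) (h2 : 4 * κ ≤ k) {c c' : E × E} (hc : c ∈ C) (hc' : c' ∈ C) (hne : c ≠ c')
    {z z' : E} (hz : z ∈ Lens κ e) (hz' : z' ∈ Lens κ e)
    (h : chordMap e c z = chordMap e c' z') :
    (chordMap e c z = c.1 ∨ chordMap e c z = c.2) ∧
      (chordMap e c' z' = c'.1 ∨ chordMap e c' z' = c'.2) := by
  obtain ⟨p, hp, hp1, -, -⟩ := foot hκ he hz c
  obtain ⟨q, hq, hq1, -, -⟩ := foot hκ he hz' c'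
  have l1 := hLS c hc c' hc' hne p hp q hq
  have l2 := hLS c' hc' c hc hne.symm q hq p hp
  rw [norm_sub_rev q p] at l2
  have hρ : 0 ≤ endDist c p := endDist_nonneg c p
  have hρ' : 0 ≤ endDist c' q := endDist_nonneg c' q
  have t1 : ‖p - q‖ ≤ κ * endDist c p + κ * endDist c' q := by
    have : p - q = (chordMap e c' z' - q) - (chordMap e c z - p) := by rw [h]; abel
    rw [this]
    refine (norm_sub_le _ _).trans ?_
    linarith
  have hρ0 : endDist c p = 0 := by nlinarith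
  have hρ0' : endDist c' q = 0 := by nlinarith
  rw [hρ0, mul_zero] at hp1
  rw [hρ0', mul_zero] at hq1
  have e1 : chordMap e c z = p := sub_eq_zero.mp (norm_le_zero_iff.mp hp1)
  have e2 : chordMap e c' z' = q := sub_eq_zero.mp (norm_le_zero_iff.mp hq1)
  have key : ∀ (d : E × E) (y : E), endDist d y = 0 → y = d.1 ∨ y = d.2 := by
    intro d y hy
    unfold endDist at hy
    rcases min_choice ‖y - d.1‖ ‖y - d.2‖ with h' | h'
    · left; rw [h'] at hy; exact sub_eq_zero.mp (norm_eq_zero.mp hy)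
    · right; rw [h'] at hy; exact sub_eq_zero.mp (norm_eq_zero.mp hy)
  rw [e1, e2]
  exact ⟨key c p hρ0, key c' q hρ0'⟩

end Crest.Agent.Doub
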