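import Mathlib

/-!
# Dimension free variance bound for seminorms of a standard Gaussian vector
-/

set_option autoImplicit false
set_option linter.unusedSectionVars false

namespace Crest.Agent.Doub

open MeasureTheory ProbabilityTheory

section Var

variable {E : Type*} [NormedAddCommGroup E] [InnerProductSpace ℝ E] [FiniteDimensional ℝ E]
  [MeasurableSpace E] [BorelSpace E]

theorem dvo_lip (F : Seminorm ℝ E) (hF : ∀ x, F x ≤ ‖x‖) (x y : E) : |F x - F y| ≤ ‖x - y‖ := by
  rw [abs_le]
  constructor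
  · have := map_sub_rev F x y
    have h1 : F y ≤ F x + F (y - x) := by
      have := map_add_le_add F x (y - x)
      simpa using this
    have h2 := hF (x - y)
    rw [map_sub_rev] at h2
    linarith
  · have h1 : F x ≤ F y + F (x - y) := by
      have := map_add_le_add F y (x - y)
      simpa using this
    have h2 := hF (x - y)
    linarith

theorem dvo_cont (F : Seminorm ℝ E) (hF : ∀ x, F x ≤ ‖x‖) : Continuous F := by
  have : LipschitzWith 1 F := by
    refine LipschitzWith.of_dist_le_mul ?_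
    intro x y
    rw [Real.dist_eq, dist_eq_norm]
    simpa using dvo_lip F hF x y
  exact this.continuous

theorem dvo_memLp (F : Seminorm ℝ E) (hF : ∀ x, F x ≤ ‖x‖) : MemLp F 2 (stdGaussian E) := by
  have h : MemLp (id : E → E) 2 (stdGaussian E) := IsGaussian.memLp_id _ 2 (by simp)
  refine h.mono (dvo_cont F hF).aestronglyMeasurable ?_
  filter_upwards with x
  rw [Real.norm_of_nonneg (apply_nonneg F x)]
  exact hF x

theorem dvo_norming (F : Seminorm ℝ E) (hF : ∀ x, F x ≤ ‖x‖) (x : E) :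
    ∃ L : E →L[ℝ] ℝ, L x = F x ∧ (∀ z, L z ≤ F z) ∧ ‖L‖ ≤ 1 := by
  by_cases hx : x = 0
  · subst hx
    exact ⟨0, by simp, by simp, by simp⟩
  let f : E →ₗ.[ℝ] ℝ := LinearPMap.mkSpanSingleton x (F x) hx
  obtain ⟨g, hg1, hg2⟩ := exists_extension_of_le_sublinear f F
    (by
      intro c hc z
      rw [map_smul_eq_mul, Real.norm_of_nonneg hc.le])
    (fun y z => map_add_le_add F y z)
    (by
      intro ⟨z, hz⟩
      obtain ⟨c, rfl⟩ := Submodule.mem_span_singleton.1 hz
      have h1 : f ⟨c • x, hz⟩ = c * F x := LinearPMap.mkSpanSingleton'_apply x (F x) _ c hz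
      rw [h1]
      simp only [map_smul_eq_mul]
      exact mul_le_mul_of_nonneg_right (le_abs_self c) (apply_nonneg F x))
  have hle : ∀ z, |g z| ≤ ‖z‖ := by
    intro z
    rw [abs_le]
    constructor
    · have h1 := hg2 (-z)
      rw [map_neg, map_neg_eq_map] at h1
      linarith [hF z]
    · exact (hg2 z).trans (hF z)
  let L : E →L[ℝ] ℝ := g.mkContinuous 1 (by intro z; simpa using hle z)
  refine ⟨L, ?_, fun z => hg2 z, g.mkContinuous_norm_le zero_le_one _⟩
  have h1 := hg1 ⟨x, Submodule.mem_span_singleton_self x⟩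
  change g x = F x
  rw [h1]
  exact LinearPMap.mkSpanSingleton_apply ℝ ℝ hx (F x)

theorem dvo_int_sq (L : E →L[ℝ] ℝ) : ∫ y, (L y) ^ 2 ∂(stdGaussian E) = ‖L‖ ^ 2 := by
  rw [← variance_dual_stdGaussian L, variance_of_integral_eq_zero]
  · exact L.continuous.aemeasurable
  · exact integral_strongDual_stdGaussian L

theorem dvo_int_L (L : E →L[ℝ] ℝ) : Integrable (fun y => L y) (stdGaussian E) :=
  IsGaussian.integrable_dual _ L

theorem dvo_int_L2 (L : E →L[ℝ] ℝ) : Integrable (fun y => (L y) ^ 2) (stdGaussian E) :=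
  (IsGaussian.memLp_dual (stdGaussian E) L 2 (by simp)).integrable_sq

/-- inner integral -/
theorem dvo_inner (F : Seminorm ℝ E) (hF : ∀ x, F x ≤ ‖x‖) (c s : ℝ) (x : E) :
    ∫ y, (max (F x - F (c • x + s • y)) 0) ^ 2 ∂(stdGaussian E) ≤ (1 - c) ^ 2 * (F x) ^ 2 + s ^ 2 := by
  obtain ⟨L, hL1, hL2, hL3⟩ := dvo_norming F hF x
  have hpt : ∀ y, (max (F x - F (c • x + s • y)) 0) ^ 2 ≤ ((1 - c) * F x - s * L y) ^ 2 := by
    intro y
    rcases le_total (F x - F (c • x + s • y)) 0 with h | h
    · rw [max_eq_right h]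
      have := sq_nonneg ((1 - c) * F x - s * L y)
      simpa using this
    · rw [max_eq_left h]
      have h1 := hL2 (c • x + s • y)
      rw [map_add, map_smul, map_smul, hL1] at h1
      simp only [smul_eq_mul] at h1
      apply pow_le_pow_left₀ h
      linarith
  have hint : Integrable (fun y => ((1 - c) * F x - s * L y) ^ 2) (stdGaussian E) := by
    have : (fun y => ((1 - c) * F x - s * L y) ^ 2) =
      fun y => ((1 - c) * F x) ^ 2 + ((-(2 * ((1 - c) * F x) * s)) * L y + s ^ 2 * (L y) ^ 2) := by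
      ext y; ring
    rw [this]
    exact (integrable_const _).add (((dvo_int_L L).const_mul _).add ((dvo_int_L2 L).const_mul _))
  calc ∫ y, (max (F x - F (c • x + s • y)) 0) ^ 2 ∂(stdGaussian E)
      ≤ ∫ y, ((1 - c) * F x - s * L y) ^ 2 ∂(stdGaussian E) := by
        apply integral_mono_of_nonneg
        · filter_upwards with y; positivity
        · exact hint
        · filter_upwards with y; exact hpt y
    _ = ∫ y, (((1 - c) * F x) ^ 2 + ((-(2 * ((1 - c) * F x) * s)) * L y + s ^ 2 * (L y) ^ 2)) ∂(stdGaussian E) := by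
        congr 1; ext y; ring
    _ = (1 - c) ^ 2 * (F x) ^ 2 + s ^ 2 * ‖L‖ ^ 2 := by
        have e1 := integral_add (μ := stdGaussian E) (integrable_const (((1 - c) * F x) ^ 2))
          (((dvo_int_L L).const_mul (-(2 * ((1 - c) * F x) * s))).add
            ((dvo_int_L2 L).const_mul (s ^ 2)))
        have e2 := integral_add ((dvo_int_L L).const_mul (-(2 * ((1 - c) * F x) * s)))
            ((dvo_int_L2 L).const_mul (s ^ 2))
        simp only [Pi.add_apply] at e1
        rw [e1, e2, integral_const_mul, integral_const_mul, dvo_int_sq]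
        have : ∫ y, L y ∂(stdGaussian E) = 0 := integral_strongDual_stdGaussian L
        rw [this]
        simp
        ring
    _ ≤ (1 - c) ^ 2 * (F x) ^ 2 + s ^ 2 := by
        have : ‖L‖ ^ 2 ≤ 1 := by
          have := norm_nonneg L
          nlinarith
        have := mul_le_mul_of_nonneg_left this (sq_nonneg s)
        linarith

/-- the reflection `(x, y) ↦ (cos d x + sin d y, sin d x - cos d y)` preserves `μ × μ` -/
theorem dvo_refl (d : ℝ) : MeasurePreserving
    (fun p : E × E => (Real.cos d • p.1 + Real.sin d • p.2, Real.sin d • p.1 - Real.cos d • p.2))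
    ((stdGaussian E).prod (stdGaussian E)) ((stdGaussian E).prod (stdGaussian E)) := by
  have h1 : MeasurePreserving (ContinuousLinearMap.rotation d : E × E → E × E)
      ((stdGaussian E).prod (stdGaussian E)) ((stdGaussian E).prod (stdGaussian E)) := by
    refine ⟨(ContinuousLinearMap.rotation d).continuous.measurable, ?_⟩
    exact IsGaussian.map_rotation_eq_self (by simp) d
  have h2 : MeasurePreserving (fun y : E => -y) (stdGaussian E) (stdGaussian E) := by
    refine ⟨measurable_neg, ?_⟩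
    exact stdGaussian_map (LinearIsometryEquiv.neg ℝ)
  have h3 : MeasurePreserving (Prod.map (id : E → E) (fun y : E => -y))
      ((stdGaussian E).prod (stdGaussian E)) ((stdGaussian E).prod (stdGaussian E)) :=
    (MeasurePreserving.id _).prod h2
  have h4 := h3.comp h1
  convert h4 using 1
  ext p
  · simp [ContinuousLinearMap.rotation_apply]
  · simp [ContinuousLinearMap.rotation_apply]
    abel

theorem dvo_rot (d : ℝ) : MeasurePreserving (ContinuousLinearMap.rotation d : E × E → E × E)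
      ((stdGaussian E).prod (stdGaussian E)) ((stdGaussian E).prod (stdGaussian E)) := by
  refine ⟨(ContinuousLinearMap.rotation d).continuous.measurable, ?_⟩
  exact IsGaussian.map_rotation_eq_self (by simp) d

theorem dvo_fst (F : Seminorm ℝ E) (hF : ∀ x, F x ≤ ‖x‖) :
    MemLp (fun p : E × E => F p.1) 2 ((stdGaussian E).prod (stdGaussian E)) :=
  (dvo_memLp F hF).comp_measurePreserving measurePreserving_fst

theorem dvo_snd (F : Seminorm ℝ E) (hF : ∀ x, F x ≤ ‖x‖) :
    MemLp (fun p : E × E => F p.2) 2 ((stdGaussian E).prod (stdGaussian E)) :=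
  (dvo_memLp F hF).comp_measurePreserving measurePreserving_snd

theorem dvo_rotMem (F : Seminorm ℝ E) (hF : ∀ x, F x ≤ ‖x‖) (d : ℝ) :
    MemLp (fun p : E × E => F (Real.cos d • p.1 + Real.sin d • p.2)) 2
      ((stdGaussian E).prod (stdGaussian E)) :=
  (dvo_fst F hF).comp_measurePreserving (dvo_rot d)

theorem dvo_gmem (F : Seminorm ℝ E) (hF : ∀ x, F x ≤ ‖x‖) (d : ℝ) :
    MemLp (fun p : E × E => F p.1 - F (Real.cos d • p.1 + Real.sin d • p.2)) 2
      ((stdGaussian E).prod (stdGaussian E)) :=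
  (dvo_fst F hF).sub (dvo_rotMem F hF d)

theorem dvo_max_int (F : Seminorm ℝ E) (hF : ∀ x, F x ≤ ‖x‖) (d : ℝ) :
    Integrable (fun p : E × E => (max (F p.1 - F (Real.cos d • p.1 + Real.sin d • p.2)) 0) ^ 2)
      ((stdGaussian E).prod (stdGaussian E)) := by
  have h := (dvo_gmem F hF d).integrable_sq
  refine h.mono ?_ ?_
  · have hc := dvo_cont F hF
    apply Continuous.aestronglyMeasurable
    fun_prop
  · filter_upwards with p
    rw [Real.norm_of_nonneg (by positivity), Real.norm_of_nonneg (by positivity)]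
    rcases le_total (F p.1 - F (Real.cos d • p.1 + Real.sin d • p.2)) 0 with h | h
    · rw [max_eq_right h]
      simpa using sq_nonneg (F p.1 - F (Real.cos d • p.1 + Real.sin d • p.2))
    · rw [max_eq_left h]

theorem dvo_pos (F : Seminorm ℝ E) (hF : ∀ x, F x ≤ ‖x‖) (d : ℝ) :
    ∫ p : E × E, (max (F p.1 - F (Real.cos d • p.1 + Real.sin d • p.2)) 0) ^ 2
      ∂((stdGaussian E).prod (stdGaussian E))
      ≤ (1 - Real.cos d) ^ 2 * (∫ x, (F x) ^ 2 ∂(stdGaussian E)) + Real.sin d ^ 2 := by
  rw [integral_prod _ (dvo_max_int F hF d)]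
  have hS := (dvo_memLp F hF).integrable_sq
  calc ∫ x, ∫ y, (max (F x - F (Real.cos d • x + Real.sin d • y)) 0) ^ 2 ∂(stdGaussian E)
        ∂(stdGaussian E)
      ≤ ∫ x, ((1 - Real.cos d) ^ 2 * (F x) ^ 2 + Real.sin d ^ 2) ∂(stdGaussian E) := by
        apply integral_mono_of_nonneg
        · filter_upwards with x
          apply integral_nonneg
          intro y
          positivity
        · exact (hS.const_mul _).add (integrable_const _)
        · filter_upwards with x
          exact dvo_inner F hF _ _ x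
    _ = _ := by
        rw [integral_add (hS.const_mul _) (integrable_const _), integral_const_mul]
        simp

theorem dvo_two (F : Seminorm ℝ E) (hF : ∀ x, F x ≤ ‖x‖) (d : ℝ) :
    ∫ p : E × E, (F p.1 - F (Real.cos d • p.1 + Real.sin d • p.2)) ^ 2
      ∂((stdGaussian E).prod (stdGaussian E))
      ≤ 2 * ((1 - Real.cos d) ^ 2 * (∫ x, (F x) ^ 2 ∂(stdGaussian E)) + Real.sin d ^ 2) := by
  set ν := (stdGaussian E).prod (stdGaussian E) with hν
  set g : E × E → ℝ := fun p => F p.1 - F (Real.cos d • p.1 + Real.sin d • p.2) with hg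
  let R : E × E → E × E := fun p =>
    (Real.cos d • p.1 + Real.sin d • p.2, Real.sin d • p.1 - Real.cos d • p.2)
  have hgR : ∀ p, g (R p) = - g p := by
    intro p
    simp only [hg, R]
    have : Real.cos d • (Real.cos d • p.1 + Real.sin d • p.2) +
        Real.sin d • (Real.sin d • p.1 - Real.cos d • p.2) = p.1 := by
      have h1 : Real.cos d • (Real.cos d • p.1 + Real.sin d • p.2) +
        Real.sin d • (Real.sin d • p.1 - Real.cos d • p.2) =
        (Real.cos d ^ 2 + Real.sin d ^ 2) • p.1 := by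
        simp only [smul_add, smul_sub, smul_smul, add_smul, pow_two]
        rw [mul_comm (Real.sin d) (Real.cos d)]
        abel
      rw [h1, Real.cos_sq_add_sin_sq, one_smul]
    rw [this]
    ring
  have hsplit : ∀ p, (g p) ^ 2 = (max (g p) 0) ^ 2 + (max (- g p) 0) ^ 2 := by
    intro p
    rcases le_total (g p) 0 with h | h
    · rw [max_eq_right h, max_eq_left (by linarith)]; ring
    · rw [max_eq_left h, max_eq_right (by linarith)]; ring
  have hmi : Integrable (fun p => (max (g p) 0) ^ 2) ν := dvo_max_int F hF d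
  have hmi2 : Integrable (fun p => (max (- g p) 0) ^ 2) ν := by
    have h := (dvo_refl (E := E) d).integrable_comp_of_integrable hmi
    refine h.congr ?_
    filter_upwards with p
    simp only [Function.comp]
    rw [← hgR p]
  have heq : ∫ p, (max (- g p) 0) ^ 2 ∂ν = ∫ p, (max (g p) 0) ^ 2 ∂ν := by
    have hm := (dvo_refl (E := E) d)
    have h1 : ∫ p, (max (g p) 0) ^ 2 ∂ν = ∫ p, (max (g p) 0) ^ 2 ∂(ν.map R) := by
      rw [hm.map_eq]
    rw [h1, integral_map hm.measurable.aemeasurable]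
    · congr 1; ext p; rw [← hgR p]
    · rw [hm.map_eq]
      exact hmi.aestronglyMeasurable
  calc ∫ p, (g p) ^ 2 ∂ν = ∫ p, ((max (g p) 0) ^ 2 + (max (- g p) 0) ^ 2) ∂ν := by
        congr 1; ext p; exact hsplit p
    _ = 2 * ∫ p, (max (g p) 0) ^ 2 ∂ν := by
        rw [integral_add hmi hmi2, heq]; ring
    _ ≤ _ := by
        have := dvo_pos F hF d
        linarith

theorem dvo_step (F : Seminorm ℝ E) (hF : ∀ x, F x ≤ ‖x‖) (d θ : ℝ) :
    ∫ p : E × E, (F (Real.cos θ • p.1 + Real.sin θ • p.2) -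
        F (Real.cos (θ + d) • p.1 + Real.sin (θ + d) • p.2)) ^ 2
      ∂((stdGaussian E).prod (stdGaussian E))
      = ∫ p : E × E, (F p.1 - F (Real.cos d • p.1 + Real.sin d • p.2)) ^ 2
      ∂((stdGaussian E).prod (stdGaussian E)) := by
  set ν := (stdGaussian E).prod (stdGaussian E) with hν
  have hm := dvo_rot (E := E) θ
  have hc := dvo_cont F hF
  have h1 : ∫ p : E × E, (F p.1 - F (Real.cos d • p.1 + Real.sin d • p.2)) ^ 2 ∂ν =
    ∫ p : E × E, (F p.1 - F (Real.cos d • p.1 + Real.sin d • p.2)) ^ 2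
      ∂(ν.map (ContinuousLinearMap.rotation θ : E × E → E × E)) := by rw [hm.map_eq]
  rw [h1, integral_map hm.measurable.aemeasurable]
  · congr 1
    ext p
    rw [ContinuousLinearMap.rotation_apply]
    simp only
    have hvec : Real.cos d • (Real.cos θ • p.1 + Real.sin θ • p.2) +
        Real.sin d • (-Real.sin θ • p.1 + Real.cos θ • p.2) =
        Real.cos (θ + d) • p.1 + Real.sin (θ + d) • p.2 := by
      rw [Real.cos_add, Real.sin_add]
      module
    rw [hvec]
  · apply Continuous.aestronglyMeasurable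
    fun_prop

theorem dvo_tele (F : Seminorm ℝ E) (hF : ∀ x, F x ≤ ‖x‖) (M : ℕ) (hM : 0 < M) :
    ∫ p : E × E, (F p.1 - F p.2) ^ 2 ∂((stdGaussian E).prod (stdGaussian E))
      ≤ M ^ 2 * (2 * ((1 - Real.cos (Real.pi / (2 * M))) ^ 2 * (∫ x, (F x) ^ 2 ∂(stdGaussian E))
          + Real.sin (Real.pi / (2 * M)) ^ 2)) := by
  set ν := (stdGaussian E).prod (stdGaussian E) with hν
  set d := Real.pi / (2 * M) with hd
  have hM' : (0:ℝ) < M := by exact_mod_cast hM
  have hcos : 0 ≤ Real.cos d := by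
    apply Real.cos_nonneg_of_neg_pi_div_two_le_of_le
    · have := Real.pi_pos
      have : 0 ≤ d := by positivity
      linarith
    · rw [hd]
      have : (1:ℝ) ≤ M := by exact_mod_cast hM
      rw [div_le_div_iff₀ (by positivity) (by norm_num)]
      have := Real.pi_pos
      nlinarith
  let X : ℕ → E × E → E := fun j p => Real.cos (j * d) • p.1 + Real.sin (j * d) • p.2
  have hX0 : ∀ p, X 0 p = p.1 := by intro p; simp [X]
  have hXM : ∀ p, X M p = p.2 := by
    intro p
    have : (M:ℝ) * d = Real.pi / 2 := by rw [hd]; field_simp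
    simp [X, this]
  have hstep : ∀ j, ∫ p, (F (X j p) - F (X (j+1) p)) ^ 2 ∂ν ≤
      2 * ((1 - Real.cos d) ^ 2 * (∫ x, (F x) ^ 2 ∂(stdGaussian E)) + Real.sin d ^ 2) := by
    intro j
    have h1 := dvo_step F hF d (j * d)
    have h2 := dvo_two F hF d
    rw [← h1] at h2
    refine le_trans (le_of_eq ?_) h2
    congr 1
    ext p
    simp only [X]
    have : ((j + 1 : ℕ) : ℝ) * d = j * d + d := by push_cast; ring
    rw [this]
  have hmem : ∀ j, MemLp (fun p => F (X j p)) 2 ν := fun j => dvo_rotMem F hF (j * d)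
  have hint : ∀ j, Integrable (fun p => (F (X j p) - F (X (j+1) p)) ^ 2) ν := fun j =>
    ((hmem j).sub (hmem (j+1))).integrable_sq
  have hpt : ∀ p, (F p.1 - F p.2) ^ 2 ≤
      M * ∑ j ∈ Finset.range M, (F (X j p) - F (X (j+1) p)) ^ 2 := by
    intro p
    have h1 : F p.1 - F p.2 = ∑ j ∈ Finset.range M, (F (X j p) - F (X (j+1) p)) := by
      rw [Finset.sum_range_sub' (fun j => F (X j p)), hX0, hXM]
    rw [h1]
    have := sq_sum_le_card_mul_sum_sq (s := Finset.range M) (f := fun j => (F (X j p) - F (X (j+1) p)))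
    simpa using this
  calc ∫ p : E × E, (F p.1 - F p.2) ^ 2 ∂ν
      ≤ ∫ p, M * ∑ j ∈ Finset.range M, (F (X j p) - F (X (j+1) p)) ^ 2 ∂ν := by
        apply integral_mono_of_nonneg
        · filter_upwards with p; positivity
        · exact (integrable_finsetSum _ (fun j _ => hint j)).const_mul _
        · filter_upwards with p; exact hpt p
    _ = M * ∑ j ∈ Finset.range M, ∫ p, (F (X j p) - F (X (j+1) p)) ^ 2 ∂ν := by
        rw [integral_const_mul, integral_finsetSum _ (fun j _ => hint j)]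
    _ ≤ M * ∑ j ∈ Finset.range M, (2 * ((1 - Real.cos d) ^ 2 * (∫ x, (F x) ^ 2 ∂(stdGaussian E)) + Real.sin d ^ 2)) := by
        apply mul_le_mul_of_nonneg_left _ hM'.le
        exact Finset.sum_le_sum (fun j _ => hstep j)
    _ = _ := by
        rw [Finset.sum_const, Finset.card_range, nsmul_eq_mul]
        ring

theorem dvo_diff (F : Seminorm ℝ E) (hF : ∀ x, F x ≤ ‖x‖) :
    ∫ p : E × E, (F p.1 - F p.2) ^ 2 ∂((stdGaussian E).prod (stdGaussian E)) ≤ 6 := by
  set S := ∫ x, (F x) ^ 2 ∂(stdGaussian E) with hS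
  have hS0 : 0 ≤ S := integral_nonneg (fun x => by positivity)
  obtain ⟨M, hM⟩ := exists_nat_ge (4 * S + 1)
  have hM1 : (1:ℝ) ≤ M := by linarith
  have hM0 : 0 < M := by
    have : (0:ℝ) < M := by linarith
    exact_mod_cast this
  refine (dvo_tele F hF M hM0).trans ?_
  rw [← hS]
  set d := Real.pi / (2 * M) with hd
  have hMd : M * d = Real.pi / 2 := by rw [hd]; field_simp
  have hd0 : 0 ≤ d := by have := Real.pi_pos; positivity
  have h1 : 1 - Real.cos d ≤ d ^ 2 / 2 := by
    have := Real.one_sub_sq_div_two_le_cos (x := d)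
    linarith
  have h1' : 0 ≤ 1 - Real.cos d := by linarith [Real.cos_le_one d]
  have h2 : Real.sin d ^ 2 ≤ d ^ 2 := by
    rw [sq_le_sq, abs_of_nonneg hd0]
    have := Real.abs_sin_le_abs (x := d)
    rwa [abs_of_nonneg hd0] at this
  have h3 : (1 - Real.cos d) ^ 2 ≤ (d ^ 2 / 2) ^ 2 := pow_le_pow_left₀ h1' h1 2
  have hpi : Real.pi ^ 2 ≤ 10 := by
    have := Real.pi_lt_d2
    have := Real.pi_pos
    nlinarith
  have hMd2 : (M:ℝ) ^ 2 * d ^ 2 = Real.pi ^ 2 / 4 := by
    rw [← mul_pow, hMd]; ring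
  have hA : (M:ℝ) ^ 2 * d ^ 2 ≤ 5 / 2 := by rw [hMd2]; linarith
  -- d^2 S ≤ 5/8
  have hB : d ^ 2 * S ≤ 5 / 8 := by
    have h5 : d ^ 2 * (4 * S) ≤ d ^ 2 * M ^ 2 := by
      apply mul_le_mul_of_nonneg_left _ (sq_nonneg d)
      nlinarith
    nlinarith
  have h6 : (M:ℝ) ^ 2 * (2 * ((1 - Real.cos d) ^ 2 * S + Real.sin d ^ 2)) ≤
      M ^ 2 * (2 * ((d ^ 2 / 2) ^ 2 * S + d ^ 2)) := by
    gcongr
  refine h6.trans ?_
  have h7 : (M:ℝ) ^ 2 * (2 * ((d ^ 2 / 2) ^ 2 * S + d ^ 2)) =
    (M ^ 2 * d ^ 2) * (2 * (1 + (d ^ 2 * S) / 4)) := by ring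
  rw [h7]
  have h8 : 2 * (1 + (d ^ 2 * S) / 4) ≤ 12 / 5 := by linarith
  calc (M:ℝ) ^ 2 * d ^ 2 * (2 * (1 + (d ^ 2 * S) / 4)) ≤ (5/2) * (12/5) := by
        apply mul_le_mul hA h8 (by positivity) (by norm_num)
    _ = 6 := by norm_num

/-- **dimension free variance bound** -/
theorem dvo_variance (F : Seminorm ℝ E) (hF : ∀ x, F x ≤ ‖x‖) :
    Var[F; stdGaussian E] ≤ 3 := by
  have hmem := dvo_memLp F hF
  have hi := (hmem.integrable one_le_two)
  have h := dvo_diff F hF
  have h1 : ∫ p : E × E, (F p.1 - F p.2) ^ 2 ∂((stdGaussian E).prod (stdGaussian E)) =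
      2 * Var[F; stdGaussian E] := by
    rw [variance_eq_sub hmem]
    have e1 : (fun p : E × E => (F p.1 - F p.2) ^ 2) =
      fun p => (F p.1 ^ 2 + F p.2 ^ 2) + (-2) * (F p.1 * F p.2) := by
      ext p; ring
    have i1 : Integrable (fun p : E × E => F p.1 ^ 2) ((stdGaussian E).prod (stdGaussian E)) :=
      (dvo_fst F hF).integrable_sq
    have i2 : Integrable (fun p : E × E => F p.2 ^ 2) ((stdGaussian E).prod (stdGaussian E)) :=
      (dvo_snd F hF).integrable_sq
    have i3 : Integrable (fun p : E × E => F p.1 * F p.2) ((stdGaussian E).prod (stdGaussian E)) :=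
      hi.mul_prod hi
    have e4 := integral_add (i1.add i2) (i3.const_mul (-2))
    simp only [Pi.add_apply] at e4
    rw [e1, e4, integral_add i1 i2, integral_const_mul, integral_prod_mul]
    have e2 : ∫ p : E × E, F p.1 ^ 2 ∂((stdGaussian E).prod (stdGaussian E)) =
      ∫ x, F x ^ 2 ∂(stdGaussian E) := by
      rw [integral_prod _ i1]
      simp
    have e3 : ∫ p : E × E, F p.2 ^ 2 ∂((stdGaussian E).prod (stdGaussian E)) =
      ∫ x, F x ^ 2 ∂(stdGaussian E) := by
      rw [integral_prod _ i2]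
      simp
    rw [e2, e3]
    simp only [Pi.pow_apply]
    ring
  rw [h1] at h
  linarith

end Var

end Crest.Agent.Doub
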