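import Mathlib
import Crest.Agent.Doub.DvoVar

/-!
# Lower bound for the Gaussian mean
-/

set_option autoImplicit false

namespace Crest.Agent.Doub

open MeasureTheory ProbabilityTheory

/-- the reflection across the `i`-th coordinate axis -/
noncomputable def dvoFlip {m : ℕ} (i : Fin m) :
    EuclideanSpace ℝ (Fin m) ≃ₗᵢ[ℝ] EuclideanSpace ℝ (Fin m) :=
  (Submodule.span ℝ {(EuclideanSpace.single i (1:ℝ) : EuclideanSpace ℝ (Fin m))}).reflection

theorem dvoFlip_apply {m : ℕ} (i : Fin m) (a : EuclideanSpace ℝ (Fin m)) :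
    dvoFlip i a = (2 * a i) • EuclideanSpace.single i (1:ℝ) - a := by
  unfold dvoFlip
  rw [Submodule.reflection_apply, Submodule.starProjection_unit_singleton]
  · have h : inner ℝ (EuclideanSpace.single i (1:ℝ)) a = a i := by
      simp [EuclideanSpace.inner_single_left]
    rw [h, two_nsmul, ← add_smul]
    congr 2
    ring
  · simp

theorem dvoFlip_abs {m : ℕ} (i j : Fin m) (a : EuclideanSpace ℝ (Fin m)) :
    |dvoFlip i a j| = |a j| := by
  rw [dvoFlip_apply]
  by_cases h : j = i
  · subst h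
    simp
    congr 1
    ring
  · simp [h]

theorem dvo_flip_lower {m : ℕ} (F : Seminorm ℝ (EuclideanSpace ℝ (Fin m))) (c : ℝ)
    (i : Fin m) (hc : c ≤ F (EuclideanSpace.single i 1)) (a : EuclideanSpace ℝ (Fin m)) :
    2 * c * |a i| ≤ F a + F (dvoFlip i a) := by
  have h1 : F (a + dvoFlip i a) ≤ F a + F (dvoFlip i a) := map_add_le_add F _ _
  have h2 : a + dvoFlip i a = (2 * a i) • EuclideanSpace.single i (1:ℝ) := by
    rw [dvoFlip_apply]; abel
  rw [h2, map_smul_eq_mul, Real.norm_eq_abs, abs_mul, abs_two] at h1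
  have h3 := mul_le_mul_of_nonneg_left hc (abs_nonneg (a i))
  nlinarith

def dvoA {m : ℕ} (t : ℝ) (i : Fin m) : Set (EuclideanSpace ℝ (Fin m)) :=
  {a | t ≤ |a i| ∧ ∀ j, j < i → |a j| < t}

theorem dvoA_meas {m : ℕ} (t : ℝ) (i : Fin m) : MeasurableSet (dvoA t i) := by
  have : dvoA t i = {a | t ≤ |a i|} ∩ ⋂ j, {a : EuclideanSpace ℝ (Fin m) | j < i → |a j| < t} := by
    ext a
    simp [dvoA]
  rw [this]
  refine MeasurableSet.inter ?_ (MeasurableSet.iInter ?_)
  · exact measurableSet_le measurable_const (by fun_prop)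
  · intro j
    by_cases h : j < i
    · simp only [h, true_imp_iff]
      exact measurableSet_lt (by fun_prop) measurable_const
    · simp [h]

theorem dvoA_disj {m : ℕ} (t : ℝ) : Pairwise (Function.onFun Disjoint (dvoA (m := m) t)) := by
  intro i j hij
  rw [Function.onFun, Set.disjoint_left]
  intro a hi hj
  rcases lt_or_gt_of_ne hij with h | h
  · have := hj.2 i h
    linarith [hi.1]
  · have := hi.2 j h
    linarith [hj.1]

theorem dvoA_union {m : ℕ} (t : ℝ) :
    (⋃ i, dvoA (m := m) t i)ᶜ = {a : EuclideanSpace ℝ (Fin m) | ∀ i, |a i| < t} := by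
  ext a
  simp only [Set.mem_compl_iff, Set.mem_iUnion, Set.mem_ofPred_eq, dvoA]
  constructor
  · intro h i
    by_contra hcon
    -- take the least such i
    have hne : (Finset.univ.filter (fun i => t ≤ |a i|)).Nonempty := ⟨i, by simpa using hcon⟩
    apply h
    refine ⟨(Finset.univ.filter (fun i => t ≤ |a i|)).min' hne, ?_, ?_⟩
    · have := Finset.min'_mem _ hne
      simpa using this
    · intro j hj
      by_contra hc
      push Not at hc
      have : j ∈ Finset.univ.filter (fun i => t ≤ |a i|) := by simpa using hc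
      have := Finset.min'_le _ _ this
      exact absurd hj (not_lt.2 this)
  · rintro h ⟨i, hi, -⟩
    linarith [h i]

theorem dvoA_flip {m : ℕ} (t : ℝ) (i : Fin m) : (dvoFlip i) ⁻¹' (dvoA t i) = dvoA t i := by
  ext a
  simp only [Set.mem_preimage, dvoA, Set.mem_ofPred_eq, dvoFlip_abs]

theorem dvo_setInt {m : ℕ} (F : Seminorm ℝ (EuclideanSpace ℝ (Fin m))) (hF : ∀ x, F x ≤ ‖x‖)
    (c : ℝ) (hc0 : 0 ≤ c)
    (i : Fin m) (hc : c ≤ F (EuclideanSpace.single i 1)) (t : ℝ) :
    c * t * (stdGaussian (EuclideanSpace ℝ (Fin m))).real (dvoA t i) ≤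
      ∫ a in dvoA t i, F a ∂(stdGaussian (EuclideanSpace ℝ (Fin m))) := by
  set μ := stdGaussian (EuclideanSpace ℝ (Fin m)) with hμ
  have hi : Integrable F μ := (dvo_memLp F hF).integrable one_le_two
  have hm : MeasurePreserving (dvoFlip i) μ μ := ⟨(dvoFlip i).continuous.measurable, stdGaussian_map _⟩
  have hi2 : Integrable (fun a => F (dvoFlip i a)) μ := hm.integrable_comp_of_integrable hi
  have h1 : ∫ a in dvoA t i, F (dvoFlip i a) ∂μ = ∫ a in dvoA t i, F a ∂μ := by
    have := hm.setIntegral_preimage_emb (dvoFlip i).toHomeomorph.measurableEmbedding F (dvoA t i)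
    rw [dvoA_flip] at this
    exact this
  have h2 : ∫ a in dvoA t i, (2 * c * t) ∂μ ≤ ∫ a in dvoA t i, (F a + F (dvoFlip i a)) ∂μ := by
    apply setIntegral_mono_on
    · exact (integrable_const _).integrableOn
    · exact (hi.add hi2).integrableOn
    · exact dvoA_meas t i
    · intro a ha
      refine le_trans ?_ (dvo_flip_lower F c i hc a)
      exact mul_le_mul_of_nonneg_left ha.1 (by positivity)
  rw [integral_add hi.integrableOn hi2.integrableOn, h1, setIntegral_const] at h2
  simp only [smul_eq_mul] at h2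
  linarith

theorem dvo_mean_aux {m : ℕ} (F : Seminorm ℝ (EuclideanSpace ℝ (Fin m))) (hF : ∀ x, F x ≤ ‖x‖)
    (c : ℝ) (hc0 : 0 ≤ c)
    (hc : ∀ i, c ≤ F (EuclideanSpace.single i 1)) (t : ℝ) :
    c * t * (1 - ((gaussianReal 0 1).real {x | |x| < t}) ^ m) ≤
      ∫ a, F a ∂(stdGaussian (EuclideanSpace ℝ (Fin m))) := by
  set μ := stdGaussian (EuclideanSpace ℝ (Fin m)) with hμ
  have hi : Integrable F μ := (dvo_memLp F hF).integrable one_le_two
  have h1 : μ.real (⋃ i, dvoA (m := m) t i) = 1 - ((gaussianReal 0 1).real {x | |x| < t}) ^ m := by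
    have hmeas : MeasurableSet (⋃ i, dvoA (m := m) t i) := MeasurableSet.iUnion (dvoA_meas t)
    have h2 := probReal_compl_eq_one_sub (μ := μ) hmeas
    have h3 : μ.real (⋃ i, dvoA (m := m) t i)ᶜ = ((gaussianReal 0 1).real {x | |x| < t}) ^ m := by
      rw [dvoA_union, hμ, ← map_pi_eq_stdGaussian, Measure.real, Measure.map_apply]
      · have : (WithLp.toLp 2 : (Fin m → ℝ) → EuclideanSpace ℝ (Fin m)) ⁻¹' {a | ∀ i, |a i| < t} =
          Set.univ.pi (fun _ => {x : ℝ | |x| < t}) := by
          ext a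
          simp
        rw [this, Measure.pi_pi]
        simp [Measure.real]
      · fun_prop
      · rw [← dvoA_union]
        exact hmeas.compl
    linarith
  rw [← h1]
  have h4 : μ.real (⋃ i, dvoA (m := m) t i) = ∑ i, μ.real (dvoA t i) := by
    exact measureReal_iUnion_fintype (dvoA_disj t) (dvoA_meas t)
  rw [h4, Finset.mul_sum]
  calc ∑ i, c * t * μ.real (dvoA t i) ≤ ∑ i, ∫ a in dvoA t i, F a ∂μ :=
        Finset.sum_le_sum (fun i _ => dvo_setInt F hF c hc0 i (hc i) t)
    _ = ∫ a in ⋃ i, dvoA (m := m) t i, F a ∂μ := by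
        rw [integral_iUnion_fintype (dvoA_meas t) (dvoA_disj t) (fun i => hi.integrableOn)]
    _ ≤ ∫ a, F a ∂μ := by
        apply setIntegral_le_integral hi
        filter_upwards with a
        exact apply_nonneg F a

theorem dvo_gauss_lt_one (t : ℝ) : (gaussianReal 0 1).real {x | |x| < t} < 1 := by
  have h0 : (gaussianReal 0 1).real {x : ℝ | |x| < t} + (gaussianReal 0 1).real {x : ℝ | |x| < t}ᶜ = 1 := by
    apply probReal_add_probReal_compl
    exact measurableSet_lt (by fun_prop) measurable_const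
  have h1 : 0 < (gaussianReal 0 1).real {x : ℝ | |x| < t}ᶜ := by
    have h2 : 0 < (gaussianReal 0 1) (Set.Ioi (max t 0)) := by
      have : (volume : Measure ℝ) ≪ gaussianReal 0 1 := gaussianReal_absolutelyContinuous' 0 (by simp)
      by_contra hcon
      have h0 : gaussianReal 0 1 (Set.Ioi (max t 0)) = 0 := by
        simpa using hcon
      have := this h0
      simp at this
    have h3 : Set.Ioi (max t 0) ⊆ {x : ℝ | |x| < t}ᶜ := by
      intro x hx
      simp only [Set.mem_Ioi, max_lt_iff] at hx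
      simp only [Set.mem_compl_iff, Set.mem_ofPred_eq, not_lt]
      rw [abs_of_pos hx.2]
      exact hx.1.le
    have h4 : 0 < gaussianReal 0 1 {x : ℝ | |x| < t}ᶜ := lt_of_lt_of_le h2 (measure_mono h3)
    exact ENNReal.toReal_pos h4.ne' (measure_ne_top _ _)
  linarith

/-- the Gaussian mean is large for large `m` -/
theorem dvo_mean (K : ℝ) : ∃ m : ℕ, ∀ F : Seminorm ℝ (EuclideanSpace ℝ (Fin m)),
    (∀ x, F x ≤ ‖x‖) → (∀ i, 2 / 5 ≤ F (EuclideanSpace.single i 1)) →
      K ≤ ∫ a, F a ∂(stdGaussian (EuclideanSpace ℝ (Fin m))) := by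
  set t := max (5 * K) 1 with ht
  have h1 : (gaussianReal 0 1).real {x | |x| < t} < 1 := dvo_gauss_lt_one t
  have h0 : 0 ≤ (gaussianReal 0 1).real {x | |x| < t} := measureReal_nonneg
  obtain ⟨m, hm⟩ := exists_pow_lt_of_lt_one (by norm_num : (0:ℝ) < 1/2) h1
  refine ⟨m, fun F hF hc => ?_⟩
  refine le_trans ?_ (dvo_mean_aux F hF (2/5) (by norm_num) hc t)
  have h2 : 1/2 ≤ 1 - ((gaussianReal 0 1).real {x | |x| < t}) ^ m := by linarith
  have h3 : 5 * K ≤ t := le_max_left _ _
  have h4 : 1 ≤ t := le_max_right _ _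
  calc K ≤ 2 / 5 * t * (1/2) := by linarith
    _ ≤ _ := by
      apply mul_le_mul_of_nonneg_left h2
      positivity

end Crest.Agent.Doub
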