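import Mathlib
import Crest.Agent.Doub.Basic

/-!
# Dvoretzky–Rogers lemma
-/

set_option autoImplicit false

namespace Crest.Agent.Doub

open Module

theorem dvo_det_one_add {E : Type*} [NormedAddCommGroup E] [InnerProductSpace ℝ E]
    [FiniteDimensional ℝ E] (K : Submodule ℝ E) :
    LinearMap.det (LinearMap.id + (Kᗮ.starProjection : E →ₗ[ℝ] E)) = 2 ^ finrank ℝ Kᗮ := by
  let e := K.prodEquivOfIsCompl _ K.isCompl_orthogonal
  let b := (finBasis ℝ K).prod (finBasis ℝ Kᗮ)
  have h1 : ∀ x : E, x ∈ K → Kᗮ.starProjection x = 0 := by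
    intro x hx
    rw [Submodule.starProjection_apply_eq_zero_iff]
    rw [Submodule.orthogonal_orthogonal]
    exact hx
  have h2 : ∀ x : E, x ∈ Kᗮ → Kᗮ.starProjection x = x := by
    intro x hx
    exact Submodule.starProjection_eq_self_iff.2 hx
  have : LinearMap.toMatrix b b (e.symm ∘ₗ (LinearMap.id + (Kᗮ.starProjection : E →ₗ[ℝ] E)) ∘ₗ e.symm.symm) =
      Matrix.fromBlocks 1 0 0 ((2:ℝ) • 1) := by
    ext (i | i) (j | j) <;>
    simp [LinearMap.toMatrix_apply, b, Matrix.one_apply, Finsupp.single_apply, e, eq_comm, h1, h2]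
    split_ifs <;> norm_num
  rw [← LinearMap.det_conj _ e.symm, ← LinearMap.det_toMatrix b, this, Matrix.det_fromBlocks_zero₂₁,
    Matrix.det_one, one_mul, Matrix.det_smul, Fintype.card_fin, Matrix.det_one, mul_one]

/-- existence of a linear contraction of maximal determinant -/
theorem dvo_max {X : Type*} [NormedAddCommGroup X] [NormedSpace ℝ X] [FiniteDimensional ℝ X]
    {n : ℕ} (hn : finrank ℝ X = n) :
    ∃ (D : (EuclideanSpace ℝ (Fin n) →L[ℝ] X) → ℝ) (u : EuclideanSpace ℝ (Fin n) →L[ℝ] X),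
      ‖u‖ ≤ 1 ∧ 0 < D u ∧ (∀ v, D v ≤ D u * ‖v‖ ^ n) ∧
      (∀ w : EuclideanSpace ℝ (Fin n) →L[ℝ] EuclideanSpace ℝ (Fin n),
        D (u.comp w) = D u * |w.det|) := by
  have hfr : finrank ℝ X = finrank ℝ (EuclideanSpace ℝ (Fin n)) := by simp [hn]
  let ψ : X ≃L[ℝ] EuclideanSpace ℝ (Fin n) := ContinuousLinearEquiv.ofFinrankEq hfr
  let D : (EuclideanSpace ℝ (Fin n) →L[ℝ] X) → ℝ := fun v => |((ψ : X →L[ℝ] _).comp v).det|
  have hDc : Continuous D := by
    refine (ContinuousLinearMap.continuous_det.comp ?_).abs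
    exact (ContinuousLinearMap.compL ℝ (EuclideanSpace ℝ (Fin n)) X (EuclideanSpace ℝ (Fin n)) (ψ : X →L[ℝ] EuclideanSpace ℝ (Fin n))).continuous
  have hDs : ∀ (c : ℝ) v, D (c • v) = |c| ^ n * D v := by
    intro c v
    simp only [D]
    rw [ContinuousLinearMap.comp_smul]
    simp only [ContinuousLinearMap.det, ContinuousLinearMap.toLinearMap_smul]
    rw [LinearMap.det_smul, abs_mul, abs_pow]
    simp
  have hcomp : IsCompact (Metric.closedBall (0 : EuclideanSpace ℝ (Fin n) →L[ℝ] X) 1) :=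
    isCompact_closedBall _ _
  obtain ⟨u, hu, hmax⟩ := hcomp.exists_isMaxOn ⟨0, by simp⟩ hDc.continuousOn
  have hu1 : ‖u‖ ≤ 1 := by simpa using hu
  have hall : ∀ v, D v ≤ D u * ‖v‖ ^ n := by
    intro v
    by_cases hv : v = 0
    · subst hv
      by_cases hn0 : n = 0
      · subst hn0
        have : u = 0 := by
          ext x
          have : x = 0 := Subsingleton.elim _ _
          simp [this]
        simp [this]
      · have h0 := hDs 0 0
        simp only [smul_zero, abs_zero] at h0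
        rw [h0]
        simp [hn0]
    · have hv' : ‖v‖ ≠ 0 := by simpa using hv
      have h1 : ‖v‖⁻¹ • v ∈ Metric.closedBall (0 : EuclideanSpace ℝ (Fin n) →L[ℝ] X) 1 := by
        simp [norm_smul, hv']
      have h2 : D (‖v‖⁻¹ • v) ≤ D u := hmax h1
      have h3 : D v = ‖v‖ ^ n * D (‖v‖⁻¹ • v) := by
        rw [hDs, abs_inv, abs_norm, ← mul_assoc, ← mul_pow, mul_inv_cancel₀ hv', one_pow, one_mul]
      rw [h3, mul_comm]
      exact mul_le_mul_of_nonneg_right h2 (by positivity)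
  have hpos : 0 < D u := by
    have h1 : D (ψ.symm : EuclideanSpace ℝ (Fin n) →L[ℝ] X) = 1 := by
      simp only [D]
      simp [ContinuousLinearMap.det]
    have h2 := hall (ψ.symm : EuclideanSpace ℝ (Fin n) →L[ℝ] X)
    rw [h1] at h2
    by_contra hneg
    push Not at hneg
    have : D u * ‖(ψ.symm : EuclideanSpace ℝ (Fin n) →L[ℝ] X)‖ ^ n ≤ 0 := mul_nonpos_of_nonpos_of_nonneg hneg (by positivity)
    linarith
  refine ⟨D, u, hu1, hpos, hall, ?_⟩
  intro w
  simp only [D, ContinuousLinearMap.det]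
  rw [← abs_mul, ← LinearMap.det_comp]
  rfl

/-- in every subspace of dimension `≥ n/2` there is a unit vector with `‖u e‖ ≥ 2/5`. -/
theorem dvo_exists_vec {X : Type*} [NormedAddCommGroup X] [NormedSpace ℝ X]
    [FiniteDimensional ℝ X] {n : ℕ} 
    (D : (EuclideanSpace ℝ (Fin n) →L[ℝ] X) → ℝ) (u : EuclideanSpace ℝ (Fin n) →L[ℝ] X)
    (hu : ‖u‖ ≤ 1) (hD : 0 < D u) (hmax : ∀ v, D v ≤ D u * ‖v‖ ^ n)
    (hcomp : ∀ w : EuclideanSpace ℝ (Fin n) →L[ℝ] EuclideanSpace ℝ (Fin n),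
        D (u.comp w) = D u * |w.det|)
    (K : Submodule ℝ (EuclideanSpace ℝ (Fin n))) (hK : 2 * finrank ℝ K < n) :
    ∃ e : EuclideanSpace ℝ (Fin n), ‖e‖ = 1 ∧ e ∈ Kᗮ ∧ 2 / 5 ≤ ‖u e‖ := by
  set P := Kᗮ.starProjection with hP
  have hfr : finrank ℝ Kᗮ = n - finrank ℝ K := by
    have := Submodule.finrank_add_finrank_orthogonal K
    simp at this
    omega
  have h1 := hmax (u.comp (ContinuousLinearMap.id ℝ _ + P))
  rw [hcomp] at h1
  have h2 : (ContinuousLinearMap.id ℝ _ + P).det = 2 ^ finrank ℝ Kᗮ := dvo_det_one_add K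
  rw [h2] at h1
  have h3 : |(2:ℝ) ^ finrank ℝ Kᗮ| ≤ ‖u.comp (ContinuousLinearMap.id ℝ _ + P)‖ ^ n :=
    le_of_mul_le_mul_left h1 hD
  by_contra hcon
  push Not at hcon
  have hPn : ‖u.comp P‖ ≤ 2 / 5 := by
    refine ContinuousLinearMap.opNorm_le_bound _ (by norm_num) ?_
    intro x
    rw [ContinuousLinearMap.comp_apply]
    have hmem : P x ∈ Kᗮ := Submodule.starProjection_apply_mem _ _
    have hle : ‖P x‖ ≤ ‖x‖ := Submodule.norm_starProjection_apply_le _ _
    by_cases h0 : P x = 0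
    · rw [h0]; simp
    · have hn0 : ‖P x‖ ≠ 0 := by simpa using h0
      have := hcon (‖P x‖⁻¹ • P x) (by simp [norm_smul, hn0]) (Submodule.smul_mem _ _ hmem)
      rw [map_smul, norm_smul, norm_inv, norm_norm] at this
      have h5 : ‖u (P x)‖ < 2 / 5 * ‖P x‖ := by
        rw [inv_mul_lt_iff₀ (by positivity)] at this
        linarith
      nlinarith
  have h4 : ‖u.comp (ContinuousLinearMap.id ℝ _ + P)‖ ≤ 7 / 5 := by
    rw [ContinuousLinearMap.comp_add]
    refine (norm_add_le _ _).trans ?_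
    rw [ContinuousLinearMap.comp_id]
    linarith
  have h5 : ‖u.comp (ContinuousLinearMap.id ℝ _ + P)‖ ^ n ≤ (7 / 5) ^ n :=
    pow_le_pow_left₀ (norm_nonneg _) h4 n
  have h6 : (2:ℝ) ^ finrank ℝ Kᗮ ≤ (7/5) ^ n := by
    refine le_trans (le_abs_self _) (h3.trans h5)
  -- square
  have h7 : ((2:ℝ) ^ finrank ℝ Kᗮ)^2 ≤ ((7/5) ^ n)^2 := pow_le_pow_left₀ (by positivity) h6 2
  rw [← pow_mul, ← pow_mul] at h7
  have h8 : (2:ℝ) ^ (n + 1) ≤ 2 ^ (finrank ℝ Kᗮ * 2) := pow_le_pow_right₀ (by norm_num) (by omega)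
  have h9 : ((7/5:ℝ)) ^ (n * 2) = (49/25) ^ n := by
    rw [mul_comm, pow_mul]; norm_num
  have h10 : (49/25:ℝ)^n ≤ 2 ^ n := pow_le_pow_left₀ (by norm_num) (by norm_num) n
  have h11 : (0:ℝ) < 2 ^ n := by positivity
  rw [pow_succ] at h8
  rw [h9] at h7
  linarith

theorem dvo_orthonormal {X : Type*} [NormedAddCommGroup X] [NormedSpace ℝ X]
    [FiniteDimensional ℝ X] {n : ℕ} 
    (D : (EuclideanSpace ℝ (Fin n) →L[ℝ] X) → ℝ) (u : EuclideanSpace ℝ (Fin n) →L[ℝ] X)
    (hu : ‖u‖ ≤ 1) (hD : 0 < D u) (hmax : ∀ v, D v ≤ D u * ‖v‖ ^ n)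
    (hcomp : ∀ w : EuclideanSpace ℝ (Fin n) →L[ℝ] EuclideanSpace ℝ (Fin n),
        D (u.comp w) = D u * |w.det|) (m : ℕ) (hm : 2 * m ≤ n) :
    ∃ e : Fin m → EuclideanSpace ℝ (Fin n), Orthonormal ℝ e ∧ ∀ i, 2 / 5 ≤ ‖u (e i)‖ := by
  induction m with
  | zero => exact ⟨fun i => i.elim0, ⟨fun i => i.elim0, fun i => i.elim0⟩, fun i => i.elim0⟩
  | succ m ih =>
    obtain ⟨e, he, hue⟩ := ih (by omega)
    obtain ⟨f, hf1, hf2, hf3⟩ := dvo_exists_vec D u hu hD hmax hcomp
      (Submodule.span ℝ (Set.range e)) (by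
        rw [finrank_span_eq_card he.linearIndependent]
        simp
        omega)
    refine ⟨Fin.snoc e f, ?_, ?_⟩
    · rw [orthonormal_iff_ite]
      intro i j
      have hef : ∀ i, inner ℝ (e i) f = (0:ℝ) := by
        intro i
        exact hf2 _ (Submodule.subset_span ⟨i, rfl⟩)
      induction i using Fin.lastCases with
      | last =>
        induction j using Fin.lastCases with
        | last => simp [hf1]
        | cast j =>
          rw [real_inner_comm]
          simp [hef, Fin.ext_iff]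
          intro h
          have := j.2
          omega
      | cast i =>
        induction j using Fin.lastCases with
        | last =>
          simp [hef, Fin.ext_iff]
          intro h
          have := i.2
          omega
        | cast j =>
          have := orthonormal_iff_ite.1 he i j
          simpa [Fin.ext_iff] using this
    · intro i
      induction i using Fin.lastCases with
      | last => simpa using hf3
      | cast i => simpa using hue i

/-- **Dvoretzky–Rogers**. -/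
theorem dvo_rogers {B : Type*} [NormedAddCommGroup B] [NormedSpace ℝ B]
    (hB : ¬ FiniteDimensional ℝ B) (m : ℕ) :
    ∃ T : EuclideanSpace ℝ (Fin m) →ₗ[ℝ] B, (∀ a, ‖T a‖ ≤ ‖a‖) ∧
      ∀ i, 2 / 5 ≤ ‖T (EuclideanSpace.single i 1)‖ := by
  -- subspace of dimension `2 m`
  have hr : ((2 * m : ℕ) : Cardinal) ≤ Module.rank ℝ B := by
    have : Cardinal.aleph0 ≤ Module.rank ℝ B := by
      by_contra h
      push Not at h
      exact hB (Module.rank_lt_aleph0_iff.1 h)
    exact (Cardinal.natCast_lt_aleph0).le.trans this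
  obtain ⟨s, hs, hli⟩ := le_rank_iff_exists_linearIndependent_finset.1 hr
  let X := Submodule.span ℝ (s : Set B)
  have hfX : finrank ℝ X = 2 * m := by
    rw [← hs]
    exact finrank_span_finset_eq_card hli
  obtain ⟨D, u, hu, hD, hmax, hcomp⟩ := dvo_max hfX
  obtain ⟨e, he, hue⟩ := dvo_orthonormal D u hu hD hmax hcomp m le_rfl
  -- isometry
  let ι : EuclideanSpace ℝ (Fin m) →ₗ[ℝ] EuclideanSpace ℝ (Fin (2 * m)) :=
    { toFun := fun a => ∑ i, a i • e i
      map_add' := by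
        intro a b
        simp [add_smul, Finset.sum_add_distrib]
      map_smul' := by
        intro c a
        simp [mul_smul, Finset.smul_sum] }
  have hι : ∀ a, ‖ι a‖ = ‖a‖ := by
    intro a
    have h1 : ‖ι a‖ ^ 2 = ‖a‖ ^ 2 := by
      rw [← real_inner_self_eq_norm_sq]
      change inner ℝ (∑ i, a i • e i) (∑ i, a i • e i) = _
      rw [he.inner_sum]
      rw [EuclideanSpace.real_norm_sq_eq]
      simp [pow_two]
    exact (pow_left_inj₀ (norm_nonneg _) (norm_nonneg _) two_ne_zero).1 h1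
  refine ⟨X.subtype ∘ₗ (u : _ →ₗ[ℝ] X) ∘ₗ ι, ?_, ?_⟩
  · intro a
    change ‖u (ι a)‖ ≤ ‖a‖
    calc ‖u (ι a)‖ ≤ ‖u‖ * ‖ι a‖ := u.le_opNorm _
      _ ≤ 1 * ‖ι a‖ := by gcongr
      _ = ‖a‖ := by rw [one_mul, hι]
  · intro i
    change 2 / 5 ≤ ‖u (ι _)‖
    have : ι (EuclideanSpace.single i 1) = e i := by
      change ∑ j, (EuclideanSpace.single i (1:ℝ)) j • e j = e i
      rw [Finset.sum_eq_single i]
      · simp
      · intro j _ hj
        simp [hj]
      · simp
    rw [this]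
    exact hue i

end Crest.Agent.Doub
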