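import Mathlib
import Crest.Agent.Doub.Basic
import Crest.Agent.Doub.DvoRogers
import Crest.Agent.Doub.DvoVar
import Crest.Agent.Doub.DvoMean

/-!
# Isomorphic Dvoretzky theorem (GoalB)
-/

set_option autoImplicit false

namespace Crest.Agent.Doub

open MeasureTheory ProbabilityTheory

universe u

/-- the linear map `g ↦ (i ↦ ∑ j, a j * g (j, i))` -/
noncomputable def dvoG {k m : ℕ} (a : EuclideanSpace ℝ (Fin k)) :
    EuclideanSpace ℝ (Fin k × Fin m) →L[ℝ] EuclideanSpace ℝ (Fin m) :=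
  LinearMap.toContinuousLinearMap
    { toFun := fun g => WithLp.toLp 2 (fun i => ∑ j, a j * g (j, i))
      map_add' := by
        intro g h
        ext i
        simp [mul_add, Finset.sum_add_distrib]
      map_smul' := by
        intro c g
        ext i
        simp [Finset.mul_sum, mul_left_comm] }

theorem dvoG_apply {k m : ℕ} (a : EuclideanSpace ℝ (Fin k)) (g : EuclideanSpace ℝ (Fin k × Fin m))
    (i : Fin m) : dvoG a g i = ∑ j, a j * g (j, i) := rfl

theorem dvoG_map {k m : ℕ} (a : EuclideanSpace ℝ (Fin k)) (ha : ‖a‖ = 1) :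
    (stdGaussian (EuclideanSpace ℝ (Fin k × Fin m))).map (dvoG (m := m) a) =
      stdGaussian (EuclideanSpace ℝ (Fin m)) := by
  apply Measure.ext_of_charFun
  ext t
  have h1 : charFun ((stdGaussian (EuclideanSpace ℝ (Fin k × Fin m))).map (dvoG (m := m) a)) t =
      charFun (stdGaussian (EuclideanSpace ℝ (Fin k × Fin m)))
        (WithLp.toLp 2 (fun p => a p.1 * t p.2)) := by
    rw [charFun_apply, charFun_apply, integral_map (dvoG a).continuous.measurable.aemeasurable]
    · congr 1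
      ext g
      congr 3
      simp only [PiLp.inner_apply, dvoG_apply, RCLike.inner_apply, conj_trivial]
      rw [Fintype.sum_prod_type, Finset.sum_comm]
      simp only [Finset.mul_sum, Finset.sum_mul]
      refine Finset.sum_congr rfl fun i _ => Finset.sum_congr rfl fun j _ => ?_
      ring
    · apply Continuous.aestronglyMeasurable
      fun_prop
  rw [h1, charFun_stdGaussian, charFun_stdGaussian]
  congr 3
  have h2 : ‖(WithLp.toLp 2 (fun p : Fin k × Fin m => a p.1 * t p.2))‖ ^ 2 = ‖t‖ ^ 2 := by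
    rw [EuclideanSpace.real_norm_sq_eq, Fintype.sum_prod_type]
    have h3 : ‖a‖ ^ 2 = 1 := by rw [ha]; norm_num
    rw [EuclideanSpace.real_norm_sq_eq] at h3
    rw [EuclideanSpace.real_norm_sq_eq]
    simp only [mul_pow]
    rw [← Finset.sum_mul_sum, h3, one_mul]
  exact_mod_cast h2

/-- finite net of the sphere -/
theorem dvo_net (k : ℕ) : ∃ N : Finset (EuclideanSpace ℝ (Fin k)), (∀ a ∈ N, ‖a‖ = 1) ∧
    ∀ x : EuclideanSpace ℝ (Fin k), ‖x‖ = 1 → ∃ a ∈ N, ‖x - a‖ ≤ 1/8 := by
  have hc : IsCompact (Metric.sphere (0 : EuclideanSpace ℝ (Fin k)) 1) := isCompact_sphere _ _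
  obtain ⟨t, ht1, ht2, ht3⟩ := hc.finite_cover_balls (e := 1/8) (by norm_num)
  refine ⟨ht2.toFinset, ?_, ?_⟩
  · intro a ha
    have := ht1 (ht2.mem_toFinset.1 ha)
    simpa using this
  · intro x hx
    have hx' : x ∈ Metric.sphere (0 : EuclideanSpace ℝ (Fin k)) 1 := by simpa using hx
    have := ht3 hx'
    simp only [Set.mem_iUnion, Metric.mem_ball, exists_prop] at this
    obtain ⟨a, ha, hd⟩ := this
    refine ⟨a, ht2.mem_toFinset.2 ha, ?_⟩
    rw [← dist_eq_norm]
    exact hd.le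

/-- deterministic net argument -/
theorem dvo_netarg {k : ℕ} (N : Finset (EuclideanSpace ℝ (Fin k))) (hN1 : ∀ a ∈ N, ‖a‖ = 1)
    (hN2 : ∀ x : EuclideanSpace ℝ (Fin k), ‖x‖ = 1 → ∃ a ∈ N, ‖x - a‖ ≤ 1/8)
    (G : Seminorm ℝ (EuclideanSpace ℝ (Fin k))) (C : ℝ) (hGC : ∀ x, G x ≤ C * ‖x‖) (M : ℝ) (hM : 0 < M)
    (hG : ∀ a ∈ N, |G a - M| ≤ M / 8) (x : EuclideanSpace ℝ (Fin k)) :
    5 / 7 * M * ‖x‖ ≤ G x ∧ G x ≤ 9 / 7 * M * ‖x‖ := by
  -- the sup on the sphere
  have hup : ∀ n : ℕ, ∀ x, ‖x‖ = 1 → G x ≤ 9/7 * M + |C| * (1/8) ^ n := by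
    intro n
    induction n with
    | zero =>
      intro x hx
      have := hGC x
      rw [hx, mul_one] at this
      have h2 := le_abs_self C
      simp
      linarith
    | succ n ih =>
      intro x hx
      obtain ⟨a, ha, hxa⟩ := hN2 x hx
      have h1 : G x ≤ G a + G (x - a) := by
        have := map_add_le_add G a (x - a)
        simpa using this
      have h2 := (abs_le.1 (hG a ha)).2
      have h3 : G (x - a) ≤ ‖x - a‖ * (9/7 * M + |C| * (1/8) ^ n) := by
        by_cases h0 : x - a = 0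
        · rw [h0]; simp
        · have hn0 : ‖x - a‖ ≠ 0 := by simpa using h0
          have := ih (‖x - a‖⁻¹ • (x - a)) (by simp [norm_smul, hn0])
          rw [map_smul_eq_mul, norm_inv, norm_norm, inv_mul_le_iff₀ (by positivity)] at this
          exact this
      have h4 : ‖x - a‖ * (9/7 * M + |C| * (1/8) ^ n) ≤ 1/8 * (9/7 * M + |C| * (1/8) ^ n) := by
        apply mul_le_mul_of_nonneg_right hxa
        positivity
      rw [pow_succ]
      nlinarith
  have hup2 : ∀ x, ‖x‖ = 1 → G x ≤ 9/7 * M := by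
    intro x hx
    have h1 : Filter.Tendsto (fun n : ℕ => 9/7 * M + |C| * (1/8:ℝ) ^ n) Filter.atTop (nhds (9/7 * M + |C| * 0)) := by
      apply Filter.Tendsto.const_add
      apply Filter.Tendsto.const_mul
      exact tendsto_pow_atTop_nhds_zero_of_lt_one (by norm_num) (by norm_num)
    rw [mul_zero, add_zero] at h1
    exact ge_of_tendsto' h1 (fun n => hup n x hx)
  have hlow : ∀ x, ‖x‖ = 1 → 5/7 * M ≤ G x := by
    intro x hx
    obtain ⟨a, ha, hxa⟩ := hN2 x hx
    have h1 : G a ≤ G x + G (x - a) := by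
      have := map_add_le_add G x (a - x)
      rw [map_sub_rev G x a]
      simpa using this
    have h2 := (abs_le.1 (hG a ha)).1
    have h3 : G (x - a) ≤ ‖x - a‖ * (9/7 * M) := by
      by_cases h0 : x - a = 0
      · rw [h0]; simp
      · have hn0 : ‖x - a‖ ≠ 0 := by simpa using h0
        have := hup2 (‖x - a‖⁻¹ • (x - a)) (by simp [norm_smul, hn0])
        rw [map_smul_eq_mul, norm_inv, norm_norm, inv_mul_le_iff₀ (by positivity)] at this
        exact this
    have h4 : ‖x - a‖ * (9/7 * M) ≤ 1/8 * (9/7 * M) := by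
      apply mul_le_mul_of_nonneg_right hxa
      positivity
    linarith
  by_cases h0 : x = 0
  · subst h0; simp
  · have hn0 : ‖x‖ ≠ 0 := by simpa using h0
    have hnpos : 0 < ‖x‖ := by positivity
    have h1 := hup2 (‖x‖⁻¹ • x) (by simp [norm_smul, hn0])
    have h2 := hlow (‖x‖⁻¹ • x) (by simp [norm_smul, hn0])
    rw [map_smul_eq_mul, norm_inv, norm_norm] at h1 h2
    rw [inv_mul_le_iff₀ hnpos] at h1
    rw [le_inv_mul_iff₀ hnpos] at h2
    constructor <;> linarith

/-- **Isomorphic Dvoretzky theorem** with a universal constant -/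
theorem dvoretzky {B : Type u} [NormedAddCommGroup B] [NormedSpace ℝ B]
    (hB : ¬ FiniteDimensional ℝ B) (k : ℕ) :
    ∃ T : EuclideanSpace ℝ (Fin k) →ₗ[ℝ] B, ∀ x, ‖x‖ ≤ ‖T x‖ ∧ ‖T x‖ ≤ 9 / 5 * ‖x‖ := by
  obtain ⟨N, hN1, hN2⟩ := dvo_net k
  obtain ⟨m, hm⟩ := dvo_mean (14 * (N.card + 1))
  obtain ⟨T, hT1, hT2⟩ := dvo_rogers hB m
  let F : Seminorm ℝ (EuclideanSpace ℝ (Fin m)) := (normSeminorm ℝ B).comp T
  have hFT : ∀ a, F a = ‖T a‖ := fun a => rfl
  have hF1 : ∀ x, F x ≤ ‖x‖ := hT1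
  set μ := stdGaussian (EuclideanSpace ℝ (Fin m)) with hμ
  set M := ∫ a, F a ∂μ with hM
  have hMK : 14 * ((N.card : ℝ) + 1) ≤ M := hm F hF1 hT2
  have hMpos : 0 < M := lt_of_lt_of_le (by positivity) hMK
  have hvar : Var[F; μ] ≤ 3 := dvo_variance F hF1
  have hcheb : μ {a | M / 8 ≤ |F a - M|} ≤ ENNReal.ofReal (192 / M ^ 2) := by
    refine (meas_ge_le_variance_div_sq (dvo_memLp F hF1) (by positivity : 0 < M / 8)).trans ?_
    apply ENNReal.ofReal_le_ofReal
    rw [div_le_div_iff₀ (by positivity) (by positivity)]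
    nlinarith [sq_nonneg M]
  -- union bound
  set Ω := EuclideanSpace ℝ (Fin k × Fin m) with hΩ
  set P := stdGaussian Ω with hP
  have hFmeas : Measurable F := (dvo_cont F hF1).measurable
  have hbad : P (⋃ a ∈ N, {g | M / 8 ≤ |F (dvoG a g) - M|}) < 1 := by
    calc P (⋃ a ∈ N, {g | M / 8 ≤ |F (dvoG a g) - M|})
        ≤ ∑ a ∈ N, P {g | M / 8 ≤ |F (dvoG a g) - M|} := measure_biUnion_finset_le _ _
      _ ≤ ∑ a ∈ N, ENNReal.ofReal (192 / M ^ 2) := by
          apply Finset.sum_le_sum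
          intro a ha
          refine le_trans (le_of_eq ?_) hcheb
          rw [hμ, ← dvoG_map (k := k) (m := m) a (hN1 a ha), Measure.map_apply]
          · rfl
          · exact (dvoG a).continuous.measurable
          · exact measurableSet_le measurable_const (by fun_prop)
      _ = ENNReal.ofReal (N.card * (192 / M ^ 2)) := by
          rw [Finset.sum_const, nsmul_eq_mul, ENNReal.ofReal_mul (by positivity)]
          simp
      _ < 1 := by
          rw [← ENNReal.ofReal_one]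
          apply (ENNReal.ofReal_lt_ofReal_iff one_pos).2
          rw [mul_div_assoc', div_lt_one (by positivity)]
          have hc0 : (0:ℝ) ≤ N.card := by positivity
          have : (14 * ((N.card : ℝ) + 1)) ^ 2 ≤ M ^ 2 := pow_le_pow_left₀ (by positivity) hMK 2
          nlinarith
  obtain ⟨g, hg⟩ : ∃ g : Ω, g ∉ ⋃ a ∈ N, {g | M / 8 ≤ |F (dvoG a g) - M|} := by
    by_contra hcon
    push Not at hcon
    have : (⋃ a ∈ N, {g : Ω | M / 8 ≤ |F (dvoG a g) - M|}) = Set.univ := by
      ext g; simp only [Set.mem_univ, iff_true]; exact hcon g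
    rw [this] at hbad
    simp at hbad
  have hg' : ∀ a ∈ N, |F (dvoG a g) - M| ≤ M / 8 := by
    intro a ha
    by_contra hcon
    push Not at hcon
    apply hg
    simp only [Set.mem_iUnion]
    exact ⟨a, ha, hcon.le⟩
  -- the linear map `a ↦ dvoG a g`
  let L : EuclideanSpace ℝ (Fin k) →ₗ[ℝ] EuclideanSpace ℝ (Fin m) :=
    { toFun := fun a => dvoG a g
      map_add' := by
        intro a b
        ext i
        simp [dvoG_apply, add_mul, Finset.sum_add_distrib]
      map_smul' := by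
        intro c a
        ext i
        simp [dvoG_apply, Finset.mul_sum, mul_assoc] }
  let G : Seminorm ℝ (EuclideanSpace ℝ (Fin k)) := F.comp L
  have hGle : ∀ x, G x ≤ ‖LinearMap.toContinuousLinearMap L‖ * ‖x‖ := by
    intro x
    calc G x = F (L x) := rfl
      _ ≤ ‖L x‖ := hF1 _
      _ ≤ _ := (LinearMap.toContinuousLinearMap L).le_opNorm x
  have key := dvo_netarg N hN1 hN2 G _ hGle M hMpos hg'
  refine ⟨(7 / (5 * M)) • (T ∘ₗ L), fun x => ?_⟩
  have hval : ‖((7 / (5 * M)) • (T ∘ₗ L)) x‖ = 7 / (5 * M) * G x := by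
    rw [LinearMap.smul_apply, norm_smul, Real.norm_of_nonneg (by positivity)]
    rfl
  rw [hval]
  obtain ⟨k1, k2⟩ := key x
  constructor
  · calc ‖x‖ = 7 / (5 * M) * (5 / 7 * M * ‖x‖) := by field_simp
      _ ≤ _ := mul_le_mul_of_nonneg_left k1 (by positivity)
  · calc 7 / (5 * M) * G x ≤ 7 / (5 * M) * (9 / 7 * M * ‖x‖) :=
        mul_le_mul_of_nonneg_left k2 (by positivity)
      _ = 9 / 5 * ‖x‖ := by field_simp

theorem goalB : GoalB.{u} :=
  ⟨9 / 5, by norm_num, fun _ _ _ hB k => dvoretzky hB k⟩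

end Crest.Agent.Doub
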