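import Crest.Agent.Doub.Basic
import Mathlib

/-! Row 254 (S0392), chunk C2: final assembly from `GoalA` and `GoalB`. -/

set_option autoImplicit false

namespace Crest.Agent.Doub

open Metric Set Filter Topology
open Crest.GeometryTopology

universe u v

theorem Cov.iterate {X : Type*} [PseudoMetricSpace X] {L : ℕ} {S : Set X} (h : Cov 2 1 L S)
    (j : ℕ) : Cov 2 (1 / 2 ^ j) (L ^ (j + 1)) S := by
  induction j with
  | zero => simpa using h
  | succ j ih =>
    intro x t ht
    obtain ⟨F, hF, hFc⟩ := ih x t ht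
    have key : ∀ i, ∃ G : Fin L → Set X,
        (∀ k, ∀ p ∈ G k, ∀ q ∈ G k, dist p q ≤ 1 / 2 ^ (j + 1) * t) ∧ F i ∩ S ⊆ ⋃ k, G k := by
      intro i
      by_cases hne : (F i ∩ S).Nonempty
      · obtain ⟨p, hpF, hpS⟩ := hne
        obtain ⟨G, hG, hGc⟩ := h p (1 / 2 ^ (j + 1) * t) (by positivity)
        refine ⟨G, fun k p hp q hq => by simpa using hG k p hp q hq, ?_⟩
        rintro q ⟨hqF, hqS⟩
        apply hGc
        refine ⟨hqS, ?_⟩
        rw [mem_closedBall]
        refine (hF i q hqF p hpF).trans (le_of_eq ?_)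
        rw [pow_succ]; field_simp
      · rw [not_nonempty_iff_eq_empty] at hne
        exact ⟨fun _ => ∅, by simp, by rw [hne]; exact empty_subset _⟩
    choose G hG hGc using key
    have e : L ^ (j + 1 + 1) = L ^ (j + 1) * L := pow_succ _ _
    rw [e]
    refine ⟨fun a => G (finProdFinEquiv.symm a).1 (finProdFinEquiv.symm a).2,
      fun a => hG _ _, ?_⟩
    rintro y ⟨hyS, hyx⟩
    obtain ⟨i, hi⟩ := mem_iUnion.1 (hFc ⟨hyS, hyx⟩)
    obtain ⟨k, hk⟩ := mem_iUnion.1 (hGc i ⟨hi, hyS⟩)
    refine mem_iUnion.2 ⟨finProdFinEquiv (i, k), ?_⟩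
    simpa using hk

theorem final (hA : GoalA) (hB : GoalB.{u}) :
    ∃ Λ : ℕ, ∀ (B : Type u) [NormedAddCommGroup B] [NormedSpace ℝ B] [CompleteSpace B],
      ¬ FiniteDimensional ℝ B →
      ∃ K : Set B, IsCompact K ∧ DoublingConstLE K Λ ∧
        ∀ (Y : Type v) [NormedAddCommGroup Y] [NormedSpace ℝ Y] [FiniteDimensional ℝ Y]
          (f : K → Y) (c C : NNReal), ¬ (LipschitzWith C f ∧ AntilipschitzWith c f) := by
  obtain ⟨L, hL⟩ := hA
  obtain ⟨C0, hC0, hT0⟩ := hB
  obtain ⟨j, hj⟩ : ∃ j : ℕ, 2 * C0 ≤ 2 ^ j := by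
    obtain ⟨j, hj⟩ := pow_unbounded_of_one_lt (2 * C0) (one_lt_two)
    exact ⟨j, hj.le⟩
  refine ⟨L ^ (j + 1) + 1, fun B _ _ _ hinf => ?_⟩
  -- sequences
  choose M S hfin hS0 hcov hbil using fun n : ℕ => hL (Nat.unpair n).1 ((Nat.unpair n).2 : ℝ)
  choose T hT using fun n => hT0 B hinf (M n)
  have hR'ex : ∀ n, ∃ R' : ℝ, 1 ≤ R' ∧ ∀ s ∈ S n, ‖T n s‖ ≤ R' := by
    intro n
    obtain ⟨R, hR⟩ := ((hfin n).image (fun s => ‖T n s‖)).bddAbove
    exact ⟨max 1 R, le_max_left _ _, fun s hs => (hR ⟨s, hs, rfl⟩).trans (le_max_right _ _)⟩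
  choose R' hR'1 hR' using hR'ex
  have hm'ex : ∀ n, ∃ m' : ℝ, 0 < m' ∧ m' ≤ 1 ∧ ∀ s ∈ S n, ∀ s' ∈ S n, s ≠ s' →
      m' ≤ ‖T n s - T n s'‖ := by
    intro n
    have h1 : ∀ p ∈ S n ×ˢ S n, ∀ᶠ m in 𝓝[>] (0:ℝ), p.1 ≠ p.2 → m ≤ ‖T n p.1 - T n p.2‖ := by
      intro p _
      by_cases hp : p.1 = p.2
      · exact Eventually.of_forall fun m hne => absurd hp hne
      · have hpos : 0 < ‖T n p.1 - T n p.2‖ := by
          rw [← map_sub]
          refine lt_of_lt_of_le ?_ (hT n _).1
          exact norm_pos_iff.2 (sub_ne_zero.2 hp)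
        filter_upwards [Ioc_mem_nhdsGT hpos] with m hm _ using hm.2
    have h2 := (Filter.eventually_all_finite ((hfin n).prod (hfin n))).2 h1
    have h3 : ∀ᶠ m in 𝓝[>] (0:ℝ), m ∈ Ioc (0:ℝ) 1 := Ioc_mem_nhdsGT one_pos
    obtain ⟨m, hm1, hm2⟩ := (h2.and h3).exists
    exact ⟨m, hm2.1, hm2.2, fun s hs s' hs' hne => hm1 (s, s') ⟨hs, hs'⟩ hne⟩
  choose m' hm'0 hm'1 hm' using hm'ex
  -- scales
  let r : ℕ → ℝ := fun n => Nat.rec (1 / R' 0)
    (fun n rn => min (rn * m' n / 100) ((1 / 2) ^ (n + 1)) / R' (n + 1)) n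
  have hr0 : r 0 = 1 / R' 0 := rfl
  have hrs : ∀ n, r (n + 1) = min (r n * m' n / 100) ((1 / 2) ^ (n + 1)) / R' (n + 1) :=
    fun n => rfl
  have hR'pos : ∀ n, 0 < R' n := fun n => by linarith [hR'1 n]
  have hrpos : ∀ n, 0 < r n := by
    intro n
    induction n with
    | zero => rw [hr0]; exact div_pos one_pos (hR'pos 0)
    | succ n ih =>
      rw [hrs]
      refine div_pos (lt_min ?_ (by positivity)) (hR'pos _)
      have := hm'0 n
      positivity
  have hrR : ∀ n, r n * R' n ≤ (1 / 2) ^ n := by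
    intro n
    cases n with
    | zero => rw [hr0, div_mul_cancel₀ _ (hR'pos 0).ne']; simp
    | succ n => rw [hrs, div_mul_cancel₀ _ (hR'pos _).ne']; exact min_le_right _ _
  have hrm : ∀ n, r (n + 1) * R' (n + 1) ≤ r n * m' n / 100 := by
    intro n
    rw [hrs, div_mul_cancel₀ _ (hR'pos _).ne']; exact min_le_left _ _
  have hanti : ∀ n, r (n + 1) * R' (n + 1) ≤ r n * R' n := by
    intro n
    refine (hrm n).trans ?_
    have h1 : r n * m' n ≤ r n * R' n :=
      mul_le_mul_of_nonneg_left ((hm'1 n).trans (hR'1 n)) (hrpos n).le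
    have h2 : 0 ≤ r n * m' n := (mul_pos (hrpos n) (hm'0 n)).le
    linarith
  have hanti' : Antitone fun n => r n * R' n := antitone_nat_of_succ_le hanti
  have hfar : ∀ n k, n < k → r k * R' k ≤ r n * m' n / 100 := by
    intro n k hnk
    exact (hanti' (Nat.succ_le_of_lt hnk)).trans (hrm n)
  -- the pieces
  let A : ℕ → Set B := fun n => (fun s => r n • T n s) '' S n
  have hA0 : ∀ n, (0 : B) ∈ A n := fun n => ⟨0, hS0 n, by simp⟩
  have hAnorm : ∀ n, ∀ x ∈ A n, ‖x‖ ≤ r n * R' n := by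
    rintro n _ ⟨s, hs, rfl⟩
    simp only
    rw [norm_smul, Real.norm_of_nonneg (hrpos n).le]
    exact mul_le_mul_of_nonneg_left (hR' n s hs) (hrpos n).le
  have hAsep : ∀ n, ∀ x ∈ A n, x ≠ 0 → r n * m' n ≤ ‖x‖ := by
    rintro n _ ⟨s, hs, rfl⟩ hx
    simp only at hx ⊢
    have hs0 : s ≠ 0 := by
      rintro rfl
      simp at hx
    have := hm' n s hs 0 (hS0 n) hs0
    rw [map_zero, sub_zero] at this
    rw [norm_smul, Real.norm_of_nonneg (hrpos n).le]
    exact mul_le_mul_of_nonneg_left this (hrpos n).le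
  have hAcov : ∀ n, Cov 2 1 (L ^ (j + 1)) (A n) := by
    intro n x t ht
    by_cases hne : (A n ∩ closedBall x (2 * t)).Nonempty
    · obtain ⟨_, ⟨s0, hs0, rfl⟩, hx0⟩ := hne
      obtain ⟨F, hF, hFc⟩ := (hcov n).iterate j s0 (2 * t / r n) (by have := hrpos n; positivity)
      refine ⟨fun i => (fun s => r n • T n s) '' (F i), ?_, ?_⟩
      · rintro i _ ⟨p, hp, rfl⟩ _ ⟨q, hq, rfl⟩
        simp only
        rw [dist_eq_norm, ← smul_sub, ← map_sub, norm_smul, Real.norm_of_nonneg (hrpos n).le]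
        have h1 := hF i p hp q hq
        rw [dist_eq_norm] at h1
        have h2 := (hT n (p - q)).2
        have hrn := hrpos n
        have h3 : 1 / 2 ^ j * (2 * t / r n) ≤ t / (C0 * r n) := by
          rw [div_mul_div_comm, one_mul, div_le_div_iff₀ (by positivity) (by positivity)]
          have := mul_le_mul_of_nonneg_right hj (show 0 ≤ t * r n by positivity)
          nlinarith
        calc r n * ‖T n (p - q)‖ ≤ r n * (C0 * (t / (C0 * r n))) := by
              refine mul_le_mul_of_nonneg_left (h2.trans ?_) hrn.le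
              exact mul_le_mul_of_nonneg_left (h1.trans h3) hC0.le
          _ = 1 * t := by field_simp
      · rintro _ ⟨⟨s, hs, rfl⟩, hsx⟩
        have hd : dist s s0 ≤ 2 * (2 * t / r n) := by
          have hrn := hrpos n
          have h1 : dist (r n • T n s) (r n • T n s0) ≤ 4 * t := by
            have h2 := dist_triangle_right (r n • T n s) (r n • T n s0) x
            rw [mem_closedBall] at hsx hx0
            linarith
          rw [dist_eq_norm, ← smul_sub, ← map_sub, norm_smul, Real.norm_of_nonneg hrn.le] at h1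
          have h2 := (hT n (s - s0)).1
          rw [dist_eq_norm]
          have h3 : ‖s - s0‖ ≤ 4 * t / r n := by
            rw [le_div_iff₀ hrn]
            have := mul_le_mul_of_nonneg_left h2 hrn.le
            linarith
          refine h3.trans (le_of_eq ?_)
          ring
        obtain ⟨i, hi⟩ := mem_iUnion.1 (hFc ⟨hs, mem_closedBall.2 hd⟩)
        exact mem_iUnion.2 ⟨i, s, hi, rfl⟩
    · rw [not_nonempty_iff_eq_empty] at hne
      exact ⟨fun _ => ∅, by simp, by rw [hne]; exact empty_subset _⟩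
  -- the compact set
  let K : Set B := ⋃ n, A n
  have h0K : (0 : B) ∈ K := mem_iUnion.2 ⟨0, hA0 0⟩
  refine ⟨K, ?_, ?_, ?_⟩
  · -- compactness
    let f : (Σ n : ℕ, S n) → B := fun p => r p.1 • T p.1 (p.2 : EuclideanSpace ℝ (Fin (M p.1)))
    have hKf : K = insert 0 (range f) := by
      ext x
      constructor
      · intro hx
        obtain ⟨n, s, hs, rfl⟩ := mem_iUnion.1 hx
        exact mem_insert_of_mem _ ⟨⟨n, s, hs⟩, rfl⟩
      · rintro (rfl | ⟨⟨n, s, hs⟩, rfl⟩)
        · exact h0K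
        · exact mem_iUnion.2 ⟨n, s, hs, rfl⟩
    rw [hKf]
    apply Filter.Tendsto.isCompact_insert_range_of_cofinite
    rw [Metric.tendsto_nhds]
    intro ε hε
    obtain ⟨N, hN⟩ := exists_pow_lt_of_lt_one hε (show (1/2 : ℝ) < 1 by norm_num)
    rw [Filter.eventually_cofinite]
    have hfinite : (⋃ n ∈ Finset.range N, Sigma.mk n '' (univ : Set (S n))).Finite := by
      refine (Finset.finite_toSet (Finset.range N)).biUnion fun n _ => ?_
      have : Finite (S n) := (hfin n).to_subtype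
      exact (Set.toFinite _).image _
    refine hfinite.subset ?_
    rintro ⟨n, s⟩ hns
    simp only [mem_setOf_eq, not_lt, dist_zero_right] at hns
    have hn : n < N := by
      by_contra hcon
      push Not at hcon
      have h1 := hAnorm n (f ⟨n, s⟩) ⟨s, s.2, rfl⟩
      have h2 := hrR n
      have h3 : (1 / 2 : ℝ) ^ n ≤ (1 / 2) ^ N :=
        pow_le_pow_of_le_one (by norm_num) (by norm_num) hcon
      linarith
    simp only [mem_iUnion]
    exact ⟨n, Finset.mem_range.2 hn, s, mem_univ _, rfl⟩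
  · -- doubling
    intro x hxK ρ hρ
    classical
    by_cases hex : ∃ n, ∃ y ∈ A n, y ≠ 0 ∧ y ∈ closedBall x (2 * ρ)
    · set n := Nat.find hex with hn
      obtain ⟨y, hyA, hy0, hyx⟩ := Nat.find_spec hex
      rw [← hn] at hyA
      obtain ⟨F, hF, hFc⟩ := hAcov n x ρ hρ
      -- choose centres
      let ctr : Fin (L ^ (j + 1)) → B := fun i =>
        if h : (F i ∩ A n).Nonempty then h.some else 0
      have hctr : ∀ i, ctr i ∈ A n := by
        intro i
        simp only [ctr]
        split_ifs with h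
        · exact h.some_mem.2
        · exact hA0 n
      refine ⟨insert 0 (Finset.univ.image ctr), ?_, ?_, ?_⟩
      · intro z hz
        rw [Finset.coe_insert, Finset.coe_image] at hz
        rcases hz with rfl | ⟨i, -, rfl⟩
        · exact h0K
        · exact mem_iUnion.2 ⟨n, hctr i⟩
      · refine (Finset.card_insert_le _ _).trans ?_
        have := Finset.card_image_le (s := (Finset.univ : Finset (Fin (L ^ (j + 1))))) (f := ctr)
        rw [Finset.card_univ, Fintype.card_fin] at this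
        omega
      · rintro z ⟨hzK, hzx⟩
        simp only [mem_iUnion]
        obtain ⟨k, hk⟩ := mem_iUnion.1 hzK
        by_cases hz0 : z = 0
        · subst hz0
          exact ⟨0, Finset.mem_insert_self _ _, mem_closedBall_self hρ.le⟩
        rcases lt_trichotomy k n with hlt | heq | hgt
        · exact absurd ⟨z, hk, hz0, hzx⟩ (Nat.find_min hex hlt)
        · subst heq
          obtain ⟨i, hi⟩ := mem_iUnion.1 (hFc ⟨hk, hzx⟩)
          refine ⟨ctr i, Finset.mem_insert_of_mem (Finset.mem_image_of_mem _ (Finset.mem_univ i)),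
            ?_⟩
          have hne : (F i ∩ A n).Nonempty := ⟨z, hi, hk⟩
          have : ctr i = hne.some := by simp only [ctr]; rw [dif_pos hne]
          rw [mem_closedBall, this]
          have := hF i z hi hne.some hne.some_mem.1
          linarith
        · refine ⟨0, Finset.mem_insert_self _ _, ?_⟩
          rw [mem_closedBall, dist_zero_right]
          have h1 := hAnorm k z hk
          have h2 := hfar n k hgt
          have h3 := hAsep n y hyA hy0
          have h4 : dist y z ≤ 4 * ρ := by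
            have := dist_triangle_right y z x
            rw [mem_closedBall] at hyx hzx
            linarith
          have h5 : ‖y‖ ≤ dist y z + ‖z‖ := by
            rw [dist_eq_norm]
            have := norm_add_le (y - z) z
            rwa [sub_add_cancel] at this
          linarith [norm_nonneg z]
    · push Not at hex
      refine ⟨{0}, by simpa using h0K, by simp, ?_⟩
      rintro z ⟨hzK, hzx⟩
      obtain ⟨k, hk⟩ := mem_iUnion.1 hzK
      have hz0 : z = 0 := by
        by_contra hcon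
        exact hex k z hk hcon hzx
      subst hz0
      simp [hρ.le]
  · -- non-embeddability
    intro Y _ _ _ f c C ⟨hfC, hfc⟩
    let φ : Y ≃L[ℝ] EuclideanSpace ℝ (Fin (Module.finrank ℝ Y)) := toEuclidean
    set d := Module.finrank ℝ Y with hd
    obtain ⟨D, hD⟩ := exists_nat_ge (max (‖(φ : Y →L[ℝ] EuclideanSpace ℝ (Fin d))‖ * C * C0)
      (c * ‖(φ.symm : EuclideanSpace ℝ (Fin d) →L[ℝ] Y)‖))
    set n := Nat.pair d D with hn
    have hn1 : (Nat.unpair n).1 = d := by rw [hn, Nat.unpair_pair]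
    have hn2 : (Nat.unpair n).2 = D := by rw [hn, Nat.unpair_pair]
    have hb := hbil n
    rw [hn2] at hb
    rw [hn1] at hb
    classical
    have hmem : ∀ s ∈ S n, r n • T n s ∈ K := fun s hs => mem_iUnion.2 ⟨n, s, hs, rfl⟩
    refine hb (fun s => if hs : s ∈ S n then (r n)⁻¹ • φ (f ⟨r n • T n s, hmem s hs⟩) else 0) ?_
    intro s hs s' hs'
    have hrn := hrpos n
    simp only [dif_pos hs, dif_pos hs']
    set x : K := ⟨r n • T n s, hmem s hs⟩ with hx
    set x' : K := ⟨r n • T n s', hmem s' hs'⟩ with hx'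
    have hdx : dist x x' = r n * ‖T n (s - s')‖ := by
      rw [Subtype.dist_eq, dist_eq_norm, hx, hx']
      simp only
      rw [← smul_sub, ← map_sub, norm_smul, Real.norm_of_nonneg hrn.le]
    have hdg : dist ((r n)⁻¹ • φ (f x)) ((r n)⁻¹ • φ (f x')) = (r n)⁻¹ * ‖φ (f x - f x')‖ := by
      rw [dist_eq_norm, ← smul_sub, ← map_sub, norm_smul, Real.norm_of_nonneg (by positivity)]
    have hL1 := hfC.dist_le_mul x x'
    have hA1 := hfc.le_mul_dist x x'
    rw [hdx] at hL1 hA1
    rw [dist_eq_norm] at hL1 hA1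
    have hφ1 : ‖φ (f x - f x')‖ ≤ ‖(φ : Y →L[ℝ] EuclideanSpace ℝ (Fin d))‖ * ‖f x - f x'‖ :=
      (φ : Y →L[ℝ] EuclideanSpace ℝ (Fin d)).le_opNorm _
    have hφ2 : ‖f x - f x'‖ ≤ ‖(φ.symm : EuclideanSpace ℝ (Fin d) →L[ℝ] Y)‖ *
        ‖φ (f x - f x')‖ := by
      have := (φ.symm : EuclideanSpace ℝ (Fin d) →L[ℝ] Y).le_opNorm (φ (f x - f x'))
      simpa using this
    have hT1 := (hT n (s - s')).1
    have hT2 := (hT n (s - s')).2
    rw [dist_eq_norm s s', hdg]
    have hDa := (le_max_left _ _).trans hD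
    have hDb := (le_max_right _ _).trans hD
    constructor
    · -- lower
      have h1 : r n * ‖s - s'‖ ≤ c * (‖(φ.symm : EuclideanSpace ℝ (Fin d) →L[ℝ] Y)‖ *
          ‖φ (f x - f x')‖) := by
        refine (mul_le_mul_of_nonneg_left hT1 hrn.le).trans (hA1.trans ?_)
        exact mul_le_mul_of_nonneg_left hφ2 c.2
      have h2 : r n * ‖s - s'‖ ≤ D * ‖φ (f x - f x')‖ := by
        refine h1.trans ?_
        rw [← mul_assoc]
        exact mul_le_mul_of_nonneg_right hDb (norm_nonneg _)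
      have h3 : ‖s - s'‖ ≤ (D * ‖φ (f x - f x')‖) / r n := by
        rw [le_div_iff₀ hrn]; linarith
      refine h3.trans (le_of_eq ?_)
      field_simp
    · have h1 : ‖φ (f x - f x')‖ ≤ ‖(φ : Y →L[ℝ] EuclideanSpace ℝ (Fin d))‖ *
          (C * (r n * (C0 * ‖s - s'‖))) := by
        refine hφ1.trans (mul_le_mul_of_nonneg_left (hL1.trans ?_) (norm_nonneg _))
        exact mul_le_mul_of_nonneg_left (mul_le_mul_of_nonneg_left hT2 hrn.le) C.2
      have h2 : ‖φ (f x - f x')‖ ≤ D * (r n * ‖s - s'‖) := by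
        refine h1.trans ?_
        have h3 := mul_le_mul_of_nonneg_right hDa
          (show 0 ≤ r n * ‖s - s'‖ by positivity)
        refine le_trans (le_of_eq ?_) h3
        ring
      rw [inv_mul_le_iff₀ hrn]
      refine h2.trans (le_of_eq ?_)
      ring

end Crest.Agent.Doub
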