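import Crest.Agent.Doub.CovLemmas

/-!
# Row 254: flows, concatenation, loops, radial moves, substitution
-/

set_option autoImplicit false
set_option linter.unusedSectionVars false

namespace Crest.Agent.Doub

open Metric Set
open scoped RealInnerProductSpace

variable {V : Type*} [NormedAddCommGroup V] [InnerProductSpace ℝ V]
variable {Λ : ℕ} {A B C : Set V} {T T₁ T₂ : ℕ} {M M₁ M₂ : ℕ → Set (V × V)}

theorem tappend_left {m : ℕ} (h : m < T₁) : tappend T₁ M₁ M₂ m = M₁ m := by
  simp [tappend, h]

theorem tappend_right (m : ℕ) : tappend T₁ M₁ M₂ (T₁ + m) = M₂ m := by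
  simp [tappend]

theorem tloop_apply {L : ℕ} {blk : ℕ → ℕ → Set (V × V)} {i r : ℕ} (h : r < L) :
    tloop L blk (i * L + r) = blk i r := by
  unfold tloop
  have h1 : (i * L + r) / L = i := by
    rw [Nat.mul_comm, Nat.mul_add_div (by omega), Nat.div_eq_of_lt h, Nat.add_zero]
  have h2 : (i * L + r) % L = r := by
    rw [Nat.mul_comm, Nat.mul_add_mod, Nat.mod_eq_of_lt h]
  rw [h1, h2]

theorem forall_tappend {P : Set (V × V) → Prop} (h1 : ∀ m < T₁, P (M₁ m))
    (h2 : ∀ m < T₂, P (M₂ m)) : ∀ m < T₁ + T₂, P (tappend T₁ M₁ M₂ m) := by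
  intro m hm
  by_cases h : m < T₁
  · rw [tappend_left h]; exact h1 m h
  · obtain ⟨j, rfl⟩ := Nat.exists_eq_add_of_le (not_lt.mp h)
    rw [tappend_right]; exact h2 j (by omega)

theorem forall_tloop {P : Set (V × V) → Prop} {N L : ℕ} {blk : ℕ → ℕ → Set (V × V)}
    (h : ∀ i < N, ∀ m < L, P (blk i m)) : ∀ m < N * L, P (tloop L blk m) := by
  intro m hm
  have hL : 0 < L := by
    rcases Nat.eq_zero_or_pos L with h0 | h0
    · subst h0; simp at hm
    · exact h0
  unfold tloop
  exact h _ (Nat.div_lt_of_lt_mul (by rwa [Nat.mul_comm] at hm)) _ (Nat.mod_lt _ hL)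

theorem Flow.append (h1 : Flow Λ A B T₁ M₁) (h2 : Flow Λ B C T₂ M₂) :
    Flow Λ A C (T₁ + T₂) (tappend T₁ M₁ M₂) where
  Tpos := by have := h1.Tpos; omega
  step := forall_tappend h1.step h2.step
  chain := by
    intro m hm
    by_cases h : m + 1 < T₁
    · rw [tappend_left (by omega), tappend_left h]; exact h1.chain m h
    · by_cases h' : m < T₁
      · have hm1 : m + 1 = T₁ + 0 := by omega
        rw [tappend_left h', hm1, tappend_right]
        have hm2 : m = T₁ - 1 := by omega
        rw [hm2, h1.stop, h2.start]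
      · obtain ⟨j, rfl⟩ := Nat.exists_eq_add_of_le (not_lt.mp h')
        rw [tappend_right, Nat.add_assoc, tappend_right]
        exact h2.chain j (by omega)
  start := by rw [tappend_left h1.Tpos]; exact h1.start
  stop := by
    have := h2.Tpos
    have h3 : T₁ + T₂ - 1 = T₁ + (T₂ - 1) := by omega
    rw [h3, tappend_right]; exact h2.stop

theorem Flow.loop {N L : ℕ} (hN : 0 < N) {blk : ℕ → ℕ → Set (V × V)}
    (h : ∀ i < N, Flow Λ A A L (blk i)) : Flow Λ A A (N * L) (tloop L blk) where
  Tpos := Nat.mul_pos hN (h 0 hN).Tpos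
  step := forall_tloop (fun i hi => (h i hi).step)
  chain := by
    intro m hm
    have hL : 0 < L := (h 0 hN).Tpos
    have hdm := Nat.div_add_mod m L
    have hr := Nat.mod_lt m hL
    set i := m / L with hi
    set r := m % L with hr'
    have hmi : m = i * L + r := by rw [Nat.mul_comm]; exact hdm.symm
    have hiN : i < N := by
      by_contra hc
      push Not at hc
      have := Nat.mul_le_mul_right L hc
      omega
    by_cases h1 : r + 1 < L
    · have e1 : tloop L blk m = blk i r := by rw [hmi]; exact tloop_apply hr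
      have e2 : tloop L blk (m + 1) = blk i (r + 1) := by
        rw [hmi, Nat.add_assoc]; exact tloop_apply h1
      rw [e1, e2]; exact (h i hiN).chain r h1
    · have hr1 : r + 1 = L := by omega
      have e1 : tloop L blk m = blk i r := by rw [hmi]; exact tloop_apply hr
      have e2 : tloop L blk (m + 1) = blk (i + 1) 0 := by
        have : m + 1 = (i + 1) * L + 0 := by rw [Nat.add_mul, Nat.one_mul]; omega
        rw [this]; exact tloop_apply hL
      have hi1 : i + 1 < N := by
        by_contra hc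
        push Not at hc
        have h2 := Nat.mul_le_mul_right L hc
        rw [Nat.add_mul, Nat.one_mul] at h2
        omega
      have h3 : r = L - 1 := by omega
      rw [e1, e2, h3, (h i hiN).stop, (h (i + 1) hi1).start]
  start := by
    have hL : 0 < L := (h 0 hN).Tpos
    have : tloop L blk 0 = blk 0 0 := by simp [tloop]
    rw [this]; exact (h 0 hN).start
  stop := by
    have hL : 0 < L := (h 0 hN).Tpos
    have h1 : N * L - 1 = (N - 1) * L + (L - 1) := by
      obtain ⟨N', rfl⟩ : ∃ N', N = N' + 1 := ⟨N - 1, by omega⟩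
      rw [Nat.add_mul, Nat.one_mul, Nat.add_sub_cancel]; omega
    rw [h1, tloop_apply (by omega)]
    exact (h (N - 1) (by omega)).stop

/-! ### Radial moves -/

/-- General good step for a set of static points `Q` and points `P` moving on rays from
`r₀ p` to `r₁ p`, with `r₀, r₁ ∈ [0,1]`, not both on the same end. -/
theorem goodStep_ray {Q P : Set V} (hQ : Q.Finite) (hP : P.Finite) (hP1 : ∀ p ∈ P, ‖p‖ ≤ 1)
    {r₀ r₁ : ℝ} (h00 : 0 ≤ r₀) (h01 : r₀ ≤ 1) (h10 : 0 ≤ r₁) (h11 : r₁ ≤ 1)
    (hr : |r₁ - r₀| ≤ 1 / 100) (hne : r₀ ≠ r₁)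
    (hray : ∀ p ∈ P, ∀ q ∈ Q, ∀ r : ℝ, 0 < r → r < 1 → r • p ≠ q)
    (hcov : ∀ r : ℝ, 0 ≤ r → r ≤ 1 → Cov 4 (1 / 4) Λ (Q ∪ (fun p => r • p) '' P)) :
    GoodStep Λ ((fun q => (q, q)) '' Q ∪ (fun p => (r₀ • p, r₁ • p)) '' P) where
  fin := (hQ.image _).union (hP.image _)
  slow := by
    rintro _ (⟨q, -, rfl⟩ | ⟨p, hp, rfl⟩)
    · simp
    · simp only
      rw [← sub_smul, norm_smul, Real.norm_eq_abs]
      nlinarith [hP1 p hp, norm_nonneg p, abs_nonneg (r₁ - r₀)]
  nc := by
    have key : ∀ σ : ℝ, 0 < σ → σ < 1 → 0 < (1 - σ) * r₀ + σ * r₁ ∧ (1 - σ) * r₀ + σ * r₁ < 1 := by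
      intro σ h0 h1
      rcases lt_or_gt_of_ne hne with h | h
      · constructor
        · nlinarith
        · nlinarith
      · constructor
        · nlinarith
        · nlinarith
    rintro _ (⟨q, hq, rfl⟩ | ⟨p, hp, rfl⟩) _ (⟨q', hq', rfl⟩ | ⟨p', hp', rfl⟩) σ h0 h1 h
    · simp only at h ⊢
      have e1 : (1 - σ) • q + σ • q = q := by module
      have e2 : (1 - σ) • q' + σ • q' = q' := by module
      rw [e1, e2] at h; rw [h]
    · exfalso
      simp only at h
      have e1 : (1 - σ) • q + σ • q = q := by module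
      have e2 : (1 - σ) • r₀ • p' + σ • r₁ • p' = ((1 - σ) * r₀ + σ * r₁) • p' := by module
      rw [e1, e2] at h
      exact hray p' hp' q hq _ (key σ h0 h1).1 (key σ h0 h1).2 h.symm
    · exfalso
      simp only at h
      have e1 : (1 - σ) • q' + σ • q' = q' := by module
      have e2 : (1 - σ) • r₀ • p + σ • r₁ • p = ((1 - σ) * r₀ + σ * r₁) • p := by module
      rw [e1, e2] at h
      exact hray p hp q' hq' _ (key σ h0 h1).1 (key σ h0 h1).2 h
    · simp only at h ⊢
      have e1 : (1 - σ) • r₀ • p' + σ • r₁ • p' = ((1 - σ) * r₀ + σ * r₁) • p' := by module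
      have e2 : (1 - σ) • r₀ • p + σ • r₁ • p = ((1 - σ) * r₀ + σ * r₁) • p := by module
      rw [e1, e2] at h
      have := smul_right_injective V (key σ h0 h1).1.ne' h
      rw [this]
  cov := by
    intro σ h0 h1
    refine (hcov ((1 - σ) * r₀ + σ * r₁) (by nlinarith) (by nlinarith)).mono ?_
    rintro _ ⟨_, ⟨q, hq, rfl⟩ | ⟨p, hp, rfl⟩, rfl⟩
    · left
      simp only
      have e1 : (1 - σ) • q + σ • q = q := by module
      rw [e1]; exact hq
    · right
      refine ⟨p, hp, ?_⟩
      simp only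
      module

theorem flow_radStep {Q P : Set V} (hQ : Q.Finite) (hP : P.Finite) (hP1 : ∀ p ∈ P, ‖p‖ ≤ 1)
    (h0Q : (0 : V) ∈ Q) {n : ℕ} (hn : 100 ≤ n)
    (hray : ∀ p ∈ P, ∀ q ∈ Q, ∀ r : ℝ, 0 < r → r < 1 → r • p ≠ q)
    (hcov : ∀ r : ℝ, 0 ≤ r → r ≤ 1 → Cov 4 (1 / 4) Λ (Q ∪ (fun p => r • p) '' P)) :
    Flow Λ Q (Q ∪ P) n (radStep Q P n) where
  Tpos := by omega
  step := by
    intro m hm
    have hn0 : (0 : ℝ) < n := by
      have : 0 < n := by omega
      exact_mod_cast this
    have hn' : (100 : ℝ) ≤ n := by exact_mod_cast hn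
    have hmn : (m : ℝ) + 1 ≤ n := by exact_mod_cast hm
    have hm0 : (0 : ℝ) ≤ m := Nat.cast_nonneg m
    refine goodStep_ray hQ hP hP1 (by positivity) ?_ (by positivity) ?_ ?_ ?_ hray hcov
    · rw [div_le_one hn0]; linarith
    · rw [div_le_one hn0]; exact hmn
    · have : ((m : ℝ) + 1) / n - m / n = 1 / n := by field_simp; ring
      rw [this, abs_of_pos (by positivity)]
      exact one_div_le_one_div_of_le (by norm_num) hn'
    · intro h
      rw [div_left_inj' hn0.ne'] at h
      linarith
  chain := by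
    intro m _
    unfold radStep
    rw [image_union, image_union, image_image, image_image, image_image, image_image]
    simp
  start := by
    unfold radStep
    rw [image_union, image_image, image_image]
    ext z
    simp only [image_id', CharP.cast_eq_zero, zero_div, zero_smul, mem_union, mem_image]
    constructor
    · rintro (h | ⟨p, -, rfl⟩)
      · exact h
      · exact h0Q
    · intro h; exact Or.inl h
  stop := by
    have hn0 : (n : ℝ) ≠ 0 := by
      have : n ≠ 0 := by omega
      exact_mod_cast this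
    unfold radStep
    rw [image_union, image_image, image_image]
    have : ((n - 1 : ℕ) : ℝ) + 1 = n := by
      have : n - 1 + 1 = n := by omega
      exact_mod_cast this
    simp only [image_id', this, div_self hn0, one_smul]

theorem flow_radBack {Q P : Set V} (hQ : Q.Finite) (hP : P.Finite) (hP1 : ∀ p ∈ P, ‖p‖ ≤ 1)
    (h0Q : (0 : V) ∈ Q) {n : ℕ} (hn : 100 ≤ n)
    (hray : ∀ p ∈ P, ∀ q ∈ Q, ∀ r : ℝ, 0 < r → r < 1 → r • p ≠ q)
    (hcov : ∀ r : ℝ, 0 ≤ r → r ≤ 1 → Cov 4 (1 / 4) Λ (Q ∪ (fun p => r • p) '' P)) :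
    Flow Λ (Q ∪ P) Q n (radBack Q P n) where
  Tpos := by omega
  step := by
    intro m hm
    have hn0 : (0 : ℝ) < n := by
      have : 0 < n := by omega
      exact_mod_cast this
    have hn' : (100 : ℝ) ≤ n := by exact_mod_cast hn
    have hmn : (m : ℝ) + 1 ≤ n := by exact_mod_cast hm
    have hm0 : (0 : ℝ) ≤ m := Nat.cast_nonneg m
    refine goodStep_ray hQ hP hP1 (div_nonneg (by linarith) hn0.le) ?_
      (div_nonneg (by linarith) hn0.le) ?_ ?_ ?_ hray hcov
    · rw [div_le_one hn0]; linarith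
    · rw [div_le_one hn0]; linarith
    · have : ((n : ℝ) - m - 1) / n - (n - m) / n = -(1 / n) := by field_simp; ring
      rw [this, abs_neg, abs_of_pos (by positivity)]
      exact one_div_le_one_div_of_le (by norm_num) hn'
    · intro h
      rw [div_left_inj' hn0.ne'] at h
      linarith
  chain := by
    intro m _
    unfold radBack
    rw [image_union, image_union, image_image, image_image, image_image, image_image]
    simp only [Nat.cast_add, Nat.cast_one, sub_sub]
  start := by
    have hn0 : (n : ℝ) ≠ 0 := by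
      have : n ≠ 0 := by omega
      exact_mod_cast this
    unfold radBack
    rw [image_union, image_image, image_image]
    simp only [image_id', CharP.cast_eq_zero, sub_zero, div_self hn0, one_smul]
  stop := by
    unfold radBack
    rw [image_union, image_image, image_image]
    have : (n : ℝ) - ((n - 1 : ℕ) : ℝ) - 1 = 0 := by
      have : n - 1 + 1 = n := by omega
      have h : ((n - 1 : ℕ) : ℝ) + 1 = n := by exact_mod_cast this
      linarith
    ext z
    simp only [image_id', this, zero_div, zero_smul, mem_union, mem_image]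
    constructor
    · rintro (h | ⟨p, -, rfl⟩)
      · exact h
      · exact h0Q
    · intro h; exact Or.inl h

/-! ### Substitution in a static graph -/

theorem cross_substStep (e : V) (C : Set (V × V)) (M : Set (V × V)) (σ : ℝ) :
    cross (substStep e C M) σ = subst e C (cross M σ) := by
  ext z
  simp only [cross, substStep, subst, mem_image, mem_iUnion, exists_prop]
  constructor
  · rintro ⟨_, ⟨c, hc, p, hp, rfl⟩, rfl⟩
    refine ⟨c, hc, _, ⟨p, hp, rfl⟩, ?_⟩
    rw [chordMap_combo]; rfl
  · rintro ⟨c, hc, _, ⟨p, hp, rfl⟩, rfl⟩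
    refine ⟨_, ⟨c, hc, p, hp, rfl⟩, ?_⟩
    rw [chordMap_combo]; rfl

theorem goodStep_subst {e : V} (he : ‖e‖ = 1) {κ k : ℝ} {ΛG : ℕ} {C : Set (V × V)}
    {M : Set (V × V)} (hκ : 0 < κ) (hfin : C.Finite) (hLS : LS k C)
    (hlen : ∀ c ∈ C, ‖c.2 - c.1‖ ≤ 1)
    (hG : Cov (4 + 1 / 16) (1 / 4 - 2 * (1 / 16)) ΛG (segs C))
    (hk : 256 * κ ≤ k) (hΛ : 1 ≤ Λ) (hΛG : ΛG ≤ Λ) (hM : GoodStep Λ M)
    (hlens : ∀ p ∈ M, p.1 ∈ Lens κ e ∧ p.2 ∈ Lens κ e) :
    GoodStep Λ (substStep e C M) where
  fin := hfin.biUnion (fun c _ => hM.fin.image _)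
  slow := by
    intro m hm
    simp only [substStep, mem_iUnion, exists_prop] at hm
    obtain ⟨c, hc, p, hp, rfl⟩ := hm
    simp only [Prod.map]
    rw [chordMap_norm_sub]
    have h1 := hM.slow p hp
    have h2 := hlen c hc
    nlinarith [norm_nonneg (c.2 - c.1), norm_nonneg (p.2 - p.1)]
  nc := by
    intro m hm m' hm' σ h0 h1 h
    simp only [substStep, mem_iUnion, exists_prop] at hm hm'
    obtain ⟨c, hc, p, hp, rfl⟩ := hm
    obtain ⟨c', hc', p', hp', rfl⟩ := hm'
    simp only [Prod.map] at h ⊢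
    rw [← chordMap_combo, ← chordMap_combo] at h
    by_cases hcc : c = c'
    · subst hcc
      by_cases hd : c.1 = c.2
      · rw [chordMap_degenerate e c hd, chordMap_degenerate e c hd, chordMap_degenerate e c hd,
          chordMap_degenerate e c hd]
      · have := chordMap_injective e c hd h
        have := hM.nc p hp p' hp' σ h0 h1 this
        rw [this]
    · have hz : (1 - σ) • p.1 + σ • p.2 ∈ Lens κ e :=
        Lens_convex κ e (hlens p hp).1 (hlens p hp).2 (by linarith) h0.le (by ring)
      have hz' : (1 - σ) • p'.1 + σ • p'.2 ∈ Lens κ e :=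
        Lens_convex κ e (hlens p' hp').1 (hlens p' hp').2 (by linarith) h0.le (by ring)
      obtain ⟨m1, m2⟩ := subst_meet he hκ hLS (by linarith) hc hc' hcc hz hz' h
      -- both moves are constant at the common point
      have key : ∀ (d : V × V) (q : V × V), q ∈ M →
          (chordMap e d ((1 - σ) • q.1 + σ • q.2) = d.1 ∨
            chordMap e d ((1 - σ) • q.1 + σ • q.2) = d.2) →
          chordMap e d q.1 = chordMap e d ((1 - σ) • q.1 + σ • q.2) ∧
            chordMap e d q.2 = chordMap e d ((1 - σ) • q.1 + σ • q.2) := by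
        intro d q hq hd
        by_cases hdd : d.1 = d.2
        · simp only [chordMap_degenerate e d hdd, and_self]
        · rcases hd with hd | hd
          · have e1 : (1 - σ) • q.1 + σ • q.2 = 0 := by
              apply chordMap_injective e d hdd
              rw [hd, chordMap_zero]
            obtain ⟨z1, z2⟩ := Lens_extreme_zero hκ (hlens q hq).1 (hlens q hq).2 h0 h1 e1
            rw [z1, z2]; simp
          · have e1 : (1 - σ) • q.1 + σ • q.2 = e := by
              apply chordMap_injective e d hdd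
              rw [hd, chordMap_self he]
            obtain ⟨z1, z2⟩ := Lens_extreme_self hκ he (hlens q hq).1 (hlens q hq).2 h0 h1 e1
            rw [e1, z1, z2]; exact ⟨rfl, rfl⟩
      obtain ⟨a1, a2⟩ := key c p hp m1
      obtain ⟨b1, b2⟩ := key c' p' hp' m2
      rw [a1, a2, b1, b2, h]
  cov := by
    intro σ h0 h1
    rw [cross_substStep]
    have hS : cross M σ ⊆ Lens κ e := by
      rintro _ ⟨p, hp, rfl⟩
      exact Lens_convex κ e (hlens p hp).1 (hlens p hp).2 (by linarith) h0 (by ring)
    have := cov_subst (a := 4) (b := 1 / 4) (τ := 1 / 16) he hκ (by norm_num) (by norm_num)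
      (by norm_num) hS hLS (hM.cov σ h0 h1) hG (by linarith) (by linarith) hΛ
    exact this.mono_card (max_le le_rfl hΛG)

theorem flow_substStep {e : V} (he : ‖e‖ = 1) {κ k : ℝ} {ΛG : ℕ} {C : Set (V × V)}
    (hκ : 0 < κ) (hfin : C.Finite) (hLS : LS k C)
    (hlen : ∀ c ∈ C, ‖c.2 - c.1‖ ≤ 1)
    (hG : Cov (4 + 1 / 16) (1 / 4 - 2 * (1 / 16)) ΛG (segs C))
    (hk : 256 * κ ≤ k) (hΛ : 1 ≤ Λ) (hΛG : ΛG ≤ Λ) (hM : Good κ Λ e T M) :
    Flow Λ (Prod.fst '' C ∪ Prod.snd '' C) (Prod.fst '' C ∪ Prod.snd '' C) T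
      (fun m => substStep e C (M m)) where
  Tpos := hM.Tpos
  step := fun m hm => goodStep_subst he hκ hfin hLS hlen hG hk hΛ hΛG (hM.step m hm) (hM.lens m hm)
  chain := by
    intro m hm
    have key : ∀ m' : ℕ, Prod.snd '' (substStep e C (M m')) =
        ⋃ c ∈ C, chordMap e c '' (Prod.snd '' (M m')) := by
      intro m'
      simp only [substStep, image_iUnion, image_image, Prod.map_snd]
    have key' : ∀ m' : ℕ, Prod.fst '' (substStep e C (M m')) =
        ⋃ c ∈ C, chordMap e c '' (Prod.fst '' (M m')) := by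
      intro m'
      simp only [substStep, image_iUnion, image_image, Prod.map_fst]
    rw [key, key', hM.chain m hm]
  start := by
    have key' : Prod.fst '' (substStep e C (M 0)) =
        ⋃ c ∈ C, chordMap e c '' (Prod.fst '' (M 0)) := by
      simp only [substStep, image_iUnion, image_image, Prod.map_fst]
    rw [key', hM.start]
    ext z
    simp only [mem_iUnion, exists_prop, mem_image, mem_insert_iff, mem_singleton_iff,
      exists_eq_or_imp, exists_eq_left, chordMap_zero, chordMap_self he, mem_union]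
    constructor
    · rintro ⟨c, hc, rfl | rfl⟩
      · exact Or.inl ⟨c, hc, rfl⟩
      · exact Or.inr ⟨c, hc, rfl⟩
    · rintro (⟨c, hc, rfl⟩ | ⟨c, hc, rfl⟩)
      · exact ⟨c, hc, Or.inl rfl⟩
      · exact ⟨c, hc, Or.inr rfl⟩
  stop := by
    have key' : Prod.snd '' (substStep e C (M (T - 1))) =
        ⋃ c ∈ C, chordMap e c '' (Prod.snd '' (M (T - 1))) := by
      simp only [substStep, image_iUnion, image_image, Prod.map_snd]
    rw [key', hM.stop]
    ext z
    simp only [mem_iUnion, exists_prop, mem_image, mem_insert_iff, mem_singleton_iff,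
      exists_eq_or_imp, exists_eq_left, chordMap_zero, chordMap_self he, mem_union]
    constructor
    · rintro ⟨c, hc, rfl | rfl⟩
      · exact Or.inl ⟨c, hc, rfl⟩
      · exact Or.inr ⟨c, hc, rfl⟩
    · rintro (⟨c, hc, rfl⟩ | ⟨c, hc, rfl⟩)
      · exact ⟨c, hc, Or.inl rfl⟩
      · exact ⟨c, hc, Or.inr rfl⟩

end Crest.Agent.Doub
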