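import Crest.Agent.Doub.Outer2

/-!
# Row 254: proof of `GoalA`
-/

set_option autoImplicit false
set_option linter.unusedSectionVars false

namespace Crest.Agent.Doub

open Metric Set Filter Topology
open scoped RealInnerProductSpace

/-- The concrete frame. -/
noncomputable def stdV (N : ℕ) (i : ℕ) : EuclideanSpace ℝ (Fin (N + 1)) :=
  if h : i < N then EuclideanSpace.single (Fin.succ ⟨i, h⟩) (1 : ℝ) else 0

theorem stdFrame (N : ℕ) :
    Frame N (EuclideanSpace.single (0 : Fin (N + 1)) (1 : ℝ)) (stdV N) where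
  norm_e := by simp
  norm_v := by
    intro i hi
    simp [stdV, hi]
  inner_ev := by
    intro i hi
    simp [stdV, hi, EuclideanSpace.inner_single_left]
  inner_vv := by
    intro i hi j hj hij
    simp [stdV, hi, hj, EuclideanSpace.inner_single_left, Fin.ext_iff, hij.symm, hij]

theorem goalA : GoalA := by
  refine ⟨7513, ?_⟩
  intro d D₀
  obtain ⟨D, hD₀, hD2⟩ : ∃ D : ℝ, D₀ ≤ D ∧ 2 ≤ D := ⟨max D₀ 2, le_max_left _ _, le_max_right _ _⟩
  have hD1 : 1 ≤ D := by linarith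
  have hD0 : 0 < D := by linarith
  obtain ⟨N, hN, hpack⟩ := exists_packing (W := EuclideanSpace ℝ (Fin d)) D hD0
  have hF := stdFrame N
  set e : EuclideanSpace ℝ (Fin (N + 1)) := EuclideanSpace.single (0 : Fin (N + 1)) (1 : ℝ)
  set v := stdV N
  have hN0 : (0 : ℝ) ≤ N := Nat.cast_nonneg _
  have hD4 : 1 ≤ D ^ 4 := one_le_pow₀ hD1
  -- parameters
  set θ : ℝ := 1 / (24000 * (N + 1) * D ^ 4) with hθ
  have hθ0 : 0 < θ := by positivity
  set s : ℝ := θ / 16384 with hs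
  have hs0 : 0 < s := by positivity
  set κ : ℝ := θ / 1024 with hκ
  have hθN : θ * (N + 1) = 1 / (24000 * D ^ 4) := by rw [hθ]; field_simp
  have hθN' : θ * (N + 1) ≤ 1 / 100 := by
    rw [hθN]
    exact one_div_le_one_div_of_le (by norm_num) (by linarith)
  have hP : Params N s θ κ := ⟨hθ0, hθN', rfl, rfl⟩
  have hpos := hP.pos
  have hs1 : s ≤ 1 := hpos.2.2.2
  set δ : ℝ := 1 / (5 * D) with hδ
  set μ : ℝ := s / (6000 * (N + 1) * D ^ 3) with hμ
  set ε₂ : ℝ := s ^ 2 / (1500 * D ^ 4) with hε₂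
  have hδ0 : 0 < δ := by positivity
  have hμ0 : 0 < μ := by positivity
  have hε₂0 : 0 < ε₂ := by positivity
  have hδ5 : 5 * D * δ ≤ 1 := by rw [hδ]; field_simp; exact le_rfl
  have hμ1 : μ * D < 1 := by
    rw [hμ, div_mul_eq_mul_div, div_lt_one (by positivity)]
    have h1 : D ≤ D ^ 3 := le_self_pow₀ hD1 (by norm_num)
    have h2 : 1 * D ^ 3 ≤ (6000 * ((N : ℝ) + 1)) * D ^ 3 :=
      mul_le_mul_of_nonneg_right (by linarith) (by positivity)
    have h3 : s * D ≤ 1 * D := mul_le_mul_of_nonneg_right hs1 hD0.le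
    have h4 : 1 * D ^ 3 < (6000 * ((N : ℝ) + 1)) * D ^ 3 :=
      mul_lt_mul_of_pos_right (by linarith) (by positivity)
    linarith
  have hε₂1 : ε₂ ≤ 1 := by
    rw [hε₂, div_le_one (by positivity)]
    have : s ^ 2 ≤ 1 := by nlinarith
    linarith
  have hpar : 5 * ε₂ * D ^ 2 + 20 * (N + 1) * D * s * μ + 80 * (N + 1) * D ^ 2 * θ * s ^ 2 ≤
      (δ * s / 2) ^ 2 := by
    have e1 : 5 * ε₂ * D ^ 2 = s ^ 2 / (300 * D ^ 2) := by
      rw [hε₂]; field_simp; norm_num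
    have e2 : 20 * (N + 1) * D * s * μ = s ^ 2 / (300 * D ^ 2) := by
      rw [hμ]; field_simp; norm_num
    have e3 : 80 * (N + 1) * D ^ 2 * θ * s ^ 2 = s ^ 2 / (300 * D ^ 2) := by
      have : 80 * (N + 1) * D ^ 2 * θ * s ^ 2 = 80 * D ^ 2 * (θ * (N + 1)) * s ^ 2 := by ring
      rw [this, hθN]; field_simp; norm_num
    have e4 : (δ * s / 2) ^ 2 = s ^ 2 / (100 * D ^ 2) := by
      rw [hδ]; field_simp; norm_num
    rw [e1, e2, e3, e4]
    refine le_of_eq ?_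
    field_simp; norm_num
  -- inner recursion
  obtain ⟨K, hK⟩ := pow_unbounded_of_one_lt (D ^ 2) (by linarith : 1 < 1 + ε₂)
  obtain ⟨T, M, ε, η, hε, hη, hM, hPk⟩ := exists_structure (W := EuclideanSpace ℝ (Fin d)) hF hP hN
    hD1 hδ0 hδ5 hμ0 hμ1 hε₂0.le hε₂1 hpar hpack K
  -- outer parameters
  obtain ⟨n₀, hn100, hn⟩ : ∃ n₀ : ℕ, 100 ≤ n₀ ∧ 4 * D / n₀ ≤ η / 2 := by
    obtain ⟨n, hn⟩ := exists_nat_gt (4 * D / (η / 2))
    refine ⟨n + 100, by omega, ?_⟩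
    have hn0 : (0 : ℝ) < ((n + 100 : ℕ) : ℝ) := by positivity
    rw [div_lt_iff₀ (by positivity)] at hn
    rw [div_le_iff₀ hn0]
    push_cast
    nlinarith
  obtain ⟨k, hk0, hk1, hLS⟩ := flow_LS (topM_flow hF.norm_e hM hn100)
  set T' : ℝ := (topT n₀ T : ℝ) with hT'
  have hT'0 : 0 ≤ T' := Nat.cast_nonneg _
  set κ' : ℝ := k / 32 with hκ'
  have hκ'0 : 0 < κ' := by positivity
  set Z : ℝ := 3 * T' + 32 / κ' with hZ
  have hZ0 : 0 < Z := by positivity
  set L : ℝ := 2 * Z + T' with hL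
  have hL0 : 0 < L := by positivity
  have hLκ : 32 ≤ κ' * L := by
    have : κ' * (32 / κ') = 32 := by field_simp
    rw [hL, hZ]
    nlinarith
  obtain ⟨ε₁, hε₁0, hε₁ε, hε₁1, hε₁η⟩ : ∃ ε₁ : ℝ, 0 < ε₁ ∧ ε₁ ≤ ε ∧ ε₁ ≤ 1 ∧
      ε₁ * D * L ≤ η / 2 := by
    refine ⟨min (min ε 1) (η / 2 / (D * L)), by positivity,
      (min_le_left _ _).trans (min_le_left _ _), (min_le_left _ _).trans (min_le_right _ _), ?_⟩
    have h1 : min (min ε 1) (η / 2 / (D * L)) ≤ η / 2 / (D * L) := min_le_right _ _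
    rw [mul_assoc]
    rwa [le_div_iff₀ (by positivity)] at h1
  have hOP : ∀ m : ℕ, ∃ Y : Set (WithLp 2 (ℝ × EuclideanSpace ℝ (Fin (N + 1)))),
      OP (EuclideanSpace ℝ (Fin d)) κ' D ε₁ m Y := by
    intro m
    induction m with
    | zero => exact ⟨_, op_zero hκ'0⟩
    | succ m ih =>
      obtain ⟨Y, hY⟩ := ih
      exact ⟨_, outer_step hpos.1 hpos.2.2.1 hF.norm_e hM hn100 hD1 hPk hK (hLS Z hZ0) hκ'0
        (by rw [hκ']; linarith) (by rw [hκ']; linarith) rfl hZ0 (by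
          have : 0 < 32 / κ' := by positivity
          rw [hZ]; linarith) hLκ hε₁0 hε₁ε hε₁1 (by linarith) hY⟩
  obtain ⟨m, hm⟩ := pow_unbounded_of_one_lt (D ^ 2) (by linarith : 1 < 1 + ε₁)
  obtain ⟨Y, hY⟩ := hOP m
  have hno : ∀ f : WithLp 2 (ℝ × EuclideanSpace ℝ (Fin (N + 1))) → EuclideanSpace ℝ (Fin d),
      ¬ Bilip D Y f := by
    intro f hf
    have h1 := hY.bil f hf
    have h2 := (hf _ hY.one _ hY.zero).1
    rw [dist_eq_norm, dist_eq_norm, sub_zero, norm_E1] at h2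
    have hpow : 0 < (1 + ε₁) ^ m := by positivity
    have h3 : (1 + ε₁) ^ m ≤ (D * ‖f (pt 1 0) - f 0‖) * (1 + ε₁) ^ m :=
      le_mul_of_one_le_left hpow.le h2
    have h4 := mul_le_mul_of_nonneg_left h1 hD0.le
    have h5 : (D * ‖f (pt 1 0) - f 0‖) * (1 + ε₁) ^ m =
        D * (‖f (pt 1 0) - f 0‖ * (1 + ε₁) ^ m) := by ring
    have h6 : D * D = D ^ 2 := by ring
    linarith
  -- transfer to a standard Euclidean space
  let φ := (stdOrthonormalBasis ℝ (WithLp 2 (ℝ × EuclideanSpace ℝ (Fin (N + 1))))).repr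
  refine ⟨_, φ '' Y, hY.fin.image _, ⟨0, hY.zero, map_zero φ⟩, ?_, ?_⟩
  · refine hY.cov.image φ one_pos ?_ φ.surjective
    intro x y
    rw [LinearIsometryEquiv.dist_map, one_mul]
  · intro f hf
    refine hno (fun x => f (φ x)) ?_
    intro x hx y hy
    have h1 := hf (φ x) ⟨x, hx, rfl⟩ (φ y) ⟨y, hy, rfl⟩
    rw [LinearIsometryEquiv.dist_map] at h1
    constructor
    · exact h1.1.trans (mul_le_mul_of_nonneg_right hD₀ dist_nonneg)
    · exact h1.2.trans (mul_le_mul_of_nonneg_right hD₀ dist_nonneg)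

end Crest.Agent.Doub
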