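import Crest.Agent.Doub.CovLemmas

/-!
# Row 254: geometry of the pattern (chunk C5)
-/

set_option autoImplicit false
set_option linter.unusedSectionVars false

namespace Crest.Agent.Doub

open Metric Set
open scoped RealInnerProductSpace

variable {V : Type*} [NormedAddCommGroup V] [InnerProductSpace ℝ V]
variable {N : ℕ} {s θ κ : ℝ} {e : V} {v : ℕ → V}

/-! ### Finiteness -/

theorem chords_finite (i : ℕ) : (chords N s θ e v i).Finite := by
  unfold chords
  refine (Set.Finite.union (Set.Finite.union ?_ ?_) ?_)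
  · refine ((Set.finite_le_nat (N + 4)).image
      (fun j => (bp N s θ e j, bp N s θ e (j + 1)))).subset ?_
    rintro c ⟨j, hj, rfl⟩
    exact ⟨j, hj, rfl⟩
  · refine ((Set.finite_le_nat (N + 3)).image
      (fun j => (up N s θ e v i j, up N s θ e v i (j + 1)))).subset ?_
    rintro c ⟨j, -, hj, rfl⟩
    exact ⟨j, hj, rfl⟩
  · refine ((Set.finite_lt_nat N).image
      (fun k => (hp N s θ e v k, hp N s θ e v k))).subset ?_
    rintro c ⟨j, hj, -, rfl⟩
    exact ⟨j, hj, rfl⟩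

theorem pers_finite : (pers N s θ e v).Finite := by
  unfold pers
  refine (Set.Finite.union ?_ ?_)
  · refine ((Set.finite_le_nat (N + 4)).image (fun j => bp N s θ e j)).subset ?_
    rintro c ⟨j, -, hj, rfl⟩
    exact ⟨j, hj, rfl⟩
  · refine ((Set.finite_lt_nat N).image (fun k => hp N s θ e v k)).subset ?_
    rintro c ⟨j, hj, rfl⟩
    exact ⟨j, hj, rfl⟩

theorem phas_finite (i : ℕ) : (phas N s θ e v i).Finite := by
  unfold phas
  refine ((Set.finite_le_nat (N + 3)).image (fun j => up N s θ e v i j)).subset ?_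
  rintro c ⟨j, -, hj, rfl⟩
  exact ⟨j, hj, rfl⟩

/-! ### Parameters -/

theorem Params.θle' (hP : Params N s θ κ) : θ ≤ 1 / 100 := by
  have h1 := hP.θle
  have h2 := hP.θpos
  have h3 : (0 : ℝ) ≤ N := Nat.cast_nonneg N
  nlinarith

theorem Params.spos (hP : Params N s θ κ) : 0 < s := by
  rw [hP.seq]; have := hP.θpos; positivity

theorem Params.κpos (hP : Params N s θ κ) : 0 < κ := by
  rw [hP.κeq]; have := hP.θpos; positivity

theorem Params.sκ (hP : Params N s θ κ) : s = κ / 16 := by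
  rw [hP.κeq, hP.seq]; ring

theorem Params.sθ (hP : Params N s θ κ) : s / θ = 1 / 16384 := by
  rw [hP.seq]; have := hP.θpos; field_simp

theorem Params.sθmul (hP : Params N s θ κ) : θ * (s / θ) = s := by
  have := hP.θpos; field_simp

theorem Params.sN (hP : Params N s θ κ) : s * (N + 1) ≤ 1 / 1638400 := by
  rw [hP.seq]; have := hP.θle; linarith

theorem Params.halfW_le (hP : Params N s θ κ) : halfW N s θ ≤ 1 / 1000 := by
  unfold halfW
  rw [hP.sθ]
  have := hP.sN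
  nlinarith

theorem Params.halfW_pos (hP : Params N s θ κ) : 0 < halfW N s θ := by
  unfold halfW
  have h1 := hP.spos
  have h2 := hP.θpos
  positivity

/-! ### The coordinates -/

theorem xs_zero : xs N s θ 0 = 0 := by simp [xs]
theorem xs_one : xs N s θ 1 = 1 / 2 - halfW N s θ := by simp [xs]
theorem xs_mid {j : ℕ} (h1 : 2 ≤ j) (h2 : j ≤ N + 3) :
    xs N s θ j = 1 / 2 + 10 * s * ((j : ℝ) - 2 - (N + 1) / 2) := by
  unfold xs
  rw [if_neg (by omega), if_neg (by omega), if_pos h2]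
theorem xs_top : xs N s θ (N + 4) = 1 / 2 + halfW N s θ := by
  unfold xs
  rw [if_neg (by omega), if_neg (by omega), if_neg (by omega), if_pos rfl]
theorem xs_last : xs N s θ (N + 5) = 1 := by
  unfold xs
  rw [if_neg (by omega), if_neg (by omega), if_neg (by omega), if_neg (by omega)]

theorem xs_two : xs N s θ 2 = 1 / 2 - 5 * s * (N + 1) := by
  rw [xs_mid le_rfl (by omega)]; push_cast; ring
theorem xs_N3 : xs N s θ (N + 3) = 1 / 2 + 5 * s * (N + 1) := by
  rw [xs_mid (by omega) le_rfl]; push_cast; ring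

theorem dx_one : xs N s θ 2 - xs N s θ 1 = s / θ := by
  rw [xs_two, xs_one]; unfold halfW; ring
theorem dx_N3 : xs N s θ (N + 4) - xs N s θ (N + 3) = s / θ := by
  rw [xs_top, xs_N3]; unfold halfW; ring
theorem dx_mid {j : ℕ} (h1 : 2 ≤ j) (h2 : j ≤ N + 2) :
    xs N s θ (j + 1) - xs N s θ j = 10 * s := by
  rw [xs_mid h1 (by omega), xs_mid (by omega) (by omega)]; push_cast; ring

theorem dx_ge (hP : Params N s θ κ) {j : ℕ} (hj : j ≤ N + 4) :
    10 * s ≤ xs N s θ (j + 1) - xs N s θ j := by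
  have hs := hP.spos
  have hθ := hP.θpos
  have hW := hP.halfW_le
  have hθ' := hP.θle'
  have hsθ := hP.sθ
  have hsmall : s ≤ 1 / 1638400 := by rw [hP.seq]; linarith
  rcases Nat.lt_or_ge j 1 with h | h
  · have : j = 0 := by omega
    subst this
    rw [xs_zero, zero_add, xs_one]
    linarith
  rcases Nat.lt_or_ge j 2 with h' | h'
  · have : j = 1 := by omega
    subst this
    rw [show 1 + 1 = 2 from rfl, dx_one, hsθ]
    linarith
  rcases Nat.lt_or_ge j (N + 3) with h'' | h''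
  · rw [dx_mid h' (by omega)]
  rcases Nat.lt_or_ge j (N + 4) with h3 | h3
  · have : j = N + 3 := by omega
    subst this
    rw [show N + 3 + 1 = N + 4 from rfl, dx_N3, hsθ]
    linarith
  · have : j = N + 4 := by omega
    subst this
    rw [show N + 4 + 1 = N + 5 from rfl, xs_last, xs_top]
    linarith

theorem xs_lt_succ (hP : Params N s θ κ) {j : ℕ} (hj : j ≤ N + 4) :
    xs N s θ j < xs N s θ (j + 1) := by
  have := dx_ge hP hj
  have := hP.spos
  linarith

theorem xs_mono (hP : Params N s θ κ) {j k : ℕ} (hjk : j ≤ k) (hk : k ≤ N + 5) :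
    xs N s θ j ≤ xs N s θ k := by
  induction k, hjk using Nat.le_induction with
  | base => exact le_rfl
  | succ k hjk ih => exact (ih (by omega)).trans (xs_lt_succ hP (by omega)).le

theorem xs_nonneg (hP : Params N s θ κ) {j : ℕ} (hj : j ≤ N + 5) : 0 ≤ xs N s θ j := by
  have := xs_mono hP (Nat.zero_le j) hj
  rwa [xs_zero] at this

theorem xs_le_one (hP : Params N s θ κ) {j : ℕ} (hj : j ≤ N + 5) : xs N s θ j ≤ 1 := by
  have := xs_mono hP hj le_rfl
  rwa [xs_last] at this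

theorem xs_central (hP : Params N s θ κ) {j : ℕ} (h1 : 1 ≤ j) (h2 : j ≤ N + 4) :
    49 / 100 ≤ xs N s θ j ∧ xs N s θ j ≤ 51 / 100 := by
  have a1 := xs_mono hP h1 (by omega)
  have a2 := xs_mono hP h2 (by omega)
  rw [xs_one] at a1
  rw [xs_top] at a2
  have := hP.halfW_le
  constructor <;> linarith

theorem dx_small (hP : Params N s θ κ) {j : ℕ} (h1 : 1 ≤ j) (h2 : j ≤ N + 3) :
    θ * (xs N s θ (j + 1) - xs N s θ j) ≤ s := by
  have hs := hP.spos
  have hθ := hP.θpos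
  have hθ' := hP.θle'
  rcases Nat.lt_or_ge j 2 with h' | h'
  · have : j = 1 := by omega
    subst this
    rw [show 1 + 1 = 2 from rfl, dx_one, hP.sθmul]
  rcases Nat.lt_or_ge j (N + 3) with h'' | h''
  · rw [dx_mid h' (by omega)]; nlinarith
  · have : j = N + 3 := by omega
    subst this
    rw [show N + 3 + 1 = N + 4 from rfl, dx_N3, hP.sθmul]

theorem ys_one : ys N s 1 = 0 := by simp [ys]
theorem ys_top : ys N s (N + 4) = 0 := by
  unfold ys; rw [if_neg (by omega)]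
theorem ys_mid {j : ℕ} (h1 : 2 ≤ j) (h2 : j ≤ N + 3) : ys N s j = s := by
  unfold ys; rw [if_pos ⟨h1, h2⟩]

/-- the trapezoid -/
noncomputable def trap (N : ℕ) (s θ x : ℝ) : ℝ :=
  min s (min (θ * (x - xs N s θ 1)) (θ * (xs N s θ (N + 4) - x)))

theorem trap_mid (hP : Params N s θ κ) {x : ℝ} (h1 : xs N s θ 2 ≤ x) (h2 : x ≤ xs N s θ (N + 3)) :
    trap N s θ x = s := by
  have hθ := hP.θpos
  have e1 : xs N s θ 2 - xs N s θ 1 = s / θ := dx_one
  have e2 : xs N s θ (N + 4) - xs N s θ (N + 3) = s / θ := dx_N3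
  have e3 := hP.sθmul
  unfold trap
  refine min_eq_left (le_min ?_ ?_)
  · calc s = θ * (xs N s θ 2 - xs N s θ 1) := by rw [e1, e3]
      _ ≤ _ := by nlinarith
  · calc s = θ * (xs N s θ (N + 4) - xs N s θ (N + 3)) := by rw [e2, e3]
      _ ≤ _ := by nlinarith

theorem trap_left (hP : Params N s θ κ) {x : ℝ} (h1 : xs N s θ 1 ≤ x) (h2 : x ≤ xs N s θ 2) :
    trap N s θ x = θ * (x - xs N s θ 1) := by
  have hθ := hP.θpos
  have hs := hP.spos
  have e1 : xs N s θ 2 - xs N s θ 1 = s / θ := dx_one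
  have e2 : xs N s θ (N + 4) - xs N s θ (N + 3) = s / θ := dx_N3
  have e3 := hP.sθmul
  have e4 : xs N s θ 2 ≤ xs N s θ (N + 3) := xs_mono hP (by omega) (by omega)
  have h3 : θ * (x - xs N s θ 1) ≤ s := by
    calc θ * (x - xs N s θ 1) ≤ θ * (xs N s θ 2 - xs N s θ 1) := by nlinarith
      _ = s := by rw [e1, e3]
  have h4 : s ≤ θ * (xs N s θ (N + 4) - x) := by
    calc s = θ * (xs N s θ (N + 4) - xs N s θ (N + 3)) := by rw [e2, e3]
      _ ≤ _ := by nlinarith
  unfold trap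
  rw [min_eq_left (h3.trans h4), min_eq_right h3]

theorem trap_right (hP : Params N s θ κ) {x : ℝ} (h1 : xs N s θ (N + 3) ≤ x)
    (h2 : x ≤ xs N s θ (N + 4)) : trap N s θ x = θ * (xs N s θ (N + 4) - x) := by
  have hθ := hP.θpos
  have hs := hP.spos
  have e1 : xs N s θ 2 - xs N s θ 1 = s / θ := dx_one
  have e2 : xs N s θ (N + 4) - xs N s θ (N + 3) = s / θ := dx_N3
  have e3 := hP.sθmul
  have e4 : xs N s θ 2 ≤ xs N s θ (N + 3) := xs_mono hP (by omega) (by omega)
  have h3 : θ * (xs N s θ (N + 4) - x) ≤ s := by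
    calc θ * (xs N s θ (N + 4) - x) ≤ θ * (xs N s θ (N + 4) - xs N s θ (N + 3)) := by nlinarith
      _ = s := by rw [e2, e3]
  have h4 : s ≤ θ * (x - xs N s θ 1) := by
    calc s = θ * (xs N s θ 2 - xs N s θ 1) := by rw [e1, e3]
      _ ≤ _ := by nlinarith
  unfold trap
  rw [min_eq_right (h3.trans h4), min_eq_right h3]

theorem trap_lip (hP : Params N s θ κ) (x y : ℝ) :
    |trap N s θ x - trap N s θ y| ≤ θ * |x - y| := by
  have hθ := hP.θpos
  unfold trap
  refine (abs_min_sub_min_le_max _ _ _ _).trans ?_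
  rw [sub_self, abs_zero]
  refine max_le (by positivity) ?_
  refine (abs_min_sub_min_le_max _ _ _ _).trans ?_
  refine max_le ?_ ?_
  · have : θ * (x - xs N s θ 1) - θ * (y - xs N s θ 1) = θ * (x - y) := by ring
    rw [this, abs_mul, abs_of_pos hθ]
  · have : θ * (xs N s θ (N + 4) - x) - θ * (xs N s θ (N + 4) - y) = θ * (y - x) := by ring
    rw [this, abs_mul, abs_of_pos hθ, abs_sub_comm]

/-- case split on the position of a raised chord -/
theorem chord_cases {j : ℕ} (h1 : 1 ≤ j) (h2 : j ≤ N + 3) :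
    j = 1 ∨ (2 ≤ j ∧ j ≤ N + 2) ∨ j = N + 3 := by omega

/-- the raised path is the graph of `trap`. -/
theorem trap_interp (hP : Params N s θ κ) {j : ℕ} (h1 : 1 ≤ j) (h2 : j ≤ N + 3) {r : ℝ}
    (h0 : 0 ≤ r) (hr : r ≤ 1) :
    (1 - r) * ys N s j + r * ys N s (j + 1) =
      trap N s θ ((1 - r) * xs N s θ j + r * xs N s θ (j + 1)) := by
  have hlt := xs_lt_succ hP (j := j) (by omega)
  rcases chord_cases h1 h2 with rfl | ⟨h3, h4⟩ | rfl
  · rw [show 1 + 1 = 2 from rfl] at *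
    rw [ys_one, ys_mid le_rfl (by omega), trap_left hP (by nlinarith) (by nlinarith)]
    have e1 : xs N s θ 2 - xs N s θ 1 = s / θ := dx_one
    have e2 : (1 - r) * xs N s θ 1 + r * xs N s θ 2 - xs N s θ 1
        = r * (xs N s θ 2 - xs N s θ 1) := by ring
    rw [e2, e1, mul_left_comm, hP.sθmul]; ring
  · rw [ys_mid h3 (by omega), ys_mid (by omega) (by omega), trap_mid hP ?_ ?_]
    · ring
    · have := xs_mono hP h3 (by omega : j ≤ N + 5)
      nlinarith
    · have := xs_mono hP (by omega : j + 1 ≤ N + 3) (by omega : N + 3 ≤ N + 5)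
      nlinarith
  · rw [show N + 3 + 1 = N + 4 from rfl] at *
    rw [ys_top, ys_mid (by omega) le_rfl, trap_right hP (by nlinarith) (by nlinarith)]
    have e1 : xs N s θ (N + 4) - xs N s θ (N + 3) = s / θ := dx_N3
    have e2 : xs N s θ (N + 4) - ((1 - r) * xs N s θ (N + 3) + r * xs N s θ (N + 4))
        = (1 - r) * (xs N s θ (N + 4) - xs N s θ (N + 3)) := by ring
    rw [e2, e1, mul_left_comm, hP.sθmul]; ring

theorem ys_eq_trap (hP : Params N s θ κ) {j : ℕ} (h1 : 1 ≤ j) (h2 : j ≤ N + 4) :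
    ys N s j = trap N s θ (xs N s θ j) := by
  rcases Nat.lt_or_ge j (N + 4) with h | h
  · have := trap_interp hP h1 (by omega : j ≤ N + 3) (r := 0) le_rfl (by norm_num)
    simpa using this
  · have : j = N + 4 := by omega
    subst this
    have := trap_interp hP (by omega : 1 ≤ N + 3) le_rfl (r := 1) (by norm_num) le_rfl
    simpa using this

/-! ### Frame computations -/

theorem Frame.inner_e_comb (hF : Frame N e v) {i : ℕ} (hi : i < N) (x y : ℝ) :
    (⟪e, x • e + y • v i⟫ : ℝ) = x := by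
  rw [inner_add_right, inner_smul_right, inner_smul_right, hF.inner_ev i hi,
    real_inner_self_eq_norm_sq, hF.norm_e]
  ring

theorem Frame.inner_ve (hF : Frame N e v) {i : ℕ} (hi : i < N) : (⟪v i, e⟫ : ℝ) = 0 := by
  rw [real_inner_comm]; exact hF.inner_ev i hi

theorem Frame.inner_v_comb (hF : Frame N e v) {i : ℕ} (hi : i < N) (x y : ℝ) :
    (⟪v i, x • e + y • v i⟫ : ℝ) = y := by
  rw [inner_add_right, inner_smul_right, inner_smul_right, hF.inner_ve hi,
    real_inner_self_eq_norm_sq, hF.norm_v i hi]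
  ring

theorem Frame.inner_v_comb' (hF : Frame N e v) {i k : ℕ} (hi : i < N) (hk : k < N) (hki : k ≠ i)
    (x y : ℝ) : (⟪v k, x • e + y • v i⟫ : ℝ) = 0 := by
  rw [inner_add_right, inner_smul_right, inner_smul_right, hF.inner_ve hk,
    hF.inner_vv k hk i hi hki]
  ring

theorem Frame.norm_comb_le (hF : Frame N e v) {i : ℕ} (hi : i < N) (x y : ℝ) :
    ‖x • e + y • v i‖ ≤ |x| + |y| := by
  refine (norm_add_le _ _).trans ?_
  rw [norm_smul, norm_smul, hF.norm_e, hF.norm_v i hi, mul_one, mul_one, Real.norm_eq_abs,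
    Real.norm_eq_abs]

theorem Frame.abs_inner_e_le (hF : Frame N e v) (a : V) : |(⟪e, a⟫ : ℝ)| ≤ ‖a‖ := by
  have := abs_real_inner_le_norm e a
  rwa [hF.norm_e, one_mul] at this

theorem Frame.abs_inner_v_le (hF : Frame N e v) {i : ℕ} (hi : i < N) (a : V) :
    |(⟪v i, a⟫ : ℝ)| ≤ ‖a‖ := by
  have := abs_real_inner_le_norm (v i) a
  rwa [hF.norm_v i hi, one_mul] at this

/-! ### Points of the segments -/

theorem mem_seg_base (hF : Frame N e v) (hP : Params N s θ κ) {j : ℕ} (hj : j ≤ N + 4) {a : V}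
    (ha : a ∈ segment ℝ (bp N s θ e j) (bp N s θ e (j + 1))) :
    ∃ x, xs N s θ j ≤ x ∧ x ≤ xs N s θ (j + 1) ∧ a = x • e ∧
      endDist (bp N s θ e j, bp N s θ e (j + 1)) a ≤ x - xs N s θ j ∧
      endDist (bp N s θ e j, bp N s θ e (j + 1)) a ≤ xs N s θ (j + 1) - x := by
  have hlt := xs_lt_succ hP hj
  rw [segment_eq_image] at ha
  obtain ⟨r, ⟨h0, h1⟩, rfl⟩ := ha
  refine ⟨(1 - r) * xs N s θ j + r * xs N s θ (j + 1), by nlinarith, by nlinarith, ?_, ?_, ?_⟩
  · unfold bp; module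
  · refine (min_le_left _ _).trans ?_
    have : (fun r : ℝ => (1 - r) • bp N s θ e j + r • bp N s θ e (j + 1)) r - bp N s θ e j
        = (r * (xs N s θ (j + 1) - xs N s θ j)) • e := by
      simp only [bp]; module
    rw [this, norm_smul, hF.norm_e, mul_one, Real.norm_eq_abs, abs_of_nonneg (by nlinarith)]
    linarith
  · refine (min_le_right _ _).trans ?_
    have : (fun r : ℝ => (1 - r) • bp N s θ e j + r • bp N s θ e (j + 1)) r - bp N s θ e (j + 1)
        = (-((1 - r) * (xs N s θ (j + 1) - xs N s θ j))) • e := by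
      simp only [bp]; module
    rw [this, norm_smul, hF.norm_e, mul_one, Real.norm_eq_abs, abs_neg,
      abs_of_nonneg (by nlinarith)]
    linarith

theorem mem_seg_up (hF : Frame N e v) (hP : Params N s θ κ) {i : ℕ} (hi : i < N) {j : ℕ}
    (h1 : 1 ≤ j) (hj : j ≤ N + 3) {a : V}
    (ha : a ∈ segment ℝ (up N s θ e v i j) (up N s θ e v i (j + 1))) :
    ∃ x, xs N s θ j ≤ x ∧ x ≤ xs N s θ (j + 1) ∧ a = x • e + trap N s θ x • v i ∧
      endDist (up N s θ e v i j, up N s θ e v i (j + 1)) a ≤ 2 * (x - xs N s θ j) ∧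
      endDist (up N s θ e v i j, up N s θ e v i (j + 1)) a ≤ 2 * (xs N s θ (j + 1) - x) := by
  have hlt := xs_lt_succ hP (by omega : j ≤ N + 4)
  have hθ := hP.θpos
  have hθ' := hP.θle'
  rw [segment_eq_image] at ha
  obtain ⟨r, ⟨h0, h1'⟩, rfl⟩ := ha
  set x : ℝ := (1 - r) * xs N s θ j + r * xs N s θ (j + 1) with hx
  have hxa : (1 - r) • up N s θ e v i j + r • up N s θ e v i (j + 1)
      = x • e + trap N s θ x • v i := by
    rw [hx, ← trap_interp hP h1 hj h0 h1']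
    unfold up; module
  have hx1 : xs N s θ j ≤ x := by rw [hx]; nlinarith
  have hx2 : x ≤ xs N s θ (j + 1) := by rw [hx]; nlinarith
  have key : ∀ k, 1 ≤ k → k ≤ N + 4 → ‖x • e + trap N s θ x • v i - up N s θ e v i k‖
      ≤ 2 * |x - xs N s θ k| := by
    intro k hk1 hk2
    have : x • e + trap N s θ x • v i - up N s θ e v i k
        = (x - xs N s θ k) • e + (trap N s θ x - trap N s θ (xs N s θ k)) • v i := by
      unfold up; rw [ys_eq_trap hP hk1 hk2]; module
    rw [this]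
    refine (hF.norm_comb_le hi _ _).trans ?_
    have := trap_lip hP x (xs N s θ k)
    have h3 := abs_nonneg (x - xs N s θ k)
    nlinarith
  refine ⟨x, hx1, hx2, hxa, ?_, ?_⟩
  · refine (min_le_left _ _).trans ?_
    simp only [hxa]
    have := key j h1 (by omega)
    rwa [abs_of_nonneg (by linarith)] at this
  · refine (min_le_right _ _).trans ?_
    simp only [hxa]
    have := key (j + 1) (by omega) (by omega)
    rwa [abs_sub_comm, abs_of_nonneg (by linarith)] at this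

theorem trap_nonneg (hP : Params N s θ κ) {x : ℝ} (h1 : xs N s θ 1 ≤ x)
    (h2 : x ≤ xs N s θ (N + 4)) : 0 ≤ trap N s θ x := by
  have hθ := hP.θpos
  have hs := hP.spos
  unfold trap
  refine le_min hs.le (le_min ?_ ?_)
  · exact mul_nonneg hθ.le (by linarith)
  · exact mul_nonneg hθ.le (by linarith)

theorem trap_le (x : ℝ) : trap N s θ x ≤ s := min_le_left _ _

theorem hp_eq (k : ℕ) (hk : k < N) :
    hp N s θ e v k = xs N s θ (k + 3) • e + s • v k := by
  unfold hp up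
  rw [ys_mid (by omega) (by omega)]

/-- description of points of chords -/
inductive CDesc (N : ℕ) (s θ : ℝ) (e : V) (v : ℕ → V) (i : ℕ) (c : V × V) (a : V) : Prop
  | base (j : ℕ) (x : ℝ) (hj : j ≤ N + 4) (hc : c = (bp N s θ e j, bp N s θ e (j + 1)))
      (h1 : xs N s θ j ≤ x) (h2 : x ≤ xs N s θ (j + 1)) (ha : a = x • e)
      (d1 : endDist c a ≤ x - xs N s θ j) (d2 : endDist c a ≤ xs N s θ (j + 1) - x)
  | raised (j : ℕ) (x : ℝ) (hj1 : 1 ≤ j) (hj : j ≤ N + 3)
      (hc : c = (up N s θ e v i j, up N s θ e v i (j + 1)))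
      (h1 : xs N s θ j ≤ x) (h2 : x ≤ xs N s θ (j + 1)) (ha : a = x • e + trap N s θ x • v i)
      (d1 : endDist c a ≤ 2 * (x - xs N s θ j)) (d2 : endDist c a ≤ 2 * (xs N s θ (j + 1) - x))
  | pt (k : ℕ) (hk : k < N) (hki : k ≠ i) (hc : c = (hp N s θ e v k, hp N s θ e v k))
      (ha : a = xs N s θ (k + 3) • e + s • v k) (d : endDist c a = 0)

theorem cdesc (hF : Frame N e v) (hP : Params N s θ κ) {i : ℕ} (hi : i < N) {c : V × V} {a : V}
    (hc : c ∈ chords N s θ e v i) (ha : a ∈ segment ℝ c.1 c.2) : CDesc N s θ e v i c a := by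
  rcases hc with (⟨j, hj, rfl⟩ | ⟨j, hj1, hj, rfl⟩) | ⟨k, hk, hki, rfl⟩
  · obtain ⟨x, h1, h2, h3, h4, h5⟩ := mem_seg_base hF hP hj ha
    exact CDesc.base j x hj rfl h1 h2 h3 h4 h5
  · obtain ⟨x, h1, h2, h3, h4, h5⟩ := mem_seg_up hF hP hi hj1 hj ha
    exact CDesc.raised j x hj1 hj rfl h1 h2 h3 h4 h5
  · simp only [segment_same, mem_singleton_iff] at ha
    subst ha
    refine CDesc.pt k hk hki rfl (hp_eq k hk) ?_
    simp [endDist]

/-- two positions on distinct cells of the subdivision -/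
theorem cell_sep (hP : Params N s θ κ) {j j' : ℕ} (hj : j ≤ N + 4) (hj' : j' ≤ N + 4)
    (hne : j ≠ j') {x x' d : ℝ} (_h1 : xs N s θ j ≤ x) (_h2 : x ≤ xs N s θ (j + 1))
    (h1' : xs N s θ j' ≤ x') (h2' : x' ≤ xs N s θ (j' + 1)) (d1 : d ≤ 2 * (x - xs N s θ j))
    (d2 : d ≤ 2 * (xs N s θ (j + 1) - x)) : d ≤ 2 * |x - x'| := by
  rcases Nat.lt_or_ge j j' with h | h
  · have := xs_mono hP (by omega : j + 1 ≤ j') (by omega)
    have := neg_le_abs (x - x')
    linarith
  · have := xs_mono hP (by omega : j' + 1 ≤ j) (by omega)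
    have := le_abs_self (x - x')
    linarith

/-- linear separation of the phase graph. Proof: everything lies over the `x`-axis; base path is
the graph of `0`, raised path the graph of the trapezoid `φ` (`θ`-Lipschitz), isolated points at
distance `s` from the plane `span(e, v_i)`. -/
theorem chords_LS (hF : Frame N e v) (hP : Params N s θ κ) {i : ℕ} (hi : i < N) :
    LS (θ / 4) (chords N s θ e v i) := by
  intro c hc c' hc' hne a ha a' ha'
  have hθ := hP.θpos
  have hθ' := hP.θle'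
  have hs := hP.spos
  have hX : |(⟪e, a⟫ : ℝ) - ⟪e, a'⟫| ≤ ‖a - a'‖ := by
    rw [← inner_sub_right]; exact hF.abs_inner_e_le _
  have hY : ∀ k, k < N → |(⟪v k, a⟫ : ℝ) - ⟪v k, a'⟫| ≤ ‖a - a'‖ := by
    intro k hk
    rw [← inner_sub_right]; exact hF.abs_inner_v_le hk _
  have hd0 := endDist_nonneg c a
  have hinner_e : ∀ x : ℝ, (⟪e, x • e⟫ : ℝ) = x := by
    intro x
    rw [inner_smul_right, real_inner_self_eq_norm_sq, hF.norm_e]; ring
  have hinner_ve : ∀ k, k < N → ∀ x : ℝ, (⟪v k, x • e⟫ : ℝ) = 0 := by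
    intro k hk x
    rw [inner_smul_right, hF.inner_ve hk, mul_zero]
  -- from `d ≤ 2 * |x - x'|` conclude
  have fin1 : ∀ {x x' : ℝ}, |x - x'| ≤ ‖a - a'‖ → endDist c a ≤ 2 * |x - x'| →
      θ / 4 * endDist c a ≤ ‖a - a'‖ := by
    intro x x' h1 h2
    nlinarith
  -- from the `v_k` coordinate
  have fin2 : s ≤ ‖a - a'‖ → θ * endDist c a ≤ 4 * s → θ / 4 * endDist c a ≤ ‖a - a'‖ := by
    intro h1 h2
    linarith
  rcases cdesc hF hP hi hc ha with ⟨j, x, hj, hcc, h1, h2, haa, d1, d2⟩ |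
    ⟨j, x, hj1, hj, hcc, h1, h2, haa, d1, d2⟩ | ⟨k, hk, hki, hcc, haa, d⟩
  · -- `c` base
    have hXa : (⟪e, a⟫ : ℝ) = x := by rw [haa, hinner_e]
    have d1' : endDist c a ≤ 2 * (x - xs N s θ j) := by linarith
    have d2' : endDist c a ≤ 2 * (xs N s θ (j + 1) - x) := by linarith
    rcases cdesc hF hP hi hc' ha' with ⟨j', x', hj', hcc', h1', h2', haa', -, -⟩ |
      ⟨j', x', hj1', hj', hcc', h1', h2', haa', -, -⟩ | ⟨k', hk', hki', hcc', haa', -⟩
    · have hXa' : (⟪e, a'⟫ : ℝ) = x' := by rw [haa', hinner_e]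
      have hjj : j ≠ j' := by
        rintro rfl
        exact hne (hcc.trans hcc'.symm)
      rw [hXa, hXa'] at hX
      exact fin1 hX (cell_sep hP hj hj' hjj h1 h2 h1' h2' d1' d2')
    · have hXa' : (⟪e, a'⟫ : ℝ) = x' := by rw [haa', hF.inner_e_comb hi]
      rw [hXa, hXa'] at hX
      by_cases hjj : j = j'
      · subst hjj
        have hY' := hY i hi
        rw [haa, haa', hinner_ve i hi, hF.inner_v_comb hi, ← haa, ← haa', zero_sub, abs_neg] at hY'
        have hYle := (le_abs_self _).trans hY'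
        have hab := (le_abs_self (x - x')).trans hX
        have hab' := (neg_le_abs (x - x')).trans hX
        rcases chord_cases hj1' hj' with rfl | ⟨h3, h4⟩ | rfl
        · rw [trap_left hP h1' h2'] at hYle
          nlinarith
        · rw [trap_mid hP ((xs_mono hP h3 (by omega)).trans h1')
            (h2'.trans (xs_mono hP (by omega : j + 1 ≤ N + 3) (by omega)))] at hYle
          refine fin2 hYle ?_
          have := dx_mid (N := N) (s := s) (θ := θ) h3 h4
          nlinarith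
        · rw [trap_right hP h1' h2'] at hYle
          rw [show N + 3 + 1 = N + 4 from rfl] at *
          nlinarith
      · exact fin1 hX (cell_sep hP hj (by omega) hjj h1 h2 h1' h2' d1' d2')
    · have hXa' : (⟪e, a'⟫ : ℝ) = xs N s θ (k' + 3) := by rw [haa', hF.inner_e_comb hk']
      rw [hXa, hXa'] at hX
      have hY' := hY k' hk'
      rw [haa, haa', hinner_ve k' hk', hF.inner_v_comb hk', ← haa, ← haa', zero_sub, abs_neg,
        abs_of_pos hs] at hY'
      by_cases hj0 : j = 0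
      · subst hj0
        have := xs_mono hP (by omega : 0 + 1 ≤ k' + 3) (by omega)
        have := neg_le_abs (x - xs N s θ (k' + 3))
        nlinarith
      · by_cases hj4 : j = N + 4
        · subst hj4
          have := xs_mono hP (by omega : k' + 3 ≤ N + 4) (by omega)
          have := le_abs_self (x - xs N s θ (k' + 3))
          nlinarith
        · refine fin2 hY' ?_
          have := dx_small hP (by omega : 1 ≤ j) (by omega : j ≤ N + 3)
          nlinarith
  · -- `c` raised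
    have hXa : (⟪e, a⟫ : ℝ) = x := by rw [haa, hF.inner_e_comb hi]
    have hdx := dx_small hP hj1 hj
    rcases cdesc hF hP hi hc' ha' with ⟨j', x', hj', hcc', h1', h2', haa', -, -⟩ |
      ⟨j', x', hj1', hj', hcc', h1', h2', haa', -, -⟩ | ⟨k', hk', hki', hcc', haa', -⟩
    · have hY' := hY i hi
      rw [haa, haa', hinner_ve i hi, hF.inner_v_comb hi, ← haa, ← haa', sub_zero] at hY'
      have hYle := (le_abs_self _).trans hY'
      rcases chord_cases hj1 hj with rfl | ⟨h3, h4⟩ | rfl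
      · rw [trap_left hP h1 h2] at hYle
        nlinarith
      · rw [trap_mid hP ((xs_mono hP h3 (by omega)).trans h1)
          (h2.trans (xs_mono hP (by omega : j + 1 ≤ N + 3) (by omega)))] at hYle
        exact fin2 hYle (by nlinarith)
      · rw [trap_right hP h1 h2] at hYle
        rw [show N + 3 + 1 = N + 4 from rfl] at *
        nlinarith
    · have hXa' : (⟪e, a'⟫ : ℝ) = x' := by rw [haa', hF.inner_e_comb hi]
      have hjj : j ≠ j' := by
        rintro rfl
        exact hne (hcc.trans hcc'.symm)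
      rw [hXa, hXa'] at hX
      exact fin1 hX (cell_sep hP (by omega) (by omega) hjj h1 h2 h1' h2' d1 d2)
    · have hY' := hY k' hk'
      rw [haa, haa', hF.inner_v_comb' hi hk' hki', hF.inner_v_comb hk', ← haa, ← haa', zero_sub,
        abs_neg, abs_of_pos hs] at hY'
      exact fin2 hY' (by nlinarith)
  · rw [d, mul_zero]; exact norm_nonneg _

theorem up_central (hF : Frame N e v) (hP : Params N s θ κ) {i : ℕ} (hi : i < N) {j : ℕ}
    (h1 : 1 ≤ j) (h2 : j ≤ N + 4) :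
    ‖up N s θ e v i j - (⟪e, up N s θ e v i j⟫ : ℝ) • e‖ ≤ κ / 16 ∧
      3 / 8 ≤ (⟪e, up N s θ e v i j⟫ : ℝ) ∧ (⟪e, up N s θ e v i j⟫ : ℝ) ≤ 5 / 8 := by
  have hx : (⟪e, up N s θ e v i j⟫ : ℝ) = xs N s θ j := hF.inner_e_comb hi _ _
  have hs := hP.spos
  rw [hx]
  have hc := xs_central hP h1 h2
  refine ⟨?_, by linarith, by linarith⟩
  have : up N s θ e v i j - xs N s θ j • e = ys N s j • v i := by unfold up; abel
  rw [this, norm_smul, hF.norm_v i hi, mul_one, ← hP.sκ, Real.norm_eq_abs]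
  unfold ys
  split_ifs
  · rw [abs_of_pos hs]
  · rw [abs_zero]; exact hs.le

theorem up_len (hF : Frame N e v) (hP : Params N s θ κ) {i : ℕ} (hi : i < N) {j : ℕ}
    (h1 : 1 ≤ j) (h2 : j ≤ N + 3) :
    ‖up N s θ e v i (j + 1) - up N s θ e v i j‖ ≤ 1 / 16 := by
  have h : up N s θ e v i (j + 1) - up N s θ e v i j =
      (xs N s θ (j + 1) - xs N s θ j) • e + (ys N s (j + 1) - ys N s j) • v i := by
    unfold up; module
  rw [h]
  refine (hF.norm_comb_le hi _ _).trans ?_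
  have hs := hP.spos
  have hsmall : s ≤ 1 / 1638400 := by rw [hP.seq]; linarith [hP.θle']
  have a1 := xs_central hP h1 (by omega : j ≤ N + 4)
  have a2 := xs_central hP (by omega : 1 ≤ j + 1) (by omega : j + 1 ≤ N + 4)
  have a3 : |xs N s θ (j + 1) - xs N s θ j| ≤ 1 / 50 := by
    rw [abs_le]; constructor <;> linarith
  have a4 : |ys N s (j + 1) - ys N s j| ≤ 1 / 50 := by
    unfold ys
    split_ifs <;> rw [abs_le] <;> constructor <;> linarith
  linarith

theorem chords_thin (hF : Frame N e v) (hP : Params N s θ κ) {i : ℕ} (hi : i < N) {c : V × V}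
    (hc : c ∈ chords N s θ e v i) {z : V} (hz : z ∈ Lens κ e) : chordMap e c z ∈ Lens κ e := by
  have hκ := hP.κpos
  have hκ1 : κ ≤ 1 := by rw [hP.κeq]; linarith [hP.θle']
  rcases hc with (⟨j, hj, rfl⟩ | ⟨j, hj1, hj, rfl⟩) | ⟨k, hk, hki, rfl⟩
  · exact thin_of_axis hκ hF.norm_e (xs_nonneg hP (by omega)) (xs_lt_succ hP hj)
      (xs_le_one hP (by omega)) hz
  · obtain ⟨a1, a2, a3⟩ := up_central hF hP hi hj1 (by omega : j ≤ N + 4)
    obtain ⟨b1, b2, b3⟩ := up_central hF hP hi (by omega : 1 ≤ j + 1) (by omega : j + 1 ≤ N + 4)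
    exact thin_of_central hκ hκ1 hF.norm_e a1 b1 a2 a3 b2 b3 (up_len hF hP hi hj1 hj) hz
  · obtain ⟨a1, a2, a3⟩ := up_central hF hP hk (by omega : 1 ≤ k + 3) (by omega : k + 3 ≤ N + 4)
    refine thin_of_central hκ hκ1 hF.norm_e a1 a1 a2 a3 a2 a3 ?_ hz
    simp

theorem chords_len_le (hF : Frame N e v) (hP : Params N s θ κ) {i : ℕ} (hi : i < N) {c : V × V}
    (hc : c ∈ chords N s θ e v i) : ‖c.2 - c.1‖ ≤ 1 := by
  rcases hc with (⟨j, hj, rfl⟩ | ⟨j, hj1, hj, rfl⟩) | ⟨k, hk, hki, rfl⟩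
  · simp only [bp]
    rw [← sub_smul, norm_smul, hF.norm_e, mul_one, Real.norm_eq_abs,
      abs_of_pos (sub_pos.2 (xs_lt_succ hP hj))]
    have := xs_nonneg hP (by omega : j ≤ N + 5)
    have := xs_le_one hP (by omega : j + 1 ≤ N + 5)
    linarith
  · have := up_len hF hP hi hj1 hj
    simp only
    linarith
  · simp

theorem chords_len_ge (hF : Frame N e v) (hP : Params N s θ κ) {i : ℕ} (hi : i < N) {c : V × V}
    (hc : c ∈ chords N s θ e v i) (hne : c.1 ≠ c.2) : 10 * s ≤ ‖c.2 - c.1‖ := by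
  have key : ∀ c : V × V, ∀ j ≤ N + 4, (⟪e, c.1⟫ : ℝ) = xs N s θ j →
      (⟪e, c.2⟫ : ℝ) = xs N s θ (j + 1) → 10 * s ≤ ‖c.2 - c.1‖ := by
    intro c j hj h1 h2
    have h3 := (le_abs_self _).trans (hF.abs_inner_e_le (c.2 - c.1))
    rw [inner_sub_right, h1, h2] at h3
    exact (dx_ge hP hj).trans h3
  rcases hc with (⟨j, hj, rfl⟩ | ⟨j, hj1, hj, rfl⟩) | ⟨k, hk, hki, rfl⟩
  · refine key _ j hj ?_ ?_ <;>
    · simp only [bp]
      rw [inner_smul_right, real_inner_self_eq_norm_sq, hF.norm_e]; ring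
  · exact key _ j (by omega) (hF.inner_e_comb hi _ _) (hF.inner_e_comb hi _ _)
  · exact absurd rfl hne

theorem up_one (i : ℕ) : up N s θ e v i 1 = bp N s θ e 1 := by
  unfold up bp; rw [ys_one, zero_smul, add_zero]

theorem up_top (i : ℕ) : up N s θ e v i (N + 4) = bp N s θ e (N + 4) := by
  unfold up bp; rw [ys_top, zero_smul, add_zero]

theorem bp_zero : bp N s θ e 0 = 0 := by unfold bp; rw [xs_zero, zero_smul]
theorem bp_last : bp N s θ e (N + 5) = e := by unfold bp; rw [xs_last, one_smul]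

theorem chords_endpoints (hF : Frame N e v) {i : ℕ} (hi : i < N) :
    Prod.fst '' (chords N s θ e v i) ∪ Prod.snd '' (chords N s θ e v i) =
      (({0, e} : Set V) ∪ pers N s θ e v) ∪ phas N s θ e v i := by
  have hbp : ∀ j ≤ N + 5, bp N s θ e j ∈ (({0, e} : Set V) ∪ pers N s θ e v) := by
    intro j hj
    by_cases h0 : j = 0
    · subst h0; rw [bp_zero]; exact Or.inl (Or.inl rfl)
    · by_cases h5 : j = N + 5
      · subst h5; rw [bp_last]; exact Or.inl (Or.inr rfl)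
      · exact Or.inr (Or.inl ⟨j, by omega, by omega, rfl⟩)
  have hup : ∀ j, 1 ≤ j → j ≤ N + 4 → up N s θ e v i j ∈
      (({0, e} : Set V) ∪ pers N s θ e v) ∪ phas N s θ e v i := by
    intro j h1 h2
    by_cases h0 : j = 1
    · subst h0; rw [up_one]; exact Or.inl (hbp 1 (by omega))
    · by_cases h4 : j = N + 4
      · subst h4; rw [up_top]; exact Or.inl (hbp _ (by omega))
      · exact Or.inr ⟨j, by omega, by omega, rfl⟩
  apply Subset.antisymm
  · rintro p (⟨c, hc, rfl⟩ | ⟨c, hc, rfl⟩)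
    · rcases hc with (⟨j, hj, rfl⟩ | ⟨j, hj1, hj, rfl⟩) | ⟨k, hk, hki, rfl⟩
      · exact Or.inl (hbp j (by omega))
      · exact hup j hj1 (by omega)
      · exact Or.inl (Or.inr (Or.inr ⟨k, hk, rfl⟩))
    · rcases hc with (⟨j, hj, rfl⟩ | ⟨j, hj1, hj, rfl⟩) | ⟨k, hk, hki, rfl⟩
      · exact Or.inl (hbp (j + 1) (by omega))
      · exact hup (j + 1) (by omega) (by omega)
      · exact Or.inl (Or.inr (Or.inr ⟨k, hk, rfl⟩))
  · rintro p ((h | h) | h)
    · rcases h with rfl | h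
      · exact Or.inl ⟨_, Or.inl (Or.inl ⟨0, by omega, rfl⟩), bp_zero⟩
      · rw [mem_singleton_iff] at h
        subst h
        exact Or.inr ⟨_, Or.inl (Or.inl ⟨N + 4, le_rfl, rfl⟩), bp_last⟩
    · rcases h with ⟨j, h1, h2, rfl⟩ | ⟨k, hk, rfl⟩
      · exact Or.inl ⟨_, Or.inl (Or.inl ⟨j, h2, rfl⟩), rfl⟩
      · by_cases hki : k = i
        · subst hki
          exact Or.inl ⟨_, Or.inl (Or.inr ⟨k + 3, by omega, by omega, rfl⟩), rfl⟩
        · exact Or.inl ⟨_, Or.inr ⟨k, hk, hki, rfl⟩, rfl⟩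
    · obtain ⟨j, h1, h2, rfl⟩ := h
      exact Or.inl ⟨_, Or.inl (Or.inr ⟨j, by omega, by omega, rfl⟩), rfl⟩

theorem lens_aux (hF : Frame N e v) (hP : Params N s θ κ) {i : ℕ} (hi : i < N) {x y : ℝ}
    (h1 : 49 / 100 ≤ x) (h2 : x ≤ 51 / 100) (hy : |y| ≤ s) :
    (x • e + y • v i) ∈ Lens κ e ∧ ‖x • e + y • v i‖ ≤ 1 ∧ 0 < (⟪e, x • e + y • v i⟫ : ℝ) ∧
      (⟪e, x • e + y • v i⟫ : ℝ) < 1 := by
  have hs := hP.spos
  have hκ := hP.κpos
  have hsκ := hP.sκ
  have hsmall : s ≤ 1 / 1638400 := by rw [hP.seq]; linarith [hP.θle']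
  have hny : ‖y • v i‖ = |y| := by rw [norm_smul, hF.norm_v i hi, mul_one, Real.norm_eq_abs]
  refine ⟨mem_Lens_of_decomp hF.norm_e rfl ?_ ?_ ?_, ?_, ?_, ?_⟩
  · rw [inner_smul_right, hF.inner_ev i hi, mul_zero]
  · rw [hny]; nlinarith
  · rw [hny]; nlinarith
  · refine (hF.norm_comb_le hi x y).trans ?_
    rw [abs_of_nonneg (by linarith : 0 ≤ x)]; linarith
  · rw [hF.inner_e_comb hi]; linarith
  · rw [hF.inner_e_comb hi]; linarith

theorem pers_lens (hF : Frame N e v) (hP : Params N s θ κ) {p : V} (hp : p ∈ pers N s θ e v) :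
    p ∈ Lens κ e ∧ ‖p‖ ≤ 1 ∧ 0 < (⟪e, p⟫ : ℝ) ∧ (⟪e, p⟫ : ℝ) < 1 := by
  rcases hp with ⟨j, h1, h2, rfl⟩ | ⟨k, hk, rfl⟩
  · have hc := xs_central hP h1 h2
    have hκ := hP.κpos
    have hi : (⟪e, xs N s θ j • e⟫ : ℝ) = xs N s θ j := by
      rw [inner_smul_right, real_inner_self_eq_norm_sq, hF.norm_e]; ring
    unfold bp
    refine ⟨mem_Lens_of_decomp hF.norm_e (y := 0) (by rw [add_zero]) (by simp) ?_ ?_, ?_, ?_, ?_⟩
    · rw [norm_zero]; exact mul_nonneg hκ.le (by linarith)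
    · rw [norm_zero]; exact mul_nonneg hκ.le (by linarith)
    · rw [norm_smul, hF.norm_e, mul_one, Real.norm_eq_abs, abs_of_nonneg (by linarith)]; linarith
    · rw [hi]; linarith
    · rw [hi]; linarith
  · rw [hp_eq k hk]
    have hc := xs_central hP (by omega : 1 ≤ k + 3) (by omega : k + 3 ≤ N + 4)
    exact lens_aux hF hP hk hc.1 hc.2 (by rw [abs_of_pos hP.spos])

theorem phas_lens (hF : Frame N e v) (hP : Params N s θ κ) {i : ℕ} (hi : i < N) {p : V}
    (hp : p ∈ phas N s θ e v i) :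
    p ∈ Lens κ e ∧ ‖p‖ ≤ 1 ∧ 0 < (⟪e, p⟫ : ℝ) ∧ (⟪e, p⟫ : ℝ) < 1 := by
  obtain ⟨j, h1, h2, rfl⟩ := hp
  unfold up
  rw [ys_mid h1 h2]
  have hc := xs_central hP (by omega : 1 ≤ j) (by omega : j ≤ N + 4)
  exact lens_aux hF hP hi hc.1 hc.2 (by rw [abs_of_pos hP.spos])

theorem phas_ray (hF : Frame N e v) (hP : Params N s θ κ) {i : ℕ} (hi : i < N) {u p : V}
    (hu : u ∈ phas N s θ e v i) (hp : p ∈ ({0, e} : Set V) ∪ pers N s θ e v) {r : ℝ} (h0 : 0 < r)
    (h1 : r < 1) : r • u ≠ p := by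
  have hs := hP.spos
  obtain ⟨j, hj1, hj2, rfl⟩ := hu
  intro h
  have hin : (⟪v i, r • up N s θ e v i j⟫ : ℝ) = r * s := by
    unfold up
    rw [ys_mid hj1 hj2, inner_smul_right, hF.inner_v_comb hi]
  rw [h] at hin
  have hrs : 0 < r * s := mul_pos h0 hs
  rcases hp with (rfl | rfl) | (⟨k, hk1, hk2, rfl⟩ | ⟨k, hk, rfl⟩)
  · rw [inner_zero_right] at hin; linarith
  · rw [hF.inner_ve hi] at hin; linarith
  · unfold bp at hin
    rw [inner_smul_right, hF.inner_ve hi, mul_zero] at hin; linarith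
  · rw [hp_eq k hk] at hin
    by_cases hki : k = i
    · subst hki
      rw [hF.inner_v_comb hi] at hin
      nlinarith
    · rw [hF.inner_v_comb' hk hi (Ne.symm hki)] at hin
      linarith

/-! ### Coverings -/

theorem graph_axis (hF : Frame N e v) {S : Set V} (hS : ∀ p ∈ S, ∃ x : ℝ, p = x • e) :
    ∀ p ∈ S, ∀ q ∈ S, ‖p - q‖ ≤ 1 * |(⟪e, p - q⟫ : ℝ)| := by
  intro p hp q hq
  obtain ⟨x, rfl⟩ := hS p hp
  obtain ⟨y, rfl⟩ := hS q hq
  rw [← sub_smul, inner_smul_right, real_inner_self_eq_norm_sq, hF.norm_e, norm_smul, hF.norm_e]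
  simp

theorem graph_pts (hF : Frame N e v) (hP : Params N s θ κ) {r : ℝ} (h0 : 0 ≤ r) {S : Set V}
    (hS : ∀ p ∈ S, ∃ k, k < N ∧ p = r • hp N s θ e v k) :
    ∀ p ∈ S, ∀ q ∈ S, ‖p - q‖ ≤ 6 / 5 * |(⟪e, p - q⟫ : ℝ)| := by
  intro p hp' q hq'
  obtain ⟨k, hk, rfl⟩ := hS p hp'
  obtain ⟨l, hl, rfl⟩ := hS q hq'
  have hs := hP.spos
  by_cases hkl : k = l
  · subst hkl; simp
  have e1 : xs N s θ (k + 3) - xs N s θ (l + 3) = 10 * s * ((k : ℝ) - l) := by
    rw [xs_mid (by omega) (by omega), xs_mid (by omega) (by omega)]; push_cast; ring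
  have e2 : r • hp N s θ e v k - r • hp N s θ e v l =
      (r * (10 * s * ((k : ℝ) - l))) • e + (r * s) • (v k - v l) := by
    rw [hp_eq k hk, hp_eq l hl, ← e1]; module
  have e3 : (⟪e, r • hp N s θ e v k - r • hp N s θ e v l⟫ : ℝ) = r * (10 * s * ((k : ℝ) - l)) := by
    rw [e2, inner_add_right, inner_smul_right, inner_smul_right, inner_sub_right,
      hF.inner_ev k hk, hF.inner_ev l hl, real_inner_self_eq_norm_sq, hF.norm_e]
    ring
  have e4 : (1 : ℝ) ≤ |(k : ℝ) - l| := by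
    have : (1 : ℤ) ≤ |(k : ℤ) - l| := Int.one_le_abs (sub_ne_zero.2 (by exact_mod_cast hkl))
    exact_mod_cast this
  rw [e3, e2]
  refine (norm_add_le _ _).trans ?_
  rw [norm_smul, norm_smul, hF.norm_e, mul_one, Real.norm_eq_abs, Real.norm_eq_abs]
  have e5 : ‖v k - v l‖ ≤ 2 := by
    refine (norm_sub_le _ _).trans ?_
    rw [hF.norm_v k hk, hF.norm_v l hl]; norm_num
  have e6 : |r * (10 * s * ((k : ℝ) - l))| = r * (10 * s * |(k : ℝ) - l|) := by
    rw [abs_mul, abs_mul, abs_of_nonneg h0, abs_of_pos (by linarith : 0 < 10 * s)]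
  have e7 : |r * s| = r * s := abs_of_nonneg (mul_nonneg h0 hs.le)
  rw [e6, e7]
  have hrs : 0 ≤ r * s := mul_nonneg h0 hs.le
  have a1 : r * s * ‖v k - v l‖ ≤ r * s * 2 := mul_le_mul_of_nonneg_left e5 hrs
  have a2 : r * s * 1 ≤ r * s * |(k : ℝ) - l| := mul_le_mul_of_nonneg_left e4 hrs
  nlinarith

theorem cov_axis (hF : Frame N e v) {S : Set V} (hS : ∀ p ∈ S, ∃ x : ℝ, p = x • e)
    {a b : ℝ} (ha : 0 < a) (hb : 0 < b) {Λ : ℕ} (hΛ : 2 * a * 1 / b + 1 ≤ Λ) : Cov a b Λ S :=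
  cov_of_graph hF.norm_e one_pos ha hb (graph_axis hF hS) hΛ

theorem cov_pts (hF : Frame N e v) (hP : Params N s θ κ) {r : ℝ} (h0 : 0 ≤ r) {S : Set V}
    (hS : ∀ p ∈ S, ∃ k, k < N ∧ p = r • hp N s θ e v k)
    {a b : ℝ} (ha : 0 < a) (hb : 0 < b) {Λ : ℕ} (hΛ : 2 * a * (6 / 5) / b + 1 ≤ Λ) :
    Cov a b Λ S :=
  cov_of_graph hF.norm_e (by norm_num) ha hb (graph_pts hF hP h0 hS) hΛ

/-- three Lipschitz graphs over the axis. -/
theorem chords_cov (hF : Frame N e v) (hP : Params N s θ κ) {i : ℕ} (hi : i < N) :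
    Cov (4 + 1 / 16) (1 / 4 - 2 * (1 / 16)) 300 (segs (chords N s θ e v i)) := by
  have hsub : segs (chords N s θ e v i) ⊆
      (({p | ∃ x : ℝ, p = x • e} : Set V) ∪ {p | ∃ x : ℝ, p = x • e + trap N s θ x • v i}) ∪
        {p | ∃ k, k < N ∧ p = (1 : ℝ) • hp N s θ e v k} := by
    intro a ha
    simp only [segs, mem_iUnion, exists_prop] at ha
    obtain ⟨c, hc, ha⟩ := ha
    rcases cdesc hF hP hi hc ha with ⟨j, x, hj, hcc, h1, h2, haa, d1, d2⟩ |
      ⟨j, x, hj1, hj, hcc, h1, h2, haa, d1, d2⟩ | ⟨k, hk, hki, hcc, haa, d⟩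
    · exact Or.inl (Or.inl ⟨x, haa⟩)
    · exact Or.inl (Or.inr ⟨x, haa⟩)
    · exact Or.inr ⟨k, hk, by rw [haa, one_smul, hp_eq k hk]⟩
  refine Cov.mono (Cov.mono_card (Λ := 66 + 68 + 80) ?_ (by norm_num)) hsub
  refine ((cov_axis hF (fun p hp => hp) (by norm_num) (by norm_num) (by norm_num)).union
    ?_).union (cov_pts hF hP zero_le_one (fun p hp => hp) (by norm_num) (by norm_num)
      (by norm_num))
  refine cov_of_graph hF.norm_e (L := 101 / 100) (by norm_num) (by norm_num) (by norm_num) ?_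
    (by norm_num)
  rintro p ⟨x, rfl⟩ q ⟨y, rfl⟩
  have e1 : x • e + trap N s θ x • v i - (y • e + trap N s θ y • v i) =
      (x - y) • e + (trap N s θ x - trap N s θ y) • v i := by module
  rw [e1, hF.inner_e_comb hi]
  refine (hF.norm_comb_le hi _ _).trans ?_
  have h1 := trap_lip hP x y
  have h2 := hP.θle'
  have h3 := abs_nonneg (x - y)
  nlinarith

theorem cov_rad_pers (hF : Frame N e v) (hP : Params N s θ κ) {r : ℝ} (h0 : 0 ≤ r) (h1 : r ≤ 1) :
    Cov 4 (1 / 4) 300 (({0, e} : Set V) ∪ (fun p => r • p) '' pers N s θ e v) := by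
  have hsub : (({0, e} : Set V) ∪ (fun p => r • p) '' pers N s θ e v) ⊆
      ({p | ∃ x : ℝ, p = x • e} : Set V) ∪ {p | ∃ k, k < N ∧ p = r • hp N s θ e v k} := by
    rintro p ((rfl | rfl) | ⟨q, (⟨j, h1, h2, rfl⟩ | ⟨k, hk, rfl⟩), rfl⟩)
    · exact Or.inl ⟨0, by simp⟩
    · exact Or.inl ⟨1, by simp⟩
    · exact Or.inl ⟨r * xs N s θ j, by simp only [bp, smul_smul]⟩
    · exact Or.inr ⟨k, hk, rfl⟩
  refine Cov.mono (Cov.mono_card (Λ := 33 + 40) ?_ (by norm_num)) hsub
  exact (cov_axis hF (fun p hp => hp) (by norm_num) (by norm_num) (by norm_num)).union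
    (cov_pts hF hP h0 (fun p hp => hp) (by norm_num) (by norm_num) (by norm_num))

theorem cov_rad_phas (hF : Frame N e v) (hP : Params N s θ κ) {i : ℕ} (hi : i < N) {r : ℝ}
    (h0 : 0 ≤ r) (h1 : r ≤ 1) :
    Cov 4 (1 / 4) 300
      ((({0, e} : Set V) ∪ pers N s θ e v) ∪ (fun p => r • p) '' phas N s θ e v i) := by
  have hsub : ((({0, e} : Set V) ∪ pers N s θ e v) ∪ (fun p => r • p) '' phas N s θ e v i) ⊆
      (({p | ∃ x : ℝ, p = x • e} : Set V) ∪ {p | ∃ k, k < N ∧ p = (1 : ℝ) • hp N s θ e v k}) ∪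
        {p | ∃ x : ℝ, p = x • e + (r * s) • v i} := by
    rintro p (((rfl | rfl) | (⟨j, h1, h2, rfl⟩ | ⟨k, hk, rfl⟩)) | ⟨q, ⟨j, h1, h2, rfl⟩, rfl⟩)
    · exact Or.inl (Or.inl ⟨0, by simp⟩)
    · exact Or.inl (Or.inl ⟨1, by simp⟩)
    · exact Or.inl (Or.inl ⟨xs N s θ j, by simp only [bp]⟩)
    · exact Or.inl (Or.inr ⟨k, hk, by rw [one_smul]⟩)
    · refine Or.inr ⟨r * xs N s θ j, ?_⟩
      simp only [up]
      rw [ys_mid h1 h2]
      module
  refine Cov.mono (Cov.mono_card (Λ := 33 + 40 + 33) ?_ (by norm_num)) hsub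
  refine ((cov_axis hF (fun p hp => hp) (by norm_num) (by norm_num) (by norm_num)).union
    (cov_pts hF hP zero_le_one (fun p hp => hp) (by norm_num) (by norm_num)
      (by norm_num))).union ?_
  refine cov_of_graph hF.norm_e (L := 1) (by norm_num) (by norm_num) (by norm_num) ?_
    (by norm_num)
  rintro p ⟨x, rfl⟩ q ⟨y, rfl⟩
  have e1 : x • e + (r * s) • v i - (y • e + (r * s) • v i) = (x - y) • e := by module
  rw [e1, inner_smul_right, real_inner_self_eq_norm_sq, hF.norm_e, norm_smul, hF.norm_e]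
  simp

end Crest.Agent.Doub
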