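import Crest.Agent.Doub.FlowLemmas
import Crest.Agent.Doub.PatGeo

/-!
# Row 254: the next structure
-/

set_option autoImplicit false
set_option linter.unusedSectionVars false

namespace Crest.Agent.Doub

open Metric Set
open scoped RealInnerProductSpace

variable {V : Type*} [NormedAddCommGroup V] [InnerProductSpace ℝ V]

/-- Block `i` of the next structure: raise the phase points, let the structure `M` run in every
chord of the phase graph, retract. -/
def blockM (N : ℕ) (s θ : ℝ) (e : V) (v : ℕ → V) (nC T : ℕ) (M : ℕ → Set (V × V)) (i : ℕ) :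
    ℕ → Set (V × V) :=
  tappend nC (radStep (({0, e} : Set V) ∪ pers N s θ e v) (phas N s θ e v i) nC)
    (tappend T (fun m => substStep e (chords N s θ e v i) (M m))
      (radBack (({0, e} : Set V) ∪ pers N s θ e v) (phas N s θ e v i) nC))

/-- Length of a block. -/
def blockL (nC T : ℕ) : ℕ := nC + (T + nC)

/-- The next structure. -/
def nextM (N : ℕ) (s θ : ℝ) (e : V) (v : ℕ → V) (nA nC T : ℕ) (M : ℕ → Set (V × V)) :
    ℕ → Set (V × V) :=
  tappend nA (radStep ({0, e} : Set V) (pers N s θ e v) nA)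
    (tappend (N * blockL nC T) (tloop (blockL nC T) (blockM N s θ e v nC T M))
      (radBack ({0, e} : Set V) (pers N s θ e v) nA))

/-- Length of the next structure. -/
def nextT (N nA nC T : ℕ) : ℕ := nA + (N * blockL nC T + nA)

variable {N : ℕ} {s θ κ : ℝ} {e : V} {v : ℕ → V} {nA nC T : ℕ} {M : ℕ → Set (V × V)}

theorem nextM_radStep {m : ℕ} (hm : m < nA) :
    nextM N s θ e v nA nC T M m = radStep ({0, e} : Set V) (pers N s θ e v) nA m := by
  unfold nextM; rw [tappend_left hm]

theorem nextM_radBack (m : ℕ) :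
    nextM N s θ e v nA nC T M (nA + (N * blockL nC T + m)) =
      radBack ({0, e} : Set V) (pers N s θ e v) nA m := by
  unfold nextM; rw [tappend_right, tappend_right]

theorem blockL_mul_lt {i r : ℕ} (hi : i < N) (hr : r < blockL nC T) :
    i * blockL nC T + r < N * blockL nC T := by
  have h := Nat.mul_le_mul_right (blockL nC T) hi
  rw [Nat.succ_mul] at h
  omega

theorem nextM_block {i r : ℕ} (hi : i < N) (hr : r < blockL nC T) :
    nextM N s θ e v nA nC T M (nA + (i * blockL nC T + r)) = blockM N s θ e v nC T M i r := by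
  unfold nextM
  rw [tappend_right, tappend_left (blockL_mul_lt hi hr), tloop_apply hr]

theorem blockM_radStep {i r : ℕ} (hr : r < nC) :
    blockM N s θ e v nC T M i r =
      radStep (({0, e} : Set V) ∪ pers N s θ e v) (phas N s θ e v i) nC r := by
  unfold blockM; rw [tappend_left hr]

theorem blockM_subst {i r : ℕ} (hr : r < T) :
    blockM N s θ e v nC T M i (nC + r) = substStep e (chords N s θ e v i) (M r) := by
  unfold blockM; rw [tappend_right, tappend_left hr]

theorem blockM_radBack {i : ℕ} (r : ℕ) :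
    blockM N s θ e v nC T M i (nC + (T + r)) =
      radBack (({0, e} : Set V) ∪ pers N s θ e v) (phas N s θ e v i) nC r := by
  unfold blockM; rw [tappend_right, tappend_right]

theorem Params.pos (hP : Params N s θ κ) : 0 < κ ∧ 0 < s ∧ κ ≤ 1 ∧ s ≤ 1 := by
  have h1 := hP.θpos
  have h2 : θ ≤ 1 / 100 := by
    have := hP.θle
    have hN : (0 : ℝ) ≤ N := Nat.cast_nonneg N
    nlinarith
  rw [hP.κeq, hP.seq]
  refine ⟨?_, ?_, ?_, ?_⟩ <;> linarith

theorem pers_ray (hF : Frame N e v) (hP : Params N s θ κ) {p q : V}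
    (hp : p ∈ pers N s θ e v) (hq : q ∈ ({0, e} : Set V)) {r : ℝ} (h0 : 0 < r) (h1 : r < 1) :
    r • p ≠ q := by
  obtain ⟨-, -, hp1, hp2⟩ := pers_lens hF hP hp
  intro h
  have h3 := congrArg (fun z => (⟪e, z⟫ : ℝ)) h
  simp only [inner_smul_right] at h3
  rcases hq with rfl | hq
  · rw [inner_zero_right] at h3
    have := mul_pos h0 hp1
    linarith
  · rw [mem_singleton_iff] at hq
    subst hq
    rw [real_inner_self_eq_norm_sq, hF.norm_e] at h3
    nlinarith

theorem block_flow (hF : Frame N e v) (hP : Params N s θ κ) (hM : Good κ 300 e T M)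
    (hnC : 100 ≤ nC) {i : ℕ} (hi : i < N) :
    Flow 300 (({0, e} : Set V) ∪ pers N s θ e v) (({0, e} : Set V) ∪ pers N s θ e v)
      (blockL nC T) (blockM N s θ e v nC T M i) := by
  have hpos := hP.pos
  have hfinQ : (({0, e} : Set V) ∪ pers N s θ e v).Finite := (by simp : ({0, e} : Set V).Finite).union pers_finite
  have h1 : Flow 300 (({0, e} : Set V) ∪ pers N s θ e v)
      ((({0, e} : Set V) ∪ pers N s θ e v) ∪ phas N s θ e v i) nC
      (radStep (({0, e} : Set V) ∪ pers N s θ e v) (phas N s θ e v i) nC) :=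
    flow_radStep hfinQ (phas_finite i) (fun p hp => (phas_lens hF hP hi hp).2.1)
      (Or.inl (by simp)) hnC (fun p hp q hq r h0 h1 => phas_ray hF hP hi hp hq h0 h1)
      (fun r h0 h1 => cov_rad_phas hF hP hi h0 h1)
  have h3 : Flow 300 ((({0, e} : Set V) ∪ pers N s θ e v) ∪ phas N s θ e v i)
      (({0, e} : Set V) ∪ pers N s θ e v) nC
      (radBack (({0, e} : Set V) ∪ pers N s θ e v) (phas N s θ e v i) nC) :=
    flow_radBack hfinQ (phas_finite i) (fun p hp => (phas_lens hF hP hi hp).2.1)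
      (Or.inl (by simp)) hnC (fun p hp q hq r h0 h1 => phas_ray hF hP hi hp hq h0 h1)
      (fun r h0 h1 => cov_rad_phas hF hP hi h0 h1)
  have h2 := flow_substStep (Λ := 300) (ΛG := 300) (k := θ / 4) hF.norm_e hpos.1
    (chords_finite (N := N) (s := s) (θ := θ) (e := e) (v := v) i) (chords_LS hF hP hi)
    (fun c hc => chords_len_le hF hP hi hc) (chords_cov hF hP hi)
    (by rw [hP.κeq]; linarith) (by norm_num) le_rfl hM
  rw [chords_endpoints hF hi] at h2
  exact h1.append (h2.append h3)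

/-- `∀ p ∈ S, p.1 ∈ Lens ∧ p.2 ∈ Lens` and `(0,0), (e,e) ∈ S`. -/
def StepProp (κ : ℝ) (e : V) (S : Set (V × V)) : Prop :=
  (∀ p ∈ S, p.1 ∈ Lens κ e ∧ p.2 ∈ Lens κ e) ∧ ((0 : V), (0 : V)) ∈ S ∧ (e, e) ∈ S

theorem stepProp_ray {Q P : Set V} (hκ : 0 < κ) (he : ‖e‖ = 1) (hQ : ∀ q ∈ Q, q ∈ Lens κ e)
    (hP : ∀ p ∈ P, p ∈ Lens κ e) (h0 : (0 : V) ∈ Q) (h1 : e ∈ Q) {r₀ r₁ : ℝ}
    (h00 : 0 ≤ r₀) (h01 : r₀ ≤ 1) (h10 : 0 ≤ r₁) (h11 : r₁ ≤ 1) :
    StepProp κ e ((fun q => (q, q)) '' Q ∪ (fun p => (r₀ • p, r₁ • p)) '' P) := by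
  refine ⟨?_, Or.inl ⟨0, h0, rfl⟩, Or.inl ⟨e, h1, rfl⟩⟩
  rintro _ (⟨q, hq, rfl⟩ | ⟨p, hp, rfl⟩)
  · exact ⟨hQ q hq, hQ q hq⟩
  · exact ⟨smul_mem_Lens hκ (hP p hp) h00 h01, smul_mem_Lens hκ (hP p hp) h10 h11⟩

theorem stepProp_radStep {Q P : Set V} (hκ : 0 < κ) (he : ‖e‖ = 1) (hQ : ∀ q ∈ Q, q ∈ Lens κ e)
    (hP : ∀ p ∈ P, p ∈ Lens κ e) (h0 : (0 : V) ∈ Q) (h1 : e ∈ Q) {n m : ℕ} (hm : m < n) :
    StepProp κ e (radStep Q P n m) := by
  have hn0 : (0 : ℝ) < n := by
    have : 0 < n := by omega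
    exact_mod_cast this
  have hmn : (m : ℝ) + 1 ≤ n := by exact_mod_cast hm
  have hm0 : (0 : ℝ) ≤ m := Nat.cast_nonneg m
  refine stepProp_ray hκ he hQ hP h0 h1 (by positivity) ?_ (by positivity) ?_
  · rw [div_le_one hn0]; linarith
  · rw [div_le_one hn0]; exact hmn

theorem stepProp_radBack {Q P : Set V} (hκ : 0 < κ) (he : ‖e‖ = 1) (hQ : ∀ q ∈ Q, q ∈ Lens κ e)
    (hP : ∀ p ∈ P, p ∈ Lens κ e) (h0 : (0 : V) ∈ Q) (h1 : e ∈ Q) {n m : ℕ} (hm : m < n) :
    StepProp κ e (radBack Q P n m) := by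
  have hn0 : (0 : ℝ) < n := by
    have : 0 < n := by omega
    exact_mod_cast this
  have hmn : (m : ℝ) + 1 ≤ n := by exact_mod_cast hm
  have hm0 : (0 : ℝ) ≤ m := Nat.cast_nonneg m
  refine stepProp_ray hκ he hQ hP h0 h1 (div_nonneg (by linarith) hn0.le) ?_
    (div_nonneg (by linarith) hn0.le) ?_
  · rw [div_le_one hn0]; linarith
  · rw [div_le_one hn0]; linarith

theorem mem_chords_first (i : ℕ) : (bp N s θ e 0, bp N s θ e 1) ∈ chords N s θ e v i :=
  Or.inl (Or.inl ⟨0, by omega, rfl⟩)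

theorem mem_chords_last (i : ℕ) :
    (bp N s θ e (N + 4), bp N s θ e (N + 5)) ∈ chords N s θ e v i :=
  Or.inl (Or.inl ⟨N + 4, by omega, rfl⟩)

theorem nextM_good (hF : Frame N e v) (hP : Params N s θ κ) (hN : 0 < N)
    (hM : Good κ 300 e T M) (hnA : 100 ≤ nA) (hnC : 100 ≤ nC) :
    Good κ 300 e (nextT N nA nC T) (nextM N s θ e v nA nC T M) := by
  have hpos := hP.pos
  have hκ := hpos.1
  have he := hF.norm_e
  have hfin0 : (({0, e} : Set V)).Finite := by simp
  have h1 : Flow 300 ({0, e} : Set V) (({0, e} : Set V) ∪ pers N s θ e v) nA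
      (radStep ({0, e} : Set V) (pers N s θ e v) nA) :=
    flow_radStep hfin0 pers_finite (fun p hp => (pers_lens hF hP hp).2.1)
      (by simp) hnA (fun p hp q hq r h0 h1 => pers_ray hF hP hp hq h0 h1)
      (fun r h0 h1 => cov_rad_pers hF hP h0 h1)
  have h3 : Flow 300 (({0, e} : Set V) ∪ pers N s θ e v) ({0, e} : Set V) nA
      (radBack ({0, e} : Set V) (pers N s θ e v) nA) :=
    flow_radBack hfin0 pers_finite (fun p hp => (pers_lens hF hP hp).2.1)
      (by simp) hnA (fun p hp q hq r h0 h1 => pers_ray hF hP hp hq h0 h1)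
      (fun r h0 h1 => cov_rad_pers hF hP h0 h1)
  have h2 : Flow 300 (({0, e} : Set V) ∪ pers N s θ e v) (({0, e} : Set V) ∪ pers N s θ e v)
      (N * blockL nC T) (tloop (blockL nC T) (blockM N s θ e v nC T M)) :=
    Flow.loop hN (fun i hi => block_flow hF hP hM hnC hi)
  have hlens0 : ∀ q ∈ ({0, e} : Set V), q ∈ Lens κ e := by
    rintro q (rfl | rfl)
    · exact zero_mem_Lens κ hκ.le e
    · exact self_mem_Lens κ hκ.le he
  have hlens1 : ∀ q ∈ ({0, e} : Set V) ∪ pers N s θ e v, q ∈ Lens κ e := by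
    rintro q (hq | hq)
    · exact hlens0 q hq
    · exact (pers_lens hF hP hq).1
  have hall : ∀ m < nextT N nA nC T, StepProp κ e (nextM N s θ e v nA nC T M m) := by
    refine forall_tappend ?_ (forall_tappend (forall_tloop ?_) ?_)
    · intro m hm
      exact stepProp_radStep hκ he hlens0 (fun p hp => (pers_lens hF hP hp).1) (by simp)
        (by simp) hm
    · intro i hi
      refine forall_tappend ?_ (forall_tappend ?_ ?_)
      · intro m hm
        exact stepProp_radStep hκ he hlens1 (fun p hp => (phas_lens hF hP hi hp).1)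
          (Or.inl (by simp)) (Or.inl (by simp)) hm
      · intro m hm
        refine ⟨?_, ?_, ?_⟩
        · intro p hp
          simp only [substStep, mem_iUnion, exists_prop] at hp
          obtain ⟨c, hc, q, hq, rfl⟩ := hp
          exact ⟨chords_thin hF hP hi hc (hM.lens m hm q hq).1,
            chords_thin hF hP hi hc (hM.lens m hm q hq).2⟩
        · simp only [substStep, mem_iUnion, exists_prop]
          refine ⟨_, mem_chords_first i, _, hM.const0 m hm, ?_⟩
          simp [Prod.map, chordMap_zero, bp_zero]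
        · simp only [substStep, mem_iUnion, exists_prop]
          refine ⟨_, mem_chords_last i, _, hM.conste m hm, ?_⟩
          simp [Prod.map, chordMap_self he, bp_last]
      · intro m hm
        exact stepProp_radBack hκ he hlens1 (fun p hp => (phas_lens hF hP hi hp).1)
          (Or.inl (by simp)) (Or.inl (by simp)) hm
    · intro m hm
      exact stepProp_radBack hκ he hlens0 (fun p hp => (pers_lens hF hP hp).1) (by simp)
        (by simp) hm
  exact
    { toFlow := h1.append (h2.append h3)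
      lens := fun m hm => (hall m hm).1
      const0 := fun m hm => (hall m hm).2.1
      conste := fun m hm => (hall m hm).2.2 }

end Crest.Agent.Doub
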