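import Crest.Agent.Doub.CovLemmas

/-!
# Row 254: space-time graphs of flows (chunk C4)
-/

set_option autoImplicit false
set_option linter.unusedSectionVars false

namespace Crest.Agent.Doub

open Metric Set
open scoped RealInnerProductSpace

variable {V : Type*} [NormedAddCommGroup V] [InnerProductSpace ℝ V]

/-- Space-time point. -/
def pt (t : ℝ) (z : V) : WithLp 2 (ℝ × V) := WithLp.toLp 2 (t, z)

theorem pt_norm_sq (t : ℝ) (z : V) : ‖pt t z‖ ^ 2 = t ^ 2 + ‖z‖ ^ 2 := by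
  rw [WithLp.prod_norm_sq_eq_of_L2]
  simp [pt]

theorem pt_sub (t t' : ℝ) (z z' : V) : pt t z - pt t' z' = pt (t - t') (z - z') := rfl

theorem pt_add (t t' : ℝ) (z z' : V) : pt t z + pt t' z' = pt (t + t') (z + z') := rfl

theorem pt_smul (r t : ℝ) (z : V) : r • pt t z = pt (r * t) (r • z) := rfl

theorem eq_pt (a : WithLp 2 (ℝ × V)) : a = pt a.fst a.snd := rfl

theorem abs_le_norm_pt (t : ℝ) (z : V) : |t| ≤ ‖pt t z‖ := by
  apply abs_le_of_sq_le_sq _ (norm_nonneg _)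
  rw [pt_norm_sq]
  nlinarith [sq_nonneg ‖z‖]

theorem norm_le_norm_pt (t : ℝ) (z : V) : ‖z‖ ≤ ‖pt t z‖ := by
  apply le_of_sq_le_sq _ (norm_nonneg _)
  rw [pt_norm_sq]
  nlinarith [sq_nonneg t]

theorem norm_pt_le_of {t r s : ℝ} {z : V} (ht : |t| ≤ r) (hz : ‖z‖ ≤ s) {u : ℝ} (hu : 0 ≤ u)
    (h : r ^ 2 + s ^ 2 ≤ u ^ 2) : ‖pt t z‖ ≤ u := by
  apply le_of_sq_le_sq _ hu
  rw [pt_norm_sq]
  have h1 : t ^ 2 ≤ r ^ 2 := by
    rw [← sq_abs t]
    exact pow_le_pow_left₀ (abs_nonneg _) ht 2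
  have h2 : ‖z‖ ^ 2 ≤ s ^ 2 := pow_le_pow_left₀ (norm_nonneg _) hz 2
  linarith

/-- Edges of the space-time graph of a flow. -/
def flowEdges (T : ℕ) (M : ℕ → Set (V × V)) : Set (WithLp 2 (ℝ × V) × WithLp 2 (ℝ × V)) :=
  {c | ∃ m, m < T ∧ ∃ p ∈ M m, c = (pt (m : ℝ) p.1, pt ((m : ℝ) + 1) p.2)}

/-- The two long edges. -/
def longEdges (T : ℕ) (Z : ℝ) : Set (WithLp 2 (ℝ × V) × WithLp 2 (ℝ × V)) :=
  {(pt (-Z) 0, pt 0 0), (pt (T : ℝ) 0, pt ((T : ℝ) + Z) 0)}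

variable {Λ T : ℕ} {A B : Set V} {M : ℕ → Set (V × V)}

theorem flowEdges_finite (hF : Flow Λ A B T M) : (flowEdges T M).Finite := by
  have h1 : flowEdges T M ⊆ ⋃ m ∈ Finset.range T,
      (fun p : V × V => (pt (m : ℝ) p.1, pt ((m : ℝ) + 1) p.2)) '' M m := by
    rintro c ⟨m, hm, p, hp, rfl⟩
    simp only [Finset.mem_range, mem_iUnion]
    exact ⟨m, hm, p, hp, rfl⟩
  refine Set.Finite.subset ?_ h1
  apply Set.Finite.biUnion (Finset.finite_toSet _)
  intro m hm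
  simp only [Finset.coe_range, mem_Iio] at hm
  exact (hF.step m hm).fin.image _

theorem move_norm {p : V × V} {σ σ' : ℝ} (hp : ‖p.2 - p.1‖ ≤ 1 / 100) :
    ‖((1 - σ') • p.1 + σ' • p.2) - ((1 - σ) • p.1 + σ • p.2)‖ ≤ |σ' - σ| / 100 := by
  have h1 : ((1 - σ') • p.1 + σ' • p.2) - ((1 - σ) • p.1 + σ • p.2) =
      (σ' - σ) • (p.2 - p.1) := by
    module
  rw [h1, norm_smul, Real.norm_eq_abs]
  calc |σ' - σ| * ‖p.2 - p.1‖ ≤ |σ' - σ| * (1 / 100) :=
        mul_le_mul_of_nonneg_left hp (abs_nonneg _)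
    _ = |σ' - σ| / 100 := by ring

theorem follow_fwd (hF : Flow Λ A B T M) (k : ℕ) : ∀ {m : ℕ} (_ : m + k < T) {p : V × V}
    (_ : p ∈ M m) {σ σ' : ℝ} (_ : 0 ≤ σ) (_ : σ ≤ 1) (_ : 0 ≤ σ') (_ : σ' ≤ 1) (_ : 0 < k),
    ∃ p' ∈ M (m + k), ‖((1 - σ') • p'.1 + σ' • p'.2) - ((1 - σ) • p.1 + σ • p.2)‖ ≤
      (k + σ' - σ) / 100 := by
  induction k with
  | zero => intro m _ p _ σ σ' _ _ _ _ h; exact absurd h (by omega)
  | succ k ih =>
    intro m hm p hp σ σ' h0 h1 h0' h1' _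
    have hslow := (hF.step m (by omega)).slow p hp
    have hmem : p.2 ∈ Prod.fst '' (M (m + 1)) := by
      rw [← hF.chain m (by omega)]
      exact ⟨p, hp, rfl⟩
    obtain ⟨q, hq, hqp⟩ := hmem
    have h2 : ‖p.2 - ((1 - σ) • p.1 + σ • p.2)‖ ≤ (1 - σ) / 100 := by
      have h3 := move_norm (p := p) (σ := σ) (σ' := 1) hslow
      rw [sub_self, zero_smul, zero_add, one_smul, abs_of_nonneg (by linarith)] at h3
      exact h3
    rcases Nat.eq_zero_or_pos k with rfl | hk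
    · refine ⟨q, hq, ?_⟩
      have hslow' := (hF.step (m + 1) (by omega)).slow q hq
      have h3 := move_norm (p := q) (σ := 0) (σ' := σ') hslow'
      rw [sub_zero, one_smul, zero_smul, add_zero, sub_zero, abs_of_nonneg h0'] at h3
      have h4 : ((1 - σ') • q.1 + σ' • q.2) - ((1 - σ) • p.1 + σ • p.2) =
          (((1 - σ') • q.1 + σ' • q.2) - q.1) + (p.2 - ((1 - σ) • p.1 + σ • p.2)) := by
        rw [hqp]; abel
      rw [h4]
      refine (norm_add_le _ _).trans ?_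
      push_cast
      linarith
    · obtain ⟨r, hr, hr2⟩ := ih (m := m + 1) (by omega) hq (σ := 0) (σ' := σ') le_rfl zero_le_one
        h0' h1' hk
      refine ⟨r, by rw [show m + (k + 1) = m + 1 + k by omega]; exact hr, ?_⟩
      rw [sub_zero, one_smul, zero_smul, add_zero, sub_zero] at hr2
      have h4 : ((1 - σ') • r.1 + σ' • r.2) - ((1 - σ) • p.1 + σ • p.2) =
          (((1 - σ') • r.1 + σ' • r.2) - q.1) + (p.2 - ((1 - σ) • p.1 + σ • p.2)) := by
        rw [hqp]; abel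
      rw [h4]
      refine (norm_add_le _ _).trans ?_
      push_cast
      linarith

theorem follow_bwd (hF : Flow Λ A B T M) (k : ℕ) : ∀ {m : ℕ} (_ : m + k < T) {p : V × V}
    (_ : p ∈ M (m + k)) {σ σ' : ℝ} (_ : 0 ≤ σ) (_ : σ ≤ 1) (_ : 0 ≤ σ') (_ : σ' ≤ 1) (_ : 0 < k),
    ∃ p' ∈ M m, ‖((1 - σ') • p'.1 + σ' • p'.2) - ((1 - σ) • p.1 + σ • p.2)‖ ≤
      (k + σ - σ') / 100 := by
  induction k with
  | zero => intro m _ p _ σ σ' _ _ _ _ h; exact absurd h (by omega)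
  | succ k ih =>
    intro m hm p hp σ σ' h0 h1 h0' h1' _
    have hslow := (hF.step (m + (k + 1)) (by omega)).slow p hp
    have hmem : p.1 ∈ Prod.snd '' (M (m + k)) := by
      rw [hF.chain (m + k) (by omega)]
      exact ⟨p, hp, rfl⟩
    obtain ⟨q, hq, hqp⟩ := hmem
    have h2 : ‖p.1 - ((1 - σ) • p.1 + σ • p.2)‖ ≤ σ / 100 := by
      have h3 := move_norm (p := p) (σ := σ) (σ' := 0) hslow
      rw [sub_zero, zero_smul, one_smul, add_zero, zero_sub, abs_neg, abs_of_nonneg h0] at h3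
      exact h3
    rcases Nat.eq_zero_or_pos k with rfl | hk
    · refine ⟨q, hq, ?_⟩
      have hslow' := (hF.step (m + 0) (by omega)).slow q hq
      have h3 := move_norm (p := q) (σ := 1) (σ' := σ') hslow'
      rw [sub_self, zero_smul, one_smul, zero_add, abs_sub_comm,
        abs_of_nonneg (by linarith)] at h3
      have h4 : ((1 - σ') • q.1 + σ' • q.2) - ((1 - σ) • p.1 + σ • p.2) =
          (((1 - σ') • q.1 + σ' • q.2) - q.2) + (p.1 - ((1 - σ) • p.1 + σ • p.2)) := by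
        rw [hqp]; abel
      rw [h4]
      refine (norm_add_le _ _).trans ?_
      push_cast
      linarith
    · obtain ⟨r, hr, hr2⟩ := ih (m := m) (by omega) hq (σ := 1) (σ' := σ') zero_le_one le_rfl
        h0' h1' hk
      refine ⟨r, hr, ?_⟩
      rw [sub_self, zero_smul, one_smul, zero_add] at hr2
      have h4 : ((1 - σ') • r.1 + σ' • r.2) - ((1 - σ) • p.1 + σ • p.2) =
          (((1 - σ') • r.1 + σ' • r.2) - q.2) + (p.1 - ((1 - σ) • p.1 + σ • p.2)) := by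
        rw [hqp]; abel
      rw [h4]
      refine (norm_add_le _ _).trans ?_
      push_cast
      linarith

/-- From a point of the space-time graph at time `m + σ` one can follow the flow (1/100-Lipschitz)
to any other time of `[0, T]`. Used for `slow_cov`. -/
theorem flow_follow (hF : Flow Λ A B T M) {m m' : ℕ} (hm : m < T) (hm' : m' < T) {p : V × V}
    (hp : p ∈ M m) {σ σ' : ℝ} (h0 : 0 ≤ σ) (h1 : σ ≤ 1) (h0' : 0 ≤ σ') (h1' : σ' ≤ 1) :
    ∃ p' ∈ M m', ‖((1 - σ') • p'.1 + σ' • p'.2) - ((1 - σ) • p.1 + σ • p.2)‖ ≤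
      |(m' + σ') - (m + σ)| / 100 := by
  rcases lt_trichotomy m m' with hlt | rfl | hlt
  · obtain ⟨k, rfl⟩ := Nat.exists_eq_add_of_lt hlt
    obtain ⟨p', hp', h⟩ := follow_fwd hF (k + 1) (m := m) (by omega) hp h0 h1 h0' h1' (by omega)
    refine ⟨p', hp', h.trans ?_⟩
    push_cast
    have h2 := le_abs_self ((m : ℝ) + k + 1 + σ' - (m + σ))
    linarith
  · refine ⟨p, hp, ?_⟩
    have h2 := move_norm (p := p) (σ := σ) (σ' := σ') ((hF.step m hm).slow p hp)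
    have h3 : (m : ℝ) + σ' - (m + σ) = σ' - σ := by ring
    rw [h3]
    exact h2
  · obtain ⟨k, rfl⟩ := Nat.exists_eq_add_of_lt hlt
    obtain ⟨p', hp', h⟩ := follow_bwd hF (k + 1) (m := m') (by omega)
      (by rw [show m' + (k + 1) = m' + k + 1 by omega]; exact hp) h0 h1 h0' h1' (by omega)
    refine ⟨p', hp', h.trans ?_⟩
    push_cast
    have h2 := neg_abs_le ((m' : ℝ) + σ' - (m' + k + 1 + σ))
    linarith

/-- points of an edge of the space-time graph -/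
theorem mem_flow_segment {m : ℕ} {p : V × V} {a : WithLp 2 (ℝ × V)}
    (ha : a ∈ segment ℝ (pt (m : ℝ) p.1) (pt ((m : ℝ) + 1) p.2)) :
    ∃ σ : ℝ, 0 ≤ σ ∧ σ ≤ 1 ∧ a = pt ((m : ℝ) + σ) ((1 - σ) • p.1 + σ • p.2) := by
  rw [segment_eq_image] at ha
  obtain ⟨σ, ⟨h0, h1⟩, rfl⟩ := ha
  refine ⟨σ, h0, h1, ?_⟩
  simp only
  rw [pt_smul, pt_smul, pt_add]
  congr 1
  ring

/-- Slow lemma: the space-time graph is well covered. Proof: ball of radius `3t`; 25 time
windows of length `t/4`; in each window a reference time `τ`, cross-section at time `τ` covered by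
`Λ` sets of diameter `t/4`, follow the flow from the given point to time `τ`. -/
theorem slow_cov (hF : Flow Λ A B T M) : Cov 3 (1 / 2) (25 * Λ) (segs (flowEdges T M)) := by
  classical
  intro x t ht
  set x0 : ℝ := x.fst with hx0
  set y0 : V := x.snd with hy0
  set W : ℕ → ℝ → Prop := fun i τ => x0 - 3 * t + i * (t / 4) ≤ τ ∧
    τ ≤ x0 - 3 * t + (i + 1) * (t / 4) with hW
  -- reference times
  have hcross : ∀ i : ℕ, ∃ G : Fin Λ → Set V,
      (∀ j, ∀ p ∈ G j, ∀ q ∈ G j, dist p q ≤ 1 / 4 * t) ∧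
      ((∃ m < T, ∃ σ : ℝ, 0 ≤ σ ∧ σ ≤ 1 ∧ W i (m + σ)) →
        ∃ m < T, ∃ σ : ℝ, 0 ≤ σ ∧ σ ≤ 1 ∧ W i (m + σ) ∧
          cross (M m) σ ∩ closedBall y0 (4 * t) ⊆ ⋃ j, G j) := by
    intro i
    by_cases h : ∃ m < T, ∃ σ : ℝ, 0 ≤ σ ∧ σ ≤ 1 ∧ W i (m + σ)
    · obtain ⟨m, hm, σ, h0, h1, hw⟩ := h
      obtain ⟨G, hG1, hG2⟩ := (hF.step m hm).cov σ h0 h1 y0 t ht
      exact ⟨G, hG1, fun _ => ⟨m, hm, σ, h0, h1, hw, hG2⟩⟩
    · exact ⟨fun _ => ∅, fun _ p hp => absurd hp (by simp), fun h' => absurd h' h⟩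
  choose G hG1 hG2 using hcross
  let e : Fin (25 * Λ) ≃ Fin 25 × Fin Λ := finProdFinEquiv.symm
  refine ⟨fun k => {a | W (e k).1 a.fst ∧ ∃ y ∈ G (e k).1 (e k).2, ‖a.snd - y‖ ≤ t / 400}, ?_, ?_⟩
  · rintro k a ⟨⟨ha1, ha2⟩, y, hy, hay⟩ b ⟨⟨hb1, hb2⟩, z, hz, hbz⟩
    rw [dist_eq_norm, eq_pt a, eq_pt b, pt_sub]
    have h1 : |a.fst - b.fst| ≤ t / 4 := by
      rw [abs_le]
      constructor <;> nlinarith
    have h2 : ‖a.snd - b.snd‖ ≤ t / 4 + t / 200 := by
      have h3 : a.snd - b.snd = (a.snd - y) + (y - z) - (b.snd - z) := by abel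
      have h4 := hG1 _ _ y hy z hz
      rw [dist_eq_norm] at h4
      rw [h3]
      have h5 := norm_sub_le ((a.snd - y) + (y - z)) (b.snd - z)
      have h6 := norm_add_le (a.snd - y) (y - z)
      linarith
    refine norm_pt_le_of h1 h2 (by positivity) ?_
    nlinarith [sq_nonneg t]
  · rintro a ⟨ha, hab⟩
    simp only [segs, mem_iUnion, exists_prop] at ha
    obtain ⟨c, ⟨m, hm, p, hp, rfl⟩, ha⟩ := ha
    obtain ⟨σ, h0, h1, rfl⟩ := mem_flow_segment ha
    set z := (1 - σ) • p.1 + σ • p.2 with hz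
    rw [mem_closedBall, dist_eq_norm, eq_pt x, pt_sub] at hab
    have ht1 : |(m : ℝ) + σ - x0| ≤ 3 * t := (abs_le_norm_pt _ _).trans hab
    have hz1 : ‖z - y0‖ ≤ 3 * t := (norm_le_norm_pt _ _).trans hab
    obtain ⟨ht2, ht3⟩ := abs_le.1 ht1
    -- the window
    have hq : 0 < t / 4 := by positivity
    set r : ℝ := ((m : ℝ) + σ - (x0 - 3 * t)) / (t / 4) with hr
    have hr0 : 0 ≤ r := div_nonneg (by linarith) hq.le
    have hr24 : r ≤ 24 := by
      rw [hr, div_le_iff₀ hq]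
      linarith
    have hfl : ⌊r⌋₊ < 25 := by
      rw [Nat.floor_lt hr0]
      push_cast
      linarith
    have hWi : W ⌊r⌋₊ ((m : ℝ) + σ) := by
      have h2 := Nat.floor_le hr0
      have h3 := (Nat.lt_floor_add_one r).le
      have h4 : r * (t / 4) = (m : ℝ) + σ - (x0 - 3 * t) := by
        rw [hr]
        field_simp
      constructor
      · nlinarith
      · nlinarith
    obtain ⟨m', hm', σ', h0', h1', hW', hcov⟩ := hG2 ⌊r⌋₊ ⟨m, hm, σ, h0, h1, hWi⟩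
    obtain ⟨p', hp', hfol⟩ := flow_follow hF hm hm' hp h0 h1 h0' h1'
    have hdiff : |((m' : ℝ) + σ') - (m + σ)| ≤ t / 4 := by
      rw [abs_le]
      obtain ⟨w1, w2⟩ := hWi
      obtain ⟨w3, w4⟩ := hW'
      constructor <;> nlinarith
    set z' := (1 - σ') • p'.1 + σ' • p'.2 with hz'
    have hzz : ‖z' - z‖ ≤ t / 400 := hfol.trans (by linarith)
    have hz'mem : z' ∈ cross (M m') σ' ∩ closedBall y0 (4 * t) := by
      refine ⟨⟨p', hp', rfl⟩, ?_⟩
      rw [mem_closedBall, dist_eq_norm]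
      have h5 : z' - y0 = (z' - z) + (z - y0) := by abel
      rw [h5]
      refine (norm_add_le _ _).trans ?_
      linarith
    obtain ⟨j, hj⟩ := mem_iUnion.1 (hcov hz'mem)
    refine mem_iUnion.2 ⟨e.symm (⟨⌊r⌋₊, hfl⟩, j), ?_⟩
    simp only [mem_ofPred_eq, Equiv.apply_symm_apply]
    refine ⟨hWi, z', hj, ?_⟩
    rw [norm_sub_rev]
    exact hzz

/-- an edge living over the time interval `[s, e]` -/
structure Timed (c : WithLp 2 (ℝ × V) × WithLp 2 (ℝ × V)) (s e : ℝ) : Prop where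
  lo : ∀ a ∈ segment ℝ c.1 c.2, s ≤ a.fst
  hi : ∀ a ∈ segment ℝ c.1 c.2, a.fst ≤ e
  d1 : ∀ a ∈ segment ℝ c.1 c.2, endDist c a ≤ 1.01 * (a.fst - s)
  d2 : ∀ a ∈ segment ℝ c.1 c.2, endDist c a ≤ 1.01 * (e - a.fst)

theorem endDist_nonneg' (c : WithLp 2 (ℝ × V) × WithLp 2 (ℝ × V)) (a : WithLp 2 (ℝ × V)) :
    0 ≤ endDist c a := le_min (norm_nonneg _) (norm_nonneg _)

theorem Timed.sep {c c' : WithLp 2 (ℝ × V) × WithLp 2 (ℝ × V)} {s e s' e' : ℝ}
    (h : Timed c s e) (h' : Timed c' s' e') (hse : e ≤ s' ∨ e' ≤ s) {k : ℝ} (hk0 : 0 ≤ k)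
    (hk : k * 1.01 ≤ 1) : ∀ a ∈ segment ℝ c.1 c.2, ∀ a' ∈ segment ℝ c'.1 c'.2,
    k * endDist c a ≤ ‖a - a'‖ := by
  intro a ha a' ha'
  have h1 : |a.fst - a'.fst| ≤ ‖a - a'‖ := by
    have := abs_le_norm_pt (a.fst - a'.fst) (a.snd - a'.snd)
    exact this
  rcases hse with hse | hse
  · have h2 := h.d2 a ha
    have h3 := h.hi a ha
    have h4 := h'.lo a' ha'
    have h5 : k * endDist c a ≤ k * (1.01 * (e - a.fst)) := mul_le_mul_of_nonneg_left h2 hk0
    have h6 : k * (1.01 * (e - a.fst)) ≤ e - a.fst := by nlinarith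
    have h7 := neg_abs_le (a.fst - a'.fst)
    linarith
  · have h2 := h.d1 a ha
    have h3 := h.lo a ha
    have h4 := h'.hi a' ha'
    have h5 : k * endDist c a ≤ k * (1.01 * (a.fst - s)) := mul_le_mul_of_nonneg_left h2 hk0
    have h6 : k * (1.01 * (a.fst - s)) ≤ a.fst - s := by nlinarith
    have h7 := le_abs_self (a.fst - a'.fst)
    linarith

theorem timed_flow {m : ℕ} {p : V × V} (hp : ‖p.2 - p.1‖ ≤ 1 / 100) :
    Timed (pt (m : ℝ) p.1, pt ((m : ℝ) + 1) p.2) (m : ℝ) ((m : ℝ) + 1) := by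
  have key : ∀ a ∈ segment ℝ (pt (m : ℝ) p.1) (pt ((m : ℝ) + 1) p.2),
      (m : ℝ) ≤ a.fst ∧ a.fst ≤ m + 1 ∧ ‖a - pt (m : ℝ) p.1‖ ≤ 1.01 * (a.fst - m) ∧
        ‖a - pt ((m : ℝ) + 1) p.2‖ ≤ 1.01 * (m + 1 - a.fst) := by
    intro a ha
    obtain ⟨σ, h0, h1, rfl⟩ := mem_flow_segment ha
    have hf : (pt ((m : ℝ) + σ) ((1 - σ) • p.1 + σ • p.2)).fst = (m : ℝ) + σ := rfl
    rw [hf, pt_sub, pt_sub]
    refine ⟨by linarith, by linarith, ?_, ?_⟩
    · have h3 := move_norm (p := p) (σ := 0) (σ' := σ) hp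
      rw [sub_zero, one_smul, zero_smul, add_zero, sub_zero, abs_of_nonneg h0] at h3
      refine norm_pt_le_of (r := σ) (s := σ / 100) ?_ h3 (by nlinarith) ?_
      · rw [abs_of_nonneg (by linarith)]; linarith
      · nlinarith [sq_nonneg σ]
    · have h3 := move_norm (p := p) (σ := 1) (σ' := σ) hp
      rw [sub_self, zero_smul, one_smul, zero_add, abs_sub_comm, abs_of_nonneg (by linarith)] at h3
      refine norm_pt_le_of (r := 1 - σ) (s := (1 - σ) / 100) ?_ h3 (by nlinarith) ?_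
      · rw [abs_sub_comm, abs_of_nonneg (by linarith)]; linarith
      · nlinarith [sq_nonneg (1 - σ)]
  refine ⟨fun a ha => (key a ha).1, fun a ha => (key a ha).2.1, fun a ha => ?_, fun a ha => ?_⟩
  · exact (min_le_left _ _).trans (key a ha).2.2.1
  · exact (min_le_right _ _).trans (key a ha).2.2.2

theorem mem_time_segment {s e : ℝ} (hse : s ≤ e) {a : WithLp 2 (ℝ × V)}
    (ha : a ∈ segment ℝ (pt s (0 : V)) (pt e 0)) : ∃ τ : ℝ, s ≤ τ ∧ τ ≤ e ∧ a = pt τ 0 := by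
  rw [segment_eq_image] at ha
  obtain ⟨σ, ⟨h0, h1⟩, rfl⟩ := ha
  refine ⟨(1 - σ) * s + σ * e, by nlinarith, by nlinarith, ?_⟩
  simp only
  rw [pt_smul, pt_smul, pt_add, smul_zero, smul_zero, add_zero]

theorem timed_long {s e : ℝ} (hse : s ≤ e) : Timed (pt s (0 : V), pt e (0 : V)) s e := by
  have hn : ∀ r : ℝ, ‖pt r (0 : V)‖ = |r| := by
    intro r
    have h1 := pt_norm_sq r (0 : V)
    rw [norm_zero] at h1
    have h2 : ‖pt r (0 : V)‖ ^ 2 = |r| ^ 2 := by rw [h1, sq_abs]; ring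
    exact (sq_eq_sq₀ (norm_nonneg _) (abs_nonneg _)).1 h2
  have key : ∀ a ∈ segment ℝ (pt s (0 : V)) (pt e 0),
      s ≤ a.fst ∧ a.fst ≤ e ∧ ‖a - pt s (0 : V)‖ ≤ 1.01 * (a.fst - s) ∧
        ‖a - pt e (0 : V)‖ ≤ 1.01 * (e - a.fst) := by
    intro a ha
    obtain ⟨τ, h0, h1, rfl⟩ := mem_time_segment hse ha
    have hf : (pt τ (0 : V)).fst = τ := rfl
    rw [hf, pt_sub, pt_sub, sub_zero, hn, hn]
    refine ⟨h0, h1, ?_, ?_⟩
    · rw [abs_of_nonneg (by linarith)]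
      nlinarith
    · rw [abs_sub_comm, abs_of_nonneg (by linarith)]
      nlinarith
  refine ⟨fun a ha => (key a ha).1, fun a ha => (key a ha).2.1, fun a ha => ?_, fun a ha => ?_⟩
  · exact (min_le_left _ _).trans (key a ha).2.2.1
  · exact (min_le_right _ _).trans (key a ha).2.2.2

/-- nonvanishing affine path -/
theorem affine_lower {a b : V} (hne : ¬ (a = 0 ∧ b = 0))
    (hnc : ∀ σ : ℝ, 0 < σ → σ < 1 → (1 - σ) • a + σ • b ≠ 0) :
    ∃ c : ℝ, 0 < c ∧ ∀ σ : ℝ, 0 ≤ σ → σ ≤ 1 → c * min σ (1 - σ) ≤ ‖(1 - σ) • a + σ • b‖ := by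
  by_cases ha : a = 0
  · have hb : b ≠ 0 := fun hb => hne ⟨ha, hb⟩
    refine ⟨‖b‖, norm_pos_iff.2 hb, fun σ h0 h1 => ?_⟩
    rw [ha, smul_zero, zero_add, norm_smul, Real.norm_eq_abs, abs_of_nonneg h0, mul_comm]
    exact mul_le_mul_of_nonneg_right (min_le_left _ _) (norm_nonneg _)
  by_cases hb : b = 0
  · refine ⟨‖a‖, norm_pos_iff.2 ha, fun σ h0 h1 => ?_⟩
    rw [hb, smul_zero, add_zero, norm_smul, Real.norm_eq_abs, abs_of_nonneg (by linarith),
      mul_comm]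
    exact mul_le_mul_of_nonneg_right (min_le_right _ _) (norm_nonneg _)
  have hcont : Continuous fun σ : ℝ => ‖(1 - σ) • a + σ • b‖ := by fun_prop
  obtain ⟨σ₀, hσ₀, hmin⟩ := (isCompact_Icc (a := (0 : ℝ)) (b := 1)).exists_isMinOn
    ⟨0, by simp⟩ hcont.continuousOn
  have hpos : 0 < ‖(1 - σ₀) • a + σ₀ • b‖ := by
    rw [norm_pos_iff]
    rcases hσ₀.1.eq_or_lt with h | h
    · rw [← h]; simpa using ha
    · rcases hσ₀.2.eq_or_lt with h' | h'
      · rw [h']; simpa using hb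
      · exact hnc σ₀ h h'
  refine ⟨_, hpos, fun σ h0 h1 => ?_⟩
  have h2 : ‖(1 - σ₀) • a + σ₀ • b‖ ≤ ‖(1 - σ) • a + σ • b‖ := hmin ⟨h0, h1⟩
  have h3 : min σ (1 - σ) ≤ 1 := (min_le_left _ _).trans h1
  calc ‖(1 - σ₀) • a + σ₀ • b‖ * min σ (1 - σ) ≤ ‖(1 - σ₀) • a + σ₀ • b‖ * 1 :=
        mul_le_mul_of_nonneg_left h3 hpos.le
    _ ≤ _ := by rw [mul_one]; exact h2

/-- two edges over the same time interval -/
theorem same_time {m : ℕ} {p p' : V × V} (hp : ‖p.2 - p.1‖ ≤ 1 / 100)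
    (hp' : ‖p'.2 - p'.1‖ ≤ 1 / 100) (hne : p ≠ p')
    (hnc : ∀ σ : ℝ, 0 < σ → σ < 1 →
      (1 - σ) • p.1 + σ • p.2 = (1 - σ) • p'.1 + σ • p'.2 → p = p') :
    ∃ k > (0 : ℝ), ∀ a ∈ segment ℝ (pt (m : ℝ) p.1) (pt ((m : ℝ) + 1) p.2),
      ∀ a' ∈ segment ℝ (pt (m : ℝ) p'.1) (pt ((m : ℝ) + 1) p'.2),
      k * endDist (pt (m : ℝ) p.1, pt ((m : ℝ) + 1) p.2) a ≤ ‖a - a'‖ := by
  obtain ⟨c, hc, hcl⟩ := affine_lower (a := p.1 - p'.1) (b := p.2 - p'.2)
    (by
      rintro ⟨h1, h2⟩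
      exact hne (Prod.ext (sub_eq_zero.1 h1) (sub_eq_zero.1 h2)))
    (by
      intro σ h0 h1 h
      apply hne
      apply hnc σ h0 h1
      rw [← sub_eq_zero, ← h]
      module)
  refine ⟨c / 1.0201, by positivity, ?_⟩
  intro a ha a' ha'
  obtain ⟨t1, t2, t3, t4⟩ := timed_flow (m := m) hp
  have d1 := t3 a ha
  have d2 := t4 a ha
  obtain ⟨σ, h0, h1, rfl⟩ := mem_flow_segment ha
  obtain ⟨σ', h0', h1', rfl⟩ := mem_flow_segment ha'
  have hf : (pt ((m : ℝ) + σ) ((1 - σ) • p.1 + σ • p.2)).fst = (m : ℝ) + σ := rfl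
  rw [hf] at d1 d2
  rw [pt_sub]
  set D : ℝ := ‖pt ((m : ℝ) + σ - (m + σ')) ((1 - σ) • p.1 + σ • p.2 -
    ((1 - σ') • p'.1 + σ' • p'.2))‖ with hD
  have e1 : |σ - σ'| ≤ D := by
    have h2 := abs_le_norm_pt ((m : ℝ) + σ - (m + σ')) ((1 - σ) • p.1 + σ • p.2 -
      ((1 - σ') • p'.1 + σ' • p'.2))
    have h3 : (m : ℝ) + σ - (m + σ') = σ - σ' := by ring
    rw [h3] at h2
    rw [hD, h3]
    exact h2
  have e2 : ‖(1 - σ) • p.1 + σ • p.2 - ((1 - σ') • p'.1 + σ' • p'.2)‖ ≤ D :=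
    norm_le_norm_pt _ _
  have e3 := move_norm (p := p') (σ := σ) (σ' := σ') hp'
  have e4 := hcl σ h0 h1
  have e5 : ‖(1 - σ) • (p.1 - p'.1) + σ • (p.2 - p'.2)‖ ≤ 1.01 * D := by
    have h2 : (1 - σ) • (p.1 - p'.1) + σ • (p.2 - p'.2) =
        ((1 - σ) • p.1 + σ • p.2 - ((1 - σ') • p'.1 + σ' • p'.2)) +
        (((1 - σ') • p'.1 + σ' • p'.2) - ((1 - σ) • p'.1 + σ • p'.2)) := by
      module
    rw [h2]
    refine (norm_add_le _ _).trans ?_
    rw [abs_sub_comm] at e3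
    linarith
  have e6 : endDist (pt (m : ℝ) p.1, pt ((m : ℝ) + 1) p.2)
      (pt ((m : ℝ) + σ) ((1 - σ) • p.1 + σ • p.2)) ≤ 1.01 * min σ (1 - σ) := by
    rcases le_total σ (1 - σ) with h | h
    · rw [min_eq_left h]
      linarith
    · rw [min_eq_right h]
      linarith
  have e7 : c * (1.01 * min σ (1 - σ)) ≤ 1.0201 * D := by nlinarith
  calc c / 1.0201 * endDist (pt (m : ℝ) p.1, pt ((m : ℝ) + 1) p.2)
        (pt ((m : ℝ) + σ) ((1 - σ) • p.1 + σ • p.2)) ≤ c / 1.0201 * (1.01 * min σ (1 - σ)) :=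
        mul_le_mul_of_nonneg_left e6 (by positivity)
    _ = c * (1.01 * min σ (1 - σ)) / 1.0201 := by ring
    _ ≤ D := by
        rw [div_le_iff₀ (by norm_num)]
        linarith

/-- uniform positive constant over a finite set -/
theorem exists_uniform {α : Type*} {F : Set α} (hF : F.Finite) (P : α → ℝ → Prop)
    (hmono : ∀ x k k', 0 < k' → k' ≤ k → P x k → P x k') (h : ∀ x ∈ F, ∃ k > 0, P x k) :
    ∃ k > 0, ∀ x ∈ F, P x k := by
  induction F, hF using Set.Finite.induction_on with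
  | empty => exact ⟨1, one_pos, by simp⟩
  | insert _ _ ih =>
    obtain ⟨k1, hk1, h1⟩ := ih (fun x hx => h x (Set.mem_insert_of_mem _ hx))
    obtain ⟨k2, hk2, h2⟩ := h _ (Set.mem_insert _ _)
    refine ⟨min k1 k2, lt_min hk1 hk2, ?_⟩
    intro x hx
    rcases hx with rfl | hx
    · exact hmono _ _ _ (lt_min hk1 hk2) (min_le_right _ _) h2
    · exact hmono _ _ _ (lt_min hk1 hk2) (min_le_left _ _) (h1 x hx)

/-- Linear separation of the space-time graph with the two long edges; the constant does not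
depend on `Z`. -/
theorem flow_LS (hF : Flow Λ A B T M) :
    ∃ k > 0, k ≤ 1 ∧ ∀ Z > 0, LS k (flowEdges T M ∪ longEdges T Z) := by
  have hfin := flowEdges_finite hF
  obtain ⟨k0, hk0, hk0'⟩ := exists_uniform (hfin.prod hfin)
    (fun cc k => cc.1 ≠ cc.2 → ∀ a ∈ segment ℝ cc.1.1 cc.1.2, ∀ a' ∈ segment ℝ cc.2.1 cc.2.2,
      k * endDist cc.1 a ≤ ‖a - a'‖)
    (by
      intro cc k k' _ hkk h hne a ha a' ha'
      refine le_trans ?_ (h hne a ha a' ha')
      exact mul_le_mul_of_nonneg_right hkk (endDist_nonneg' _ _))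
    (by
      rintro ⟨c, c'⟩ ⟨⟨m, hm, p, hp, rfl⟩, ⟨m', hm', p', hp', rfl⟩⟩
      have hslow := (hF.step m hm).slow p hp
      have hslow' := (hF.step m' hm').slow p' hp'
      by_cases hmm : m = m'
      · subst hmm
        by_cases hpp : p = p'
        · subst hpp
          exact ⟨1, one_pos, fun h => absurd rfl h⟩
        · obtain ⟨k, hk, hk'⟩ := same_time (m := m) hslow hslow' hpp
            (fun σ h0 h1 h => (hF.step m hm).nc p hp p' hp' σ h0 h1 h)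
          exact ⟨k, hk, fun _ => hk'⟩
      · refine ⟨1 / 2, by norm_num, fun _ => ?_⟩
        apply (timed_flow (m := m) hslow).sep (timed_flow (m := m') hslow') _ (by norm_num)
          (by norm_num)
        rcases Nat.lt_or_gt_of_ne hmm with h | h
        · left
          exact_mod_cast h
        · right
          exact_mod_cast h)
  refine ⟨min k0 (1 / 2), lt_min hk0 (by norm_num), (min_le_right _ _).trans (by norm_num), ?_⟩
  intro Z hZ
  set k : ℝ := min k0 (1 / 2) with hk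
  have hkpos : 0 < k := lt_min hk0 (by norm_num)
  have hk1 : k * 1.01 ≤ 1 := by
    have : k ≤ 1 / 2 := min_le_right _ _
    linarith
  have hT0 : (0 : ℝ) ≤ T := Nat.cast_nonneg T
  -- the long edges are timed
  have tl1 : Timed (pt (-Z) (0 : V), pt 0 (0 : V)) (-Z) 0 := timed_long (by linarith)
  have tl2 : Timed (pt (T : ℝ) (0 : V), pt ((T : ℝ) + Z) (0 : V)) T (T + Z) :=
    timed_long (by linarith)
  intro c hc c' hc' hne a ha a' ha'
  rcases hc with hc | hc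
  · rcases hc' with hc' | hc'
    · have h1 := hk0' (c, c') ⟨hc, hc'⟩ hne a ha a' ha'
      refine le_trans ?_ h1
      exact mul_le_mul_of_nonneg_right (min_le_left _ _) (endDist_nonneg' _ _)
    · obtain ⟨m, hm, p, hp, rfl⟩ := hc
      have hslow := (hF.step m hm).slow p hp
      have hmT : (m : ℝ) + 1 ≤ T := by exact_mod_cast hm
      rcases hc' with rfl | hc'
      · exact (timed_flow (m := m) hslow).sep tl1 (Or.inr (Nat.cast_nonneg m)) hkpos.le hk1 a ha a' ha'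
      · simp only [mem_singleton_iff] at hc'
        subst hc'
        exact (timed_flow (m := m) hslow).sep tl2 (Or.inl hmT) hkpos.le hk1 a ha a' ha'
  · rcases hc' with hc' | hc'
    · obtain ⟨m, hm, p, hp, rfl⟩ := hc'
      have hslow := (hF.step m hm).slow p hp
      have hmT : (m : ℝ) + 1 ≤ T := by exact_mod_cast hm
      rcases hc with rfl | hc
      · exact tl1.sep (timed_flow (m := m) hslow) (Or.inl (Nat.cast_nonneg m)) hkpos.le hk1 a ha a' ha'
      · simp only [mem_singleton_iff] at hc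
        subst hc
        exact tl2.sep (timed_flow (m := m) hslow) (Or.inr hmT) hkpos.le hk1 a ha a' ha'
    · rcases hc with rfl | hc
      · rcases hc' with rfl | hc'
        · exact absurd rfl hne
        · simp only [mem_singleton_iff] at hc'
          subst hc'
          exact tl1.sep tl2 (Or.inl hT0) hkpos.le hk1 a ha a' ha'
      · simp only [mem_singleton_iff] at hc
        subst hc
        rcases hc' with rfl | hc'
        · exact tl2.sep tl1 (Or.inr hT0) hkpos.le hk1 a ha a' ha'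
        · simp only [mem_singleton_iff] at hc'
          exact absurd hc'.symm hne

end Crest.Agent.Doub
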