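import Crest.Agent.Doub.Rec
import Crest.Agent.Doub.SlowGraph

/-!
# Row 254: the outer recursion and `GoalA`
-/

set_option autoImplicit false
set_option linter.unusedSectionVars false

namespace Crest.Agent.Doub

open Metric Set Filter Topology
open scoped RealInnerProductSpace

variable {V : Type*} [NormedAddCommGroup V] [InnerProductSpace ℝ V]
variable {W : Type*} [NormedAddCommGroup W] [InnerProductSpace ℝ W]

/-- The flow used in the middle of the root chord. -/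
def topM (e : V) (n₀ T : ℕ) (M : ℕ → Set (V × V)) : ℕ → Set (V × V) :=
  tappend n₀ (radStep {0} {e} n₀) (tappend T M (radBack {0} {e} n₀))

def topT (n₀ T : ℕ) : ℕ := n₀ + (T + n₀)

theorem topM_flow {κ : ℝ} {e : V} (he : ‖e‖ = 1) {T : ℕ} {M : ℕ → Set (V × V)}
    (hM : Good κ 300 e T M) {n₀ : ℕ} (hn : 100 ≤ n₀) :
    Flow 300 ({0} : Set V) ({0} : Set V) (topT n₀ T) (topM e n₀ T M) := by
  have he0 : e ≠ 0 := by
    rintro rfl; simp at he
  have hcov : ∀ r : ℝ, 0 ≤ r → r ≤ 1 →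
      Cov 4 (1 / 4) 300 (({0} : Set V) ∪ (fun p => r • p) '' ({e} : Set V)) := by
    intro r _ _
    have h2 : Cov 4 (1 / 4) (1 + 1) (({0} : Set V) ∪ (fun p => r • p) '' ({e} : Set V)) :=
      (cov_subsingleton (by norm_num) subsingleton_singleton).union
        (cov_subsingleton (by norm_num) (subsingleton_singleton.image _))
    exact h2.mono_card (by norm_num)
  have hray : ∀ p ∈ ({e} : Set V), ∀ q ∈ ({0} : Set V), ∀ r : ℝ, 0 < r → r < 1 → r • p ≠ q := by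
    rintro p hp q hq r h0 _ h
    rw [mem_singleton_iff] at hp hq
    subst hp; subst hq
    rcases smul_eq_zero.mp h with h' | h'
    · exact h0.ne' h'
    · exact he0 h'
  have hset : (({0} : Set V) ∪ {e}) = {0, e} := by
    rw [singleton_union]
  have h1 := flow_radStep (Λ := 300) (Q := ({0} : Set V)) (P := {e}) (finite_singleton 0)
    (finite_singleton e) (by rintro p hp; rw [mem_singleton_iff] at hp; rw [hp, he])
    (mem_singleton 0) hn hray hcov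
  have h3 := flow_radBack (Λ := 300) (Q := ({0} : Set V)) (P := {e}) (finite_singleton 0)
    (finite_singleton e) (by rintro p hp; rw [mem_singleton_iff] at hp; rw [hp, he])
    (mem_singleton 0) hn hray hcov
  rw [hset] at h1 h3
  exact h1.append (hM.toFlow.append h3)

theorem topM_norm {κ : ℝ} (hκ : 0 < κ) (hκ1 : κ ≤ 1) {e : V} (he : ‖e‖ = 1) {T : ℕ}
    {M : ℕ → Set (V × V)} (hM : Good κ 300 e T M) {n₀ : ℕ} :
    ∀ m < topT n₀ T, ∀ p ∈ topM e n₀ T M m, ‖p.1‖ ≤ 2 ∧ ‖p.2‖ ≤ 2 := by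
  have hray : ∀ r : ℝ, 0 ≤ r → r ≤ 1 → ‖r • e‖ ≤ 2 := by
    intro r h0 h1
    rw [norm_smul, he, mul_one, Real.norm_of_nonneg h0]; linarith
  refine forall_tappend (P := fun S => ∀ p ∈ S, ‖p.1‖ ≤ 2 ∧ ‖p.2‖ ≤ 2) ?_
    (forall_tappend (P := fun S => ∀ p ∈ S, ‖p.1‖ ≤ 2 ∧ ‖p.2‖ ≤ 2) ?_ ?_)
  · rintro m hm _ (⟨q, hq, rfl⟩ | ⟨q, hq, rfl⟩)
    · rw [mem_singleton_iff] at hq; subst hq; simp
    · rw [mem_singleton_iff] at hq; subst hq
      have hn0 : (0 : ℝ) < n₀ := by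
        have : 0 < n₀ := by omega
        exact_mod_cast this
      have hmn : (m : ℝ) + 1 ≤ n₀ := by exact_mod_cast hm
      have hm0 : (0 : ℝ) ≤ m := Nat.cast_nonneg m
      exact ⟨hray _ (by positivity) (by rw [div_le_one hn0]; linarith),
        hray _ (by positivity) (by rw [div_le_one hn0]; linarith)⟩
  · intro m hm p hp
    have h := hM.lens m hm p hp
    exact ⟨(Lens_norm_le hκ he h.1).trans (by linarith),
      (Lens_norm_le hκ he h.2).trans (by linarith)⟩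
  · rintro m hm _ (⟨q, hq, rfl⟩ | ⟨q, hq, rfl⟩)
    · rw [mem_singleton_iff] at hq; subst hq; simp
    · rw [mem_singleton_iff] at hq; subst hq
      have hn0 : (0 : ℝ) < n₀ := by
        have : 0 < n₀ := by omega
        exact_mod_cast this
      have hmn : (m : ℝ) + 1 ≤ n₀ := by exact_mod_cast hm
      have hm0 : (0 : ℝ) ≤ m := Nat.cast_nonneg m
      exact ⟨hray _ (div_nonneg (by linarith) hn0.le) (by rw [div_le_one hn0]; linarith),
        hray _ (div_nonneg (by linarith) hn0.le) (by rw [div_le_one hn0]; linarith)⟩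

/-- Normalisation of the space-time graph: the root chord becomes `[0, pt 1 0]`. -/
noncomputable def nu (Z L : ℝ) (x : WithLp 2 (ℝ × V)) : WithLp 2 (ℝ × V) :=
  L⁻¹ • (x + pt Z 0)

theorem nu_pt (Z L t : ℝ) (z : V) : nu Z L (pt t z) = pt (L⁻¹ * (t + Z)) (L⁻¹ • z) := by
  unfold nu
  rw [pt_add, pt_smul, add_zero]

theorem nu_sub (Z L : ℝ) (x y : WithLp 2 (ℝ × V)) :
    nu Z L x - nu Z L y = L⁻¹ • (x - y) := by
  unfold nu; module

/-- The normalised graph. -/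
noncomputable def topC (e : V) (n₀ T : ℕ) (M : ℕ → Set (V × V)) (Z L : ℝ) :
    Set (WithLp 2 (ℝ × V) × WithLp 2 (ℝ × V)) :=
  Prod.map (nu Z L) (nu Z L) '' (flowEdges (topT n₀ T) (topM e n₀ T M) ∪ longEdges (topT n₀ T) Z)

theorem norm_E1 : ‖(pt 1 0 : WithLp 2 (ℝ × V))‖ = 1 := by
  have h := pt_norm_sq 1 (0 : V)
  rw [norm_zero] at h
  have h2 : ‖(pt 1 0 : WithLp 2 (ℝ × V))‖ ^ 2 = 1 := by rw [h]; norm_num
  have h3 := norm_nonneg (pt 1 0 : WithLp 2 (ℝ × V))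
  nlinarith

theorem inner_pt (t t' : ℝ) (z z' : V) :
    (⟪pt t z, pt t' z'⟫ : ℝ) = t * t' + ⟪z, z'⟫ := by
  unfold pt
  rw [WithLp.prod_inner_apply]
  simp [mul_comm]

theorem nu_segment {Z L : ℝ} {c : WithLp 2 (ℝ × V) × WithLp 2 (ℝ × V)} :
    segment ℝ (nu Z L c.1) (nu Z L c.2) = nu Z L '' segment ℝ c.1 c.2 := by
  ext x
  simp only [segment_eq_image, mem_image]
  constructor
  · rintro ⟨t, ht, rfl⟩
    refine ⟨_, ⟨t, ht, rfl⟩, ?_⟩
    unfold nu; module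
  · rintro ⟨_, ⟨t, ht, rfl⟩, rfl⟩
    refine ⟨t, ht, ?_⟩
    unfold nu; module

theorem topC_LS {e : V} {n₀ T : ℕ} {M : ℕ → Set (V × V)} {Z L k : ℝ} (hL : 0 < L)
    (h : LS k (flowEdges (topT n₀ T) (topM e n₀ T M) ∪ longEdges (topT n₀ T) Z)) :
    LS k (topC e n₀ T M Z L) := by
  rintro _ ⟨c, hc, rfl⟩ _ ⟨c', hc', rfl⟩ hne a ha a' ha'
  have hne' : c ≠ c' := by rintro rfl; exact hne rfl
  simp only [Prod.map] at ha ha' ⊢
  rw [nu_segment] at ha ha'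
  obtain ⟨b, hb, rfl⟩ := ha
  obtain ⟨b', hb', rfl⟩ := ha'
  have h1 := h c hc c' hc' hne' b hb b' hb'
  unfold endDist at h1 ⊢
  simp only [nu_sub, norm_smul]
  have hLi : 0 ≤ ‖L⁻¹‖ := norm_nonneg _
  rw [← mul_min_of_nonneg _ _ hLi]
  nlinarith

theorem line_cov {a b : ℝ} (ha : 0 < a) (hb : 0 < b) {Λ : ℕ} (hΛ : 2 * a / b + 1 ≤ Λ)
    {S : Set (WithLp 2 (ℝ × V))} (hS : ∀ x ∈ S, ∃ t : ℝ, x = pt t 0) : Cov a b Λ S := by
  refine cov_of_graph (e := pt 1 0) norm_E1 one_pos ha hb ?_ (by rw [mul_one]; exact hΛ)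
  intro p hp q hq
  obtain ⟨t, rfl⟩ := hS p hp
  obtain ⟨t', rfl⟩ := hS q hq
  rw [pt_sub, inner_pt]
  have h1 := pt_norm_sq (t - t') ((0 : V) - 0)
  simp only [sub_zero, norm_zero, inner_zero_left] at h1 ⊢
  have : ‖pt (t - t') (0 : V)‖ = |t - t'| := by
    rw [← abs_of_nonneg (norm_nonneg (pt (t - t') (0 : V))), ← sq_eq_sq_iff_abs_eq_abs, h1]
    ring
  rw [this]
  simp

theorem topC_cov {κ : ℝ} {e : V} (he : ‖e‖ = 1) {T : ℕ} {M : ℕ → Set (V × V)}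
    (hM : Good κ 300 e T M) {n₀ : ℕ} (hn : 100 ≤ n₀) {Z L : ℝ} (hL : 0 < L) :
    Cov 3 (1 / 2) 7513 (segs (topC e n₀ T M Z L)) := by
  have hflow := topM_flow he hM hn
  have h1 : Cov 3 (1 / 2) (25 * 300 + 13)
      (segs (flowEdges (topT n₀ T) (topM e n₀ T M)) ∪ segs (longEdges (V := V) (topT n₀ T) Z)) := by
    refine (slow_cov hflow).union (line_cov (by norm_num) (by norm_num) (by norm_num) ?_)
    intro x hx
    simp only [segs, longEdges, mem_insert_iff, mem_singleton_iff, mem_iUnion, exists_prop,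
      exists_eq_or_imp, exists_eq_left, segment_eq_image, mem_image] at hx
    rcases hx with ⟨t, -, rfl⟩ | ⟨t, -, rfl⟩
    · refine ⟨(1 - t) * (-Z) + t * 0, ?_⟩
      rw [pt_smul, pt_smul, pt_add]; simp
    · refine ⟨(1 - t) * (topT n₀ T : ℝ) + t * ((topT n₀ T : ℝ) + Z), ?_⟩
      rw [pt_smul, pt_smul, pt_add]; simp
  have h2 : segs (topC e n₀ T M Z L) ⊆ nu Z L ''
      (segs (flowEdges (topT n₀ T) (topM e n₀ T M)) ∪ segs (longEdges (V := V) (topT n₀ T) Z)) := by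
    intro x hx
    simp only [segs, topC, mem_iUnion, exists_prop] at hx
    obtain ⟨_, ⟨c, hc, rfl⟩, hx⟩ := hx
    simp only [Prod.map] at hx
    rw [nu_segment] at hx
    obtain ⟨y, hy, rfl⟩ := hx
    refine ⟨y, ?_, rfl⟩
    rcases hc with hc | hc
    · left; simp only [segs, mem_iUnion, exists_prop]; exact ⟨c, hc, hy⟩
    · right; simp only [segs, mem_iUnion, exists_prop]; exact ⟨c, hc, hy⟩
  refine Cov.mono ?_ h2
  refine h1.image (nu Z L) (r := L⁻¹) (by positivity) ?_ ?_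
  · intro x y
    rw [dist_eq_norm, dist_eq_norm, nu_sub, norm_smul, Real.norm_of_nonneg (by positivity)]
  · intro y
    refine ⟨L • y - pt Z 0, ?_⟩
    unfold nu
    rw [sub_add_cancel, smul_smul, inv_mul_cancel₀ hL.ne', one_smul]

theorem topC_finite {κ : ℝ} {e : V} (he : ‖e‖ = 1) {T : ℕ} {M : ℕ → Set (V × V)}
    (hM : Good κ 300 e T M) {n₀ : ℕ} (hn : 100 ≤ n₀) {Z L : ℝ} : (topC e n₀ T M Z L).Finite := by
  refine Finite.image _ ((flowEdges_finite (topM_flow he hM hn)).union ?_)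
  unfold longEdges; simp

theorem topC_thin {κ κ' : ℝ} (hκ : 0 < κ) (hκ1 : κ ≤ 1) {e : V} (he : ‖e‖ = 1) {T : ℕ}
    {M : ℕ → Set (V × V)} (hM : Good κ 300 e T M) {n₀ : ℕ} (hn : 100 ≤ n₀) {Z L : ℝ}
    (hκ' : 0 < κ') (hκ'1 : κ' ≤ 1) (hL : L = 2 * Z + (topT n₀ T : ℝ)) (hZ : 0 < Z)
    (hZT : 3 * (topT n₀ T : ℝ) ≤ 2 * Z) (hLκ : 32 ≤ κ' * L)
    {c : WithLp 2 (ℝ × V) × WithLp 2 (ℝ × V)} (hc : c ∈ topC e n₀ T M Z L)
    {z : WithLp 2 (ℝ × V)} (hz : z ∈ Lens κ' (pt 1 0)) :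
    chordMap (pt 1 0) c z ∈ Lens κ' (pt 1 0) := by
  have hflow := topM_flow he hM hn
  have hnorm := topM_norm hκ hκ1 he hM (n₀ := n₀)
  set T' := topT n₀ T with hT'
  have hT0 : (0 : ℝ) ≤ (T' : ℝ) := Nat.cast_nonneg _
  have hL0 : 0 < L := by linarith
  have hL32 : 32 ≤ L := by nlinarith
  have hLi : 0 < L⁻¹ := by positivity
  have hax : ∀ t : ℝ, (pt t 0 : WithLp 2 (ℝ × V)) = t • pt 1 0 := by
    intro t; rw [pt_smul]; simp
  obtain ⟨c, (⟨m, hm, p, hp, rfl⟩ | hc), rfl⟩ := hc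
  · simp only [Prod.map]
    rw [nu_pt, nu_pt]
    obtain ⟨n1, n2⟩ := hnorm m hm p hp
    have hslow := (hflow.step m hm).slow p hp
    have hmT : (m : ℝ) + 1 ≤ T' := by exact_mod_cast hm
    have hm0 : (0 : ℝ) ≤ m := Nat.cast_nonneg m
    have hperp : ∀ (t : ℝ) (y : V), ‖y‖ ≤ 2 →
        ‖pt t (L⁻¹ • y) - (⟪pt 1 0, pt t (L⁻¹ • y)⟫ : ℝ) • pt 1 0‖ ≤ κ' / 16 := by
      intro t y hy
      rw [inner_pt, inner_zero_left, ← hax, pt_sub]
      have : t - (1 * t + 0) = 0 := by ring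
      rw [this, sub_zero]
      refine norm_pt_le_of (r := 0) (s := κ' / 16) (by simp) ?_ (by positivity) (by simp)
      rw [norm_smul, Real.norm_of_nonneg hLi.le, inv_mul_le_iff₀ hL0]
      nlinarith
    have hin : ∀ (t : ℝ) (y : V), (⟪pt 1 0, pt t y⟫ : ℝ) = t := by
      intro t y; rw [inner_pt, inner_zero_left]; ring
    have hr1 : ∀ t : ℝ, 0 ≤ t → t ≤ T' → 3 / 8 ≤ L⁻¹ * (t + Z) ∧ L⁻¹ * (t + Z) ≤ 5 / 8 := by
      intro t h0 h1
      rw [inv_mul_eq_div, le_div_iff₀ hL0, div_le_iff₀ hL0]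
      constructor <;> nlinarith
    have g1 := hperp (L⁻¹ * ((m : ℝ) + Z)) p.1 n1
    have g2 := hperp (L⁻¹ * ((m : ℝ) + 1 + Z)) p.2 n2
    have g3 := hr1 m hm0 (by linarith)
    have g4 := hr1 (m + 1) (by linarith) hmT
    rw [← hin (L⁻¹ * ((m : ℝ) + Z)) (L⁻¹ • p.1)] at g3
    rw [← hin (L⁻¹ * ((m : ℝ) + 1 + Z)) (L⁻¹ • p.2)] at g4
    have g5 : ‖pt (L⁻¹ * ((m : ℝ) + 1 + Z)) (L⁻¹ • p.2) - pt (L⁻¹ * ((m : ℝ) + Z)) (L⁻¹ • p.1)‖ ≤
        1 / 16 := by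
      rw [pt_sub]
      have e1 : L⁻¹ * ((m : ℝ) + 1 + Z) - L⁻¹ * (m + Z) = L⁻¹ := by ring
      have hLi32 : L⁻¹ ≤ 1 / 32 := by
        rw [inv_eq_one_div]; exact one_div_le_one_div_of_le (by norm_num) hL32
      rw [e1, ← smul_sub]
      refine norm_pt_le_of (r := 1 / 32) (s := 1 / 32) ?_ ?_ (by norm_num) (by norm_num)
      · rw [abs_of_pos hLi]; exact hLi32
      · rw [norm_smul, Real.norm_of_nonneg hLi.le]
        nlinarith [norm_nonneg (p.2 - p.1)]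
    exact thin_of_central hκ' hκ'1 norm_E1
      (c := (pt (L⁻¹ * ((m : ℝ) + Z)) (L⁻¹ • p.1), pt (L⁻¹ * ((m : ℝ) + 1 + Z)) (L⁻¹ • p.2)))
      g1 g2 g3.1 g3.2 g4.1 g4.2 g5 hz
  · simp only [longEdges, mem_insert_iff, mem_singleton_iff] at hc
    rcases hc with rfl | rfl
    · simp only [Prod.map]
      rw [nu_pt, nu_pt, smul_zero, hax (L⁻¹ * (-Z + Z)), hax (L⁻¹ * (0 + Z))]
      have e1 : L⁻¹ * (-Z + Z) = 0 := by ring
      rw [e1]
      refine thin_of_axis hκ' norm_E1 le_rfl (by rw [zero_add]; positivity) ?_ hz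
      rw [zero_add, inv_mul_eq_div, div_le_one hL0]; linarith
    · simp only [Prod.map]
      rw [nu_pt, nu_pt, smul_zero, hax (L⁻¹ * ((T' : ℝ) + Z)), hax (L⁻¹ * ((T' : ℝ) + Z + Z))]
      refine thin_of_axis hκ' norm_E1 (by positivity) ?_ ?_ hz
      · exact mul_lt_mul_of_pos_left (by linarith) hLi
      · rw [inv_mul_eq_div, div_le_one hL0]; linarith

end Crest.Agent.Doub
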