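import Crest.Agent.Doub.Outer

/-!
# Row 254: the outer recursion step
-/

set_option autoImplicit false
set_option linter.unusedSectionVars false

namespace Crest.Agent.Doub

open Metric Set Filter Topology
open scoped RealInnerProductSpace

variable {V : Type*} [NormedAddCommGroup V] [InnerProductSpace ℝ V]
variable {W : Type*} [NormedAddCommGroup W] [InnerProductSpace ℝ W]

variable (W) in
/-- The property carried through the outer recursion. -/
structure OP (κ' D ε₁ : ℝ) (m : ℕ) (Y : Set (WithLp 2 (ℝ × V))) : Prop where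
  fin : Y.Finite
  zero : (0 : WithLp 2 (ℝ × V)) ∈ Y
  one : pt 1 0 ∈ Y
  lens : Y ⊆ Lens κ' (pt 1 0)
  cov : Cov 2 1 7513 Y
  bil : ∀ f : WithLp 2 (ℝ × V) → W, Bilip D Y f → ‖f (pt 1 0) - f 0‖ * (1 + ε₁) ^ m ≤ D

theorem op_zero {κ' D ε₁ : ℝ} (hκ' : 0 < κ') : OP W (V := V) κ' D ε₁ 0 {0, pt 1 0} where
  fin := by simp
  zero := by simp
  one := by simp
  lens := by
    rintro z (rfl | hz)
    · exact zero_mem_Lens κ' hκ'.le _
    · rw [mem_singleton_iff] at hz; subst hz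
      exact self_mem_Lens κ' hκ'.le norm_E1
  cov := by
    have h2 : Cov 2 1 (1 + 1) (({0} : Set (WithLp 2 (ℝ × V))) ∪ {pt 1 0}) :=
      (cov_subsingleton (by norm_num) subsingleton_singleton).union
        (cov_subsingleton (by norm_num) subsingleton_singleton)
    rw [singleton_union] at h2
    exact h2.mono_card (by norm_num)
  bil := by
    intro f hf
    have := (hf (pt 1 0) (by simp) 0 (by simp)).2
    rw [dist_eq_norm, dist_zero_right, norm_E1] at this
    simpa using this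

theorem outer_step {κ : ℝ} (hκ : 0 < κ) (hκ1 : κ ≤ 1) {e : V} (he : ‖e‖ = 1) {T : ℕ}
    {M : ℕ → Set (V × V)} (hM : Good κ 300 e T M) {n₀ : ℕ} (hn : 100 ≤ n₀)
    {D ε η R : ℝ} (hD : 1 ≤ D) (hP : PProp (W := W) D e T M ε η R) (hR : D ^ 2 < R)
    {k κ' Z L ε₁ : ℝ}
    (hLS : LS k (flowEdges (topT n₀ T) (topM e n₀ T M) ∪ longEdges (topT n₀ T) Z))
    (hκ' : 0 < κ') (hκ'1 : κ' ≤ 1) (hk : 32 * κ' ≤ k) (hL : L = 2 * Z + (topT n₀ T : ℝ))
    (hZ : 0 < Z) (hZT : 3 * (topT n₀ T : ℝ) ≤ 2 * Z) (hLκ : 32 ≤ κ' * L)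
    (hε₁ : 0 < ε₁) (hε₁ε : ε₁ ≤ ε) (hε₁1 : ε₁ ≤ 1) (hη : ε₁ * D * L + 4 * D / n₀ ≤ η)
    {m : ℕ} {Y : Set (WithLp 2 (ℝ × V))} (hY : OP W κ' D ε₁ m Y) :
    OP W κ' D ε₁ (m + 1) (subst (pt 1 0) (topC e n₀ T M Z L) Y) := by
  have hD0 : 0 < D := by linarith
  have hT0 : (0 : ℝ) ≤ (topT n₀ T : ℝ) := Nat.cast_nonneg _
  have hL0 : 0 < L := by linarith
  have hLi : 0 < L⁻¹ := by positivity
  have hn0 : (0 : ℝ) < n₀ := by
    have : 0 < n₀ := by omega
    exact_mod_cast this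
  have hflow := topM_flow he hM hn
  have hν0 : nu Z L (pt (-Z) (0 : V)) = 0 := by
    rw [nu_pt]; simp only [neg_add_cancel, mul_zero, smul_zero]; rfl
  have hν1 : nu Z L (pt ((topT n₀ T : ℝ) + Z) (0 : V)) = pt 1 0 := by
    rw [nu_pt, smul_zero]
    congr 1
    rw [inv_mul_eq_div, div_eq_one_iff_eq hL0.ne']; linarith
  -- chords
  have hc_flow : ∀ m < topT n₀ T, ∀ p ∈ topM e n₀ T M m,
      (nu Z L (pt (m : ℝ) p.1), nu Z L (pt ((m : ℝ) + 1) p.2)) ∈ topC e n₀ T M Z L :=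
    fun m hm p hp => ⟨_, Or.inl ⟨m, hm, p, hp, rfl⟩, rfl⟩
  have hc_long0 : (nu Z L (pt (-Z) (0 : V)), nu Z L (pt 0 (0 : V))) ∈ topC e n₀ T M Z L :=
    ⟨_, Or.inr (Or.inl rfl), rfl⟩
  have hc_long1 : (nu Z L (pt (topT n₀ T : ℝ) (0 : V)),
      nu Z L (pt ((topT n₀ T : ℝ) + Z) (0 : V))) ∈ topC e n₀ T M Z L :=
    ⟨_, Or.inr (Or.inr rfl), rfl⟩
  have hfst : ∀ c ∈ topC e n₀ T M Z L, c.1 ∈ subst (pt 1 0) (topC e n₀ T M Z L) Y := by
    intro c hc
    simp only [subst, mem_iUnion, exists_prop]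
    exact ⟨c, hc, 0, hY.zero, chordMap_zero _ _⟩
  have hsnd : ∀ c ∈ topC e n₀ T M Z L, c.2 ∈ subst (pt 1 0) (topC e n₀ T M Z L) Y := by
    intro c hc
    simp only [subst, mem_iUnion, exists_prop]
    exact ⟨c, hc, pt 1 0, hY.one, chordMap_self norm_E1 _⟩
  have hzero : (0 : WithLp 2 (ℝ × V)) ∈ subst (pt 1 0) (topC e n₀ T M Z L) Y := by
    have := hfst _ hc_long0
    rwa [hν0] at this
  have hone : pt 1 0 ∈ subst (pt 1 0) (topC e n₀ T M Z L) Y := by
    have := hsnd _ hc_long1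
    rwa [hν1] at this
  refine ⟨?_, hzero, hone, ?_, ?_, ?_⟩
  · exact (topC_finite he hM hn).biUnion (fun c _ => hY.fin.image _)
  · intro z hz
    simp only [subst, mem_iUnion, exists_prop] at hz
    obtain ⟨c, hc, y, hy, rfl⟩ := hz
    exact topC_thin hκ hκ1 he hM hn hκ' hκ'1 hL hZ hZT hLκ hc (hY.lens hy)
  · have hG : Cov (2 + 1 / 4) (1 - 2 * (1 / 4)) 7513 (segs (topC e n₀ T M Z L)) :=
      (topC_cov he hM hn hL0).mono_consts (by norm_num) (by norm_num)
    have := cov_subst (a := 2) (b := 1) (τ := 1 / 4) norm_E1 hκ' (by norm_num) (by norm_num)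
      (by norm_num) hY.lens (topC_LS hL0 hLS) hY.cov hG (by linarith) (by linarith) (by norm_num)
    simpa using this
  · intro f hf
    by_contra hcon
    push Not at hcon
    set E1 : WithLp 2 (ℝ × V) := pt 1 0 with hE1
    set S : ℝ := ‖f E1 - f 0‖ with hS
    have hpow : 0 < (1 + ε₁) ^ m := by positivity
    have hS0 : 0 < S := by
      by_contra h
      push Not at h
      have h1 : S * (1 + ε₁) ^ (m + 1) ≤ 0 := mul_nonpos_of_nonpos_of_nonneg h (by positivity)
      linarith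
    have hSD : S ≤ D := by
      have := (hf E1 hone 0 hzero).2
      rw [dist_eq_norm, dist_zero_right, hE1, norm_E1, mul_one] at this
      exact this
    set K : ℝ := (1 + ε₁) * S with hK
    have hK0 : 0 ≤ K := by positivity
    -- slopes of all chords
    have hslope : ∀ c ∈ topC e n₀ T M Z L, ‖f c.2 - f c.1‖ ≤ K * ‖c.2 - c.1‖ := by
      intro c hc
      by_cases hcc : c.1 = c.2
      · rw [hcc]; simp
      have hlen : 0 < ‖c.2 - c.1‖ := norm_pos_iff.mpr (sub_ne_zero.mpr (Ne.symm hcc))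
      have h1 := hY.bil (fun z => ‖c.2 - c.1‖⁻¹ • f (chordMap E1 c z)) (by
        intro x hx y hy
        have hx' : chordMap E1 c x ∈ subst E1 (topC e n₀ T M Z L) Y := by
          simp only [subst, mem_iUnion, exists_prop]; exact ⟨c, hc, x, hx, rfl⟩
        have hy' : chordMap E1 c y ∈ subst E1 (topC e n₀ T M Z L) Y := by
          simp only [subst, mem_iUnion, exists_prop]; exact ⟨c, hc, y, hy, rfl⟩
        have h2 := hf _ hx' _ hy'
        rw [dist_eq_norm, dist_eq_norm, chordMap_norm_sub] at h2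
        rw [dist_eq_norm, dist_eq_norm, ← smul_sub, norm_smul, norm_inv, norm_norm]
        constructor
        · rw [← mul_assoc, mul_comm D, mul_assoc, le_inv_mul_iff₀ hlen]; exact h2.1
        · rw [inv_mul_le_iff₀ hlen]
          refine h2.2.trans (le_of_eq ?_)
          ring)
      rw [chordMap_zero, hE1, chordMap_self norm_E1, ← smul_sub, norm_smul, norm_inv, norm_norm,
        mul_assoc, inv_mul_le_iff₀ hlen] at h1
      -- `‖f c.2 - f c.1‖ (1+ε₁)^m ≤ ‖c‖ D < ‖c‖ S (1+ε₁)^(m+1)`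
      have h3 : ‖f c.2 - f c.1‖ * (1 + ε₁) ^ m ≤ (K * ‖c.2 - c.1‖) * (1 + ε₁) ^ m := by
        refine h1.trans ?_
        have h4 : ‖c.2 - c.1‖ * D ≤ ‖c.2 - c.1‖ * (S * (1 + ε₁) ^ (m + 1)) :=
          mul_le_mul_of_nonneg_left hcon.le hlen.le
        refine h4.trans (le_of_eq ?_)
        rw [hK]; ring
      exact le_of_mul_le_mul_right h3 hpow
    -- the map in space-time coordinates
    set F : ℝ → V → W := fun t z => L • f (nu Z L (pt t z)) with hFdef
    have hFsub : ∀ t t' z z', ‖F t z - F t' z'‖ =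
        L * ‖f (nu Z L (pt t z)) - f (nu Z L (pt t' z'))‖ := by
      intro t t' z z'
      rw [hFdef]; simp only
      rw [← smul_sub, norm_smul, Real.norm_of_nonneg hL0.le]
    have hνsub : ∀ (t t' : ℝ) (z z' : V), ‖nu Z L (pt t z) - nu Z L (pt t' z')‖ =
        L⁻¹ * ‖pt (t - t') (z - z')‖ := by
      intro t t' z z'
      rw [nu_sub, norm_smul, Real.norm_of_nonneg hLi.le, pt_sub]
    have hedge : ∀ m < topT n₀ T, ∀ p ∈ topM e n₀ T M m,
        ‖F ((m + 1 : ℕ) : ℝ) p.2 - F (m : ℝ) p.1‖ ≤ K * (1 + 1 ^ 2 * ‖p.2 - p.1‖ ^ 2) := by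
      intro m hm p hp
      have h1 := hslope _ (hc_flow m hm p hp)
      simp only at h1
      rw [hνsub] at h1
      rw [hFsub]
      push_cast
      have h2 : ‖pt ((m : ℝ) + 1 - m) (p.2 - p.1)‖ ≤ 1 + 1 ^ 2 * ‖p.2 - p.1‖ ^ 2 := by
        refine norm_pt_le_of (r := 1) (s := ‖p.2 - p.1‖) (by simp) le_rfl (by positivity) ?_
        nlinarith [sq_nonneg ‖p.2 - p.1‖, sq_nonneg (‖p.2 - p.1‖ ^ 2)]
      calc L * ‖f (nu Z L (pt ((m : ℝ) + 1) p.2)) - f (nu Z L (pt (m : ℝ) p.1))‖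
          ≤ L * (K * (L⁻¹ * ‖pt ((m : ℝ) + 1 - m) (p.2 - p.1)‖)) :=
            mul_le_mul_of_nonneg_left h1 hL0.le
        _ = K * ‖pt ((m : ℝ) + 1 - m) (p.2 - p.1)‖ := by field_simp
        _ ≤ K * (1 + 1 ^ 2 * ‖p.2 - p.1‖ ^ 2) := mul_le_mul_of_nonneg_left h2 hK0
    have hpt0 : ∀ t : ℝ, 0 ≤ t → ‖(pt t (0 : V) : WithLp 2 (ℝ × V))‖ ≤ t := by
      intro t ht
      exact norm_pt_le_of (r := t) (s := 0) (by rw [abs_of_nonneg ht]) (by simp) ht (by simp)
    have hlong0 : ‖F 0 0 - F (-Z) 0‖ ≤ K * Z := by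
      have h1 := hslope _ hc_long0
      simp only at h1
      rw [hνsub] at h1
      rw [hFsub]
      have h2 : ‖(pt (0 - -Z) ((0 : V) - 0) : WithLp 2 (ℝ × V))‖ ≤ Z := by
        have : (0 : ℝ) - -Z = Z := by ring
        rw [this, sub_zero]; exact hpt0 Z hZ.le
      calc L * ‖f (nu Z L (pt 0 (0 : V))) - f (nu Z L (pt (-Z) (0 : V)))‖
          ≤ L * (K * (L⁻¹ * ‖(pt (0 - -Z) ((0 : V) - 0) : WithLp 2 (ℝ × V))‖)) :=
            mul_le_mul_of_nonneg_left h1 hL0.le
        _ = K * ‖(pt (0 - -Z) ((0 : V) - 0) : WithLp 2 (ℝ × V))‖ := by field_simp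
        _ ≤ K * Z := mul_le_mul_of_nonneg_left h2 hK0
    have hlong1 : ‖F ((topT n₀ T : ℝ) + Z) 0 - F (topT n₀ T : ℝ) 0‖ ≤ K * Z := by
      have h1 := hslope _ hc_long1
      simp only at h1
      rw [hνsub] at h1
      rw [hFsub]
      have h2 : ‖(pt ((topT n₀ T : ℝ) + Z - (topT n₀ T : ℝ)) ((0 : V) - 0) :
          WithLp 2 (ℝ × V))‖ ≤ Z := by
        have : (topT n₀ T : ℝ) + Z - (topT n₀ T : ℝ) = Z := by ring
        rw [this, sub_zero]; exact hpt0 Z hZ.le
      calc L * ‖f (nu Z L (pt ((topT n₀ T : ℝ) + Z) (0 : V))) -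
            f (nu Z L (pt (topT n₀ T : ℝ) (0 : V)))‖
          ≤ L * (K * (L⁻¹ * ‖(pt ((topT n₀ T : ℝ) + Z - (topT n₀ T : ℝ)) ((0 : V) - 0) :
              WithLp 2 (ℝ × V))‖)) := mul_le_mul_of_nonneg_left h1 hL0.le
        _ = K * ‖(pt ((topT n₀ T : ℝ) + Z - (topT n₀ T : ℝ)) ((0 : V) - 0) :
              WithLp 2 (ℝ × V))‖ := by field_simp
        _ ≤ K * Z := mul_le_mul_of_nonneg_left h2 hK0
    -- direction
    set u : W := S⁻¹ • (f E1 - f 0) with hu
    have hu1 : ‖u‖ = 1 := by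
      rw [hu, norm_smul, norm_inv, Real.norm_of_nonneg hS0.le, ← hS, inv_mul_cancel₀ hS0.ne']
    have hmain : S * L - 0 ≤ ⟪u, F ((topT n₀ T : ℝ) + Z) 0 - F (-Z) 0⟫ := by
      have e1 : F ((topT n₀ T : ℝ) + Z) 0 - F (-Z) 0 = L • (f E1 - f 0) := by
        rw [hFdef]; simp only
        rw [hν0, hν1, ← smul_sub]
      rw [e1, inner_smul_right, hu, inner_smul_left, real_inner_self_eq_norm_sq, ← hS]
      simp only [conj_trivial]
      refine le_of_eq ?_
      field_simp; ring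
    -- world lines
    set Fn : ℕ → V → W := fun t z => F (t : ℝ) z with hFn
    have hTdef : topT n₀ T = n₀ + (T + n₀) := rfl
    have htop_mid : ∀ j < T, topM e n₀ T M (n₀ + j) = M j := by
      intro j hj
      unfold topM
      rw [tappend_right, tappend_left hj]
    have htop_out : ∀ j < n₀, topM e n₀ T M j = radStep {0} {e} n₀ j := by
      intro j hj
      unfold topM
      rw [tappend_left hj]
    have htop_back : ∀ j, topM e n₀ T M (n₀ + (T + j)) = radBack {0} {e} n₀ j := by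
      intro j
      unfold topM
      rw [tappend_right, tappend_right]
    have h0_out : ‖Fn n₀ 0 - Fn 0 0‖ ≤ K * n₀ := by
      have := path_static (t := 0) (n := n₀) (f := Fn) (M' := topM e n₀ T M) (l := 1) (z := 0)
        hK0 hedge (by omega) (by
          intro j hj
          rw [Nat.zero_add, htop_out j hj]
          exact Or.inl ⟨0, rfl, rfl⟩)
      simpa using this
    have h0_back : ‖Fn (n₀ + T + n₀) 0 - Fn (n₀ + T) 0‖ ≤ K * n₀ := by
      refine path_static (t := n₀ + T) (n := n₀) (f := Fn) (M' := topM e n₀ T M) (l := 1) (z := 0)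
        hK0 hedge (by omega) ?_
      intro j hj
      rw [Nat.add_assoc, htop_back]
      exact Or.inl ⟨0, rfl, rfl⟩
    have he_out : ‖Fn n₀ e - Fn 0 0‖ ≤ K * (n₀ + 1 / n₀) := by
      have := path_out (t := 0) (n := n₀) (f := Fn) (M' := topM e n₀ T M) (l := 1) (p := e)
        hK0 hedge (by omega) (by omega) he.le (by
          intro j hj
          rw [Nat.zero_add, htop_out j hj]
          exact Or.inr ⟨e, rfl, rfl⟩)
      simpa using this
    have he_back : ‖Fn (n₀ + T + n₀) 0 - Fn (n₀ + T) e‖ ≤ K * (n₀ + 1 / n₀) := by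
      have := path_back (t := n₀ + T) (n := n₀) (f := Fn) (M' := topM e n₀ T M) (l := 1) (p := e)
        hK0 hedge (by omega) (by omega) he.le (by
          intro j hj
          rw [Nat.add_assoc, htop_back]
          exact Or.inr ⟨e, rfl, rfl⟩)
      simpa using this
    have hTtop : Fn (n₀ + T + n₀) 0 = F (topT n₀ T : ℝ) 0 := by
      rw [hFn]; simp only; rw [Nat.add_assoc]; rfl
    have hF00 : Fn 0 0 = F 0 0 := by rw [hFn]; simp
    rw [hTtop] at h0_back he_back
    rw [hF00] at h0_out he_out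
    have hLe : L = Z + n₀ + T + (n₀ + Z) := by
      rw [hL, hTdef]; push_cast; ring
    have hdef : ∀ (q : V) (x : ℝ), 0 ≤ x → ‖Fn n₀ q - F 0 0‖ ≤ K * (n₀ + x) →
        ‖F (topT n₀ T : ℝ) 0 - Fn (n₀ + T) q‖ ≤ K * (n₀ + x) → x ≤ 1 / n₀ →
        S * T - η ≤ ⟪u, Fn (n₀ + T) q - Fn n₀ q⟫ := by
      intro q x hx0 h1 h2 hx
      have hb1 : ‖Fn n₀ q - F (-Z) 0‖ ≤ K * ((Z + n₀) + x) := by
        have : Fn n₀ q - F (-Z) 0 = (Fn n₀ q - F 0 0) + (F 0 0 - F (-Z) 0) := by abel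
        rw [this]
        refine (norm_add_le _ _).trans ?_
        have : K * ((Z + n₀) + x) = K * (n₀ + x) + K * Z := by ring
        rw [this]; linarith
      have hb2 : ‖F ((topT n₀ T : ℝ) + Z) 0 - Fn (n₀ + T) q‖ ≤ K * (L - (Z + n₀ + T) + x) := by
        have : F ((topT n₀ T : ℝ) + Z) 0 - Fn (n₀ + T) q =
            (F ((topT n₀ T : ℝ) + Z) 0 - F (topT n₀ T : ℝ) 0) +
              (F (topT n₀ T : ℝ) 0 - Fn (n₀ + T) q) := by abel
        rw [this]
        refine (norm_add_le _ _).trans ?_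
        have : K * (L - (Z + n₀ + T) + x) = K * Z + K * (n₀ + x) := by rw [hLe]; ring
        rw [this]; linarith
      have h3 := portion (t₁ := Z + n₀) (t₂ := Z + n₀ + T) (T₀ := L) (x := x) (K' := K) (S := S)
        (η := 0) hu1 hb1 hb2 hmain
      refine le_trans ?_ h3
      have e1 : L - ((Z + n₀ + T) - (Z + n₀)) + 2 * x = L - T + 2 * x := by ring
      rw [e1]
      have a1 : K * (L - T + 2 * x) = S * (L - T) + ε₁ * S * (L - T) + 2 * K * x := by
        rw [hK]; ring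
      have hTn : (0 : ℝ) ≤ (T : ℝ) := Nat.cast_nonneg _
      have hLT : 0 ≤ L - T := by rw [hLe]; linarith
      have a2 : ε₁ * S * (L - T) ≤ ε₁ * D * L := by
        have : S * (L - T) ≤ D * L := mul_le_mul hSD (by linarith) hLT hD0.le
        nlinarith
      have a3 : 2 * K * x ≤ 4 * D / n₀ := by
        have h4 : K ≤ 2 * D := by
          rw [hK]; exact mul_le_mul (by linarith) hSD hS0.le (by norm_num)
        have h5 : 2 * K * x ≤ 2 * (2 * D) * (1 / n₀) :=
          mul_le_mul (by linarith) hx hx0 (by positivity)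
        refine h5.trans (le_of_eq ?_)
        ring
      rw [a1]
      linarith
    have hd0 := hdef 0 0 le_rfl (by simpa using h0_out) (by simpa using h0_back) (by positivity)
    have hde := hdef e (1 / n₀) (by positivity) he_out he_back le_rfl
    -- bi-Lipschitz on the middle block
    have hbil : ∀ m < T, ∀ p ∈ M m, ∀ q ∈ M m,
        1 * ‖p.1 - q.1‖ ≤ D * ‖Fn (n₀ + m) p.1 - Fn (n₀ + m) q.1‖ ∧
          ‖Fn (n₀ + m) p.1 - Fn (n₀ + m) q.1‖ ≤ D * (1 * ‖p.1 - q.1‖) := by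
      intro m hm p hp q hq
      have hm' : n₀ + m < topT n₀ T := by omega
      have hmp : p ∈ topM e n₀ T M (n₀ + m) := by rw [htop_mid m hm]; exact hp
      have hmq : q ∈ topM e n₀ T M (n₀ + m) := by rw [htop_mid m hm]; exact hq
      have h1 := hf _ (hfst _ (hc_flow _ hm' p hmp)) _ (hfst _ (hc_flow _ hm' q hmq))
      simp only at h1
      rw [dist_eq_norm, dist_eq_norm, hνsub, sub_self] at h1
      have h2 : ‖(pt 0 (p.1 - q.1) : WithLp 2 (ℝ × V))‖ = ‖p.1 - q.1‖ := by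
        have h3 := pt_norm_sq 0 (p.1 - q.1)
        rw [zero_pow two_ne_zero, zero_add] at h3
        exact (sq_eq_sq₀ (norm_nonneg _) (norm_nonneg _)).mp h3
      rw [h2] at h1
      rw [hFn]
      simp only
      rw [hFsub]
      constructor
      · have := h1.1
        rw [inv_mul_le_iff₀ hL0] at this
        linarith
      · calc L * ‖f (nu Z L (pt ((n₀ + m : ℕ) : ℝ) p.1)) - f (nu Z L (pt ((n₀ + m : ℕ) : ℝ) q.1))‖
            ≤ L * (D * (L⁻¹ * ‖p.1 - q.1‖)) := mul_le_mul_of_nonneg_left h1.2 hL0.le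
          _ = D * (1 * ‖p.1 - q.1‖) := by field_simp
    have hPP := hP 1 S u (fun m z => Fn (n₀ + m) z) one_pos le_rfl hS0 hSD hu1 hbil
      (by
        intro m hm p hp
        have hm' : n₀ + m < topT n₀ T := by omega
        have hmp : p ∈ topM e n₀ T M (n₀ + m) := by rw [htop_mid m hm]; exact hp
        have h1 := hedge (n₀ + m) hm' p hmp
        have e1 : Fn (n₀ + (m + 1)) p.2 = F ((n₀ + m + 1 : ℕ) : ℝ) p.2 := by
          rw [hFn]; simp only; rw [← Nat.add_assoc]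
        rw [e1]
        refine h1.trans ?_
        refine mul_le_mul_of_nonneg_right ?_ (by positivity)
        rw [hK]
        refine mul_le_mul_of_nonneg_right ?_ hS0.le
        linarith)
      (by simpa using hd0) (by simpa using hde)
    simp only [Nat.add_zero, mul_one] at hPP
    have hlow := (hbil 0 hM.Tpos _ (hM.conste 0 hM.Tpos) _ (hM.const0 0 hM.Tpos)).1
    simp only [Nat.add_zero, sub_zero, he, mul_one] at hlow
    have hR0 : 0 < R := lt_trans (by positivity) hR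
    have h7 : R ≤ D * ‖Fn n₀ e - Fn n₀ 0‖ * R := le_mul_of_one_le_left hR0.le hlow
    have h8 := mul_le_mul_of_nonneg_left hPP hD0.le
    have h9 : D * ‖Fn n₀ e - Fn n₀ 0‖ * R = D * (‖Fn n₀ e - Fn n₀ 0‖ * R) := by ring
    have h10 : D * D = D ^ 2 := by ring
    linarith

end Crest.Agent.Doub
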