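import Crest.Agent.Doub.Core

/-!
# Row 254: rigidity and the phase lemma
-/

set_option autoImplicit false
set_option linter.unusedSectionVars false

namespace Crest.Agent.Doub

open Metric Set
open scoped RealInnerProductSpace

variable {V : Type*} [NormedAddCommGroup V] [InnerProductSpace ℝ V]
variable {W : Type*} [NormedAddCommGroup W] [InnerProductSpace ℝ W]

theorem rigid {y u : W} {a ε η : ℝ} (ha : 0 ≤ a) (hu : ‖u‖ = 1)
    (h1 : ‖y‖ ≤ (1 + ε) * a) (h2 : a - η ≤ ⟪u, y⟫) :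
    ‖y - a • u‖ ^ 2 ≤ (2 * ε + ε ^ 2) * a ^ 2 + 2 * a * η := by
  have h3 : ‖y - a • u‖ ^ 2 = ‖y‖ ^ 2 - 2 * a * ⟪u, y⟫ + a ^ 2 := by
    rw [norm_sub_sq_real, inner_smul_right, norm_smul, hu, real_inner_comm, Real.norm_eq_abs,
      mul_one, sq_abs]
    ring
  have h4 : ‖y‖ ^ 2 ≤ ((1 + ε) * a) ^ 2 := pow_le_pow_left₀ (norm_nonneg _) h1 2
  have h5 := mul_le_mul_of_nonneg_left h2 ha
  rw [h3]
  nlinarith

theorem path_bound {n : ℕ} {y : ℕ → W} {Lm : ℕ → ℝ} {k : ℝ}
    (h : ∀ j < n, ‖y (j + 1) - y j‖ ≤ k * (Lm (j + 1) - Lm j)) {a b : ℕ} (hab : a ≤ b)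
    (hb : b ≤ n) : ‖y b - y a‖ ≤ k * (Lm b - Lm a) := by
  induction b, hab using Nat.le_induction with
  | base => simp
  | succ b hab ih =>
    have h1 := ih (by omega)
    have h2 := h b (by omega)
    have : y (b + 1) - y a = (y (b + 1) - y b) + (y b - y a) := by abel
    rw [this]
    refine (norm_add_le _ _).trans ?_
    linarith

theorem path_rigid {n : ℕ} {y : ℕ → W} {Lm : ℕ → ℝ} {u : W} {σ ε μ x d : ℝ} (hu : ‖u‖ = 1)
    (hσ : 0 ≤ σ) (hε0 : 0 ≤ ε) (hε1 : ε ≤ 1) (hx : 0 ≤ x)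
    (h : ∀ j < n, ‖y (j + 1) - y j‖ ≤ (1 + ε) * σ * (Lm (j + 1) - Lm j))
    (htot : Lm n - Lm 0 = 1 + x) (hmain : σ - μ ≤ ⟪u, y n - y 0⟫) {a b : ℕ} (hab : a ≤ b)
    (hb : b ≤ n) (hd : Lm b - Lm a = d) (hd0 : 0 ≤ d) (hd1 : d ≤ 1) :
    ‖(y b - y a) - (σ * d) • u‖ ^ 2 ≤
      (2 * ε + ε ^ 2) * (σ * d) ^ 2 + 2 * (σ * d) * (μ + ε * σ + 2 * σ * x) := by
  have h1 := path_bound h (Nat.zero_le a) (hab.trans hb)
  have h2 := path_bound h hab hb
  have h3 := path_bound h hb le_rfl
  have i1 : (⟪u, y a - y 0⟫ : ℝ) ≤ (1 + ε) * σ * (Lm a - Lm 0) := by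
    refine (real_inner_le_norm _ _).trans ?_
    rw [hu, one_mul]; exact h1
  have i3 : (⟪u, y n - y b⟫ : ℝ) ≤ (1 + ε) * σ * (Lm n - Lm b) := by
    refine (real_inner_le_norm _ _).trans ?_
    rw [hu, one_mul]; exact h3
  have hsum : (⟪u, y n - y 0⟫ : ℝ) = ⟪u, y a - y 0⟫ + ⟪u, y b - y a⟫ + ⟪u, y n - y b⟫ := by
    rw [← inner_add_right, ← inner_add_right]
    congr 1
    abel
  refine rigid (by positivity) hu ?_ ?_
  · rw [hd] at h2
    linarith [mul_assoc (1 + ε) σ d]
  · have e1 : Lm n - Lm b = 1 + x - d - (Lm a - Lm 0) := by linarith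
    have e2 : (1 + ε) * σ * (Lm a - Lm 0) + (1 + ε) * σ * (Lm n - Lm b) =
        (1 + ε) * σ * (1 + x - d) := by rw [e1]; ring
    have e3 : (1 + ε) * σ * (1 + x - d) ≤ σ * (1 - d) + ε * σ + 2 * σ * x := by
      have a1 : 0 ≤ ε * σ * d := by positivity
      have a2 : 0 ≤ (1 - ε) * (σ * x) := mul_nonneg (by linarith) (by positivity)
      nlinarith
    linarith

/-! ### Coordinates -/

variable {N : ℕ} {s θ κ : ℝ}

theorem an_xs_zero : xs N s θ 0 = 0 := by simp [xs]

theorem an_xs_one : xs N s θ 1 = 1 / 2 - halfW N s θ := by simp [xs]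

theorem an_xs_mid {j : ℕ} (h2 : 2 ≤ j) (h3 : j ≤ N + 3) :
    xs N s θ j = 1 / 2 + 10 * s * ((j : ℝ) - 2 - (N + 1) / 2) := by
  have : j ≠ 0 := by omega
  have : j ≠ 1 := by omega
  simp [xs, *]

theorem an_xs_right : xs N s θ (N + 4) = 1 / 2 + halfW N s θ := by
  simp [xs]

theorem an_xs_last : xs N s θ (N + 5) = 1 := by simp [xs]

theorem an_halfW_le (hP : Params N s θ κ) : 0 < halfW N s θ ∧ halfW N s θ ≤ 1 / 8 := by
  have h1 := hP.θpos
  have h2 := hP.θle
  have hN : (0 : ℝ) ≤ N := Nat.cast_nonneg N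
  have hs := hP.seq
  unfold halfW
  have h3 : s / θ = 1 / 16384 := by rw [hs]; field_simp
  rw [h3, hs]
  constructor
  · positivity
  · nlinarith

theorem an_ratio (hP : Params N s θ κ) : s / θ = 1 / 16384 := by
  have h1 := hP.θpos
  rw [hP.seq]; field_simp

theorem an_pos (hP : Params N s θ κ) : 0 < θ ∧ θ ≤ 1 / 100 ∧ 0 < s ∧ 10 * s * (N + 1) ≤ 1 := by
  have h1 := hP.θpos
  have h2 := hP.θle
  have hN : (0 : ℝ) ≤ N := Nat.cast_nonneg N
  have hs := hP.seq
  refine ⟨h1, by nlinarith, by rw [hs]; positivity, ?_⟩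
  rw [hs]; nlinarith

theorem an_gap_first (hP : Params N s θ κ) : 0 ≤ xs N s θ 1 - xs N s θ 0 := by
  have := an_halfW_le hP
  rw [an_xs_zero, an_xs_one]; linarith

theorem an_gap_ramp1 : xs N s θ 2 - xs N s θ 1 = s / θ := by
  rw [an_xs_mid le_rfl (by omega), an_xs_one, halfW]; push_cast; ring

theorem an_gap_ramp2 : xs N s θ (N + 4) - xs N s θ (N + 3) = s / θ := by
  rw [an_xs_mid (by omega) le_rfl, an_xs_right, halfW]; push_cast; ring

theorem an_gap_mid {j : ℕ} (h2 : 2 ≤ j) (h3 : j + 1 ≤ N + 3) :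
    xs N s θ (j + 1) - xs N s θ j = 10 * s := by
  rw [an_xs_mid (by omega) h3, an_xs_mid h2 (by omega)]; push_cast; ring

theorem an_gap_last (hP : Params N s θ κ) : 0 ≤ xs N s θ (N + 5) - xs N s θ (N + 4) := by
  have := an_halfW_le hP
  rw [an_xs_last, an_xs_right]; linarith

theorem an_gap_nonneg (hP : Params N s θ κ) {j : ℕ} (hj : j < N + 5) :
    0 ≤ xs N s θ (j + 1) - xs N s θ j := by
  have hpos := an_pos hP
  have hr := an_ratio hP
  rcases Nat.lt_or_ge j 2 with h | h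
  · interval_cases j
    · exact an_gap_first hP
    · rw [an_gap_ramp1, hr]; norm_num
  · rcases Nat.lt_or_ge j (N + 3) with h' | h'
    · rw [an_gap_mid h (by omega)]; linarith
    · have : j = N + 3 ∨ j = N + 4 := by omega
      rcases this with rfl | rfl
      · rw [an_gap_ramp2, hr]; norm_num
      · exact an_gap_last hP

/-- Cumulative length bound along the raised path. -/
noncomputable def lr (N : ℕ) (s θ : ℝ) (j : ℕ) : ℝ :=
  xs N s θ j + (if 2 ≤ j then s * θ else 0) + (if N + 4 ≤ j then s * θ else 0)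

variable {e : V} {v : ℕ → V}

theorem an_bp_step (hF : Frame N e v) (hP : Params N s θ κ) {j : ℕ} (hj : j < N + 5) :
    ‖bp N s θ e (j + 1) - bp N s θ e j‖ = xs N s θ (j + 1) - xs N s θ j := by
  unfold bp
  rw [← sub_smul, norm_smul, hF.norm_e, mul_one, Real.norm_of_nonneg (an_gap_nonneg hP hj)]

theorem an_comb_norm_sq (hF : Frame N e v) {i : ℕ} (hi : i < N) (x y : ℝ) :
    ‖x • e + y • v i‖ ^ 2 = x ^ 2 + y ^ 2 := by
  rw [norm_add_sq_real, inner_smul_left, inner_smul_right, hF.inner_ev i hi, norm_smul, norm_smul,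
    hF.norm_e, hF.norm_v i hi, Real.norm_eq_abs, Real.norm_eq_abs, mul_one, mul_one, sq_abs, sq_abs]
  simp

theorem an_up_step (hF : Frame N e v) (hP : Params N s θ κ) {i : ℕ} (hi : i < N) {j : ℕ}
    (hj : j < N + 5) :
    ‖up N s θ e v i (j + 1) - up N s θ e v i j‖ ≤ lr N s θ (j + 1) - lr N s θ j := by
  obtain ⟨hθ0, -, hs0, -⟩ := an_pos hP
  have hθne : θ ≠ 0 := hθ0.ne'
  have hg := an_gap_nonneg hP hj
  have hr := an_ratio hP
  have e1 : up N s θ e v i (j + 1) - up N s θ e v i j =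
      (xs N s θ (j + 1) - xs N s θ j) • e + (ys N s (j + 1) - ys N s j) • v i := by
    unfold up; module
  have key : ∀ x y z : ℝ, 0 ≤ z → x ^ 2 + y ^ 2 ≤ z ^ 2 → ‖x • e + y • v i‖ ≤ z := by
    intro x y z hz h
    refine abs_le_of_sq_le_sq' ?_ hz |>.2
    rw [an_comb_norm_sq hF hi]; exact h
  rw [e1]
  have hsθ : 0 ≤ s * θ := by positivity
  have hq : s = s / θ * θ := by field_simp
  rcases Nat.lt_or_ge j 2 with h | h
  · interval_cases j
    · have e2 : lr N s θ (0 + 1) - lr N s θ 0 = xs N s θ (0 + 1) - xs N s θ 0 := by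
        simp [lr]
      have e3 : ys N s (0 + 1) - ys N s 0 = 0 := by simp [ys]
      rw [e2, e3]
      exact key _ _ _ hg (by nlinarith)
    · have e2 : lr N s θ (1 + 1) - lr N s θ 1 = s / θ + s * θ := by
        have := an_gap_ramp1 (N := N) (s := s) (θ := θ)
        simp only [lr]
        have a1 : 2 ≤ 1 + 1 := by omega
        have a2 : ¬ (N + 4 ≤ 1 + 1) := by omega
        have a3 : ¬ (N + 4 ≤ 1) := by omega
        have a4 : ¬ (2 ≤ 1) := by omega
        simp only [a1, a2, a3, a4, if_true, if_false]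
        have e5 : 1 + 1 = 2 := rfl
        rw [e5]; linarith
      have e3 : ys N s (1 + 1) - ys N s 1 = s := by simp [ys]
      have e4 : xs N s θ (1 + 1) - xs N s θ 1 = s / θ := an_gap_ramp1
      rw [e2, e3, e4]
      refine key _ _ _ (by positivity) ?_
      have : s ^ 2 = (s / θ) * (s * θ) := by field_simp
      nlinarith [sq_nonneg (s * θ), sq_nonneg s]
  · rcases Nat.lt_or_ge j (N + 3) with h' | h'
    · have e2 : lr N s θ (j + 1) - lr N s θ j = xs N s θ (j + 1) - xs N s θ j := by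
        simp only [lr]
        have a1 : 2 ≤ j + 1 := by omega
        have a2 : ¬ (N + 4 ≤ j + 1) := by omega
        have a3 : ¬ (N + 4 ≤ j) := by omega
        simp only [a1, h, a2, a3, if_true, if_false]; ring
      have e3 : ys N s (j + 1) - ys N s j = 0 := by
        have a1 : 2 ≤ j + 1 ∧ j + 1 ≤ N + 3 := by omega
        have a2 : 2 ≤ j ∧ j ≤ N + 3 := by omega
        simp only [ys, a1, a2, and_self, if_true, sub_self]
      rw [e2, e3]
      exact key _ _ _ hg (by nlinarith)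
    · have : j = N + 3 ∨ j = N + 4 := by omega
      rcases this with rfl | rfl
      · have e2 : lr N s θ (N + 3 + 1) - lr N s θ (N + 3) = s / θ + s * θ := by
          have := an_gap_ramp2 (N := N) (s := s) (θ := θ)
          simp only [lr]
          have a1 : 2 ≤ N + 3 + 1 := by omega
          have a2 : N + 4 ≤ N + 3 + 1 := by omega
          have a3 : ¬ (N + 4 ≤ N + 3) := by omega
          have a4 : 2 ≤ N + 3 := by omega
          simp only [a1, a2, a3, a4, if_true, if_false]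
          have e5 : N + 3 + 1 = N + 4 := rfl
          rw [e5]; linarith
        have e3 : ys N s (N + 3 + 1) - ys N s (N + 3) = -s := by
          have a1 : ¬ (2 ≤ N + 3 + 1 ∧ N + 3 + 1 ≤ N + 3) := by omega
          have a2 : 2 ≤ N + 3 ∧ N + 3 ≤ N + 3 := by omega
          simp only [ys, a1, a2, and_self, if_true, if_false, zero_sub]
        have e4 : xs N s θ (N + 3 + 1) - xs N s θ (N + 3) = s / θ := an_gap_ramp2
        rw [e2, e3, e4]
        refine key _ _ _ (by positivity) ?_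
        have : s ^ 2 = (s / θ) * (s * θ) := by field_simp
        nlinarith [sq_nonneg (s * θ), sq_nonneg s]
      · have e2 : lr N s θ (N + 4 + 1) - lr N s θ (N + 4) =
            xs N s θ (N + 4 + 1) - xs N s θ (N + 4) := by
          simp only [lr]
          have a1 : 2 ≤ N + 4 + 1 := by omega
          have a2 : N + 4 ≤ N + 4 + 1 := by omega
          have a3 : N + 4 ≤ N + 4 := by omega
          have a4 : 2 ≤ N + 4 := by omega
          simp only [a1, a2, a3, a4, if_true]; ring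
        have e3 : ys N s (N + 4 + 1) - ys N s (N + 4) = 0 := by
          have a1 : ¬ (2 ≤ N + 4 + 1 ∧ N + 4 + 1 ≤ N + 3) := by omega
          have a2 : ¬ (2 ≤ N + 4 ∧ N + 4 ≤ N + 3) := by omega
          simp only [ys, a1, a2, if_false, sub_self]
        rw [e2, e3]
        exact key _ _ _ hg (by nlinarith)

/-- Consecutive points of the full raised path `0, l₋, u_0, ..., u_{N+1}, l₊, e` form chords. -/
theorem an_up_chord {i : ℕ} {j : ℕ} (hj : j < N + 5) :
    (up N s θ e v i j, up N s θ e v i (j + 1)) ∈ chords N s θ e v i := by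
  have hub : ∀ j, ¬ (2 ≤ j ∧ j ≤ N + 3) → up N s θ e v i j = bp N s θ e j := by
    intro j hj
    simp [up, bp, ys, hj]
  rcases Nat.lt_or_ge j 1 with h | h
  · have : j = 0 := by omega
    subst this
    rw [hub 0 (by omega), hub 1 (by omega)]
    exact Or.inl (Or.inl ⟨0, by omega, rfl⟩)
  · rcases Nat.lt_or_ge j (N + 4) with h' | h'
    · exact Or.inl (Or.inr ⟨j, h, by omega, rfl⟩)
    · have : j = N + 4 := by omega
      subst this
      rw [hub (N + 4) (by omega), hub (N + 4 + 1) (by omega)]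
      exact Or.inl (Or.inl ⟨N + 4, by omega, rfl⟩)

theorem an_up_zero (i : ℕ) : up N s θ e v i 0 = 0 := by simp [up, xs, ys]

theorem an_up_last (i : ℕ) : up N s θ e v i (N + 5) = e := by
  have : ¬ (2 ≤ N + 5 ∧ N + 5 ≤ N + 3) := by omega
  simp [up, xs, ys]

theorem an_bp_zero : bp N s θ e 0 = 0 := by simp [bp, xs]

theorem an_bp_last : bp N s θ e (N + 5) = e := by simp [bp, xs]

/-- **Phase lemma**. -/
theorem phase_lemma (hF : Frame N e v) (hP : Params N s θ κ) {i : ℕ} (hi : i < N) {g : V → W}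
    {σ ε μ δ D : ℝ} (hσ : 0 < σ) (hσD : σ ≤ D) (hε0 : 0 ≤ ε) (hε1 : ε ≤ 1) (hμ0 : 0 ≤ μ)
    (hμ : μ < σ) (hδ : 0 ≤ δ)
    (hch : ∀ c ∈ chords N s θ e v i, ‖g c.2 - g c.1‖ ≤ (1 + ε) * σ * ‖c.2 - c.1‖)
    (hbig : σ - μ ≤ ‖g e - g 0‖)
    (hpar : 5 * ε * D ^ 2 + 20 * (N + 1) * D * s * μ + 80 * (N + 1) * D ^ 2 * θ * s ^ 2 ≤
      (δ * s / 2) ^ 2) {j : ℕ} (hj2 : 2 ≤ j) (hj3 : j ≤ N + 3) :
    ‖(g (up N s θ e v i j) - g (bp N s θ e j)) -
      (g (hp N s θ e v i) - g (bp N s θ e (i + 3)))‖ ≤ δ * s := by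
  obtain ⟨hθ, hθ1, hs, hsN⟩ := an_pos hP
  have hD : 0 < D := lt_of_lt_of_le hσ hσD
  set w : W := g e - g 0 with hw
  have hwpos : 0 < ‖w‖ := by linarith
  set u : W := ‖w‖⁻¹ • w with hu
  have hu1 : ‖u‖ = 1 := by
    rw [hu, norm_smul, norm_inv, norm_norm, inv_mul_cancel₀ hwpos.ne']
  have hmain : σ - μ ≤ ⟪u, g e - g 0⟫ := by
    rw [← hw, hu, inner_smul_left, real_inner_self_eq_norm_sq]
    have : (starRingEnd ℝ) ‖w‖⁻¹ * ‖w‖ ^ 2 = ‖w‖ := by
      simp only [conj_trivial]
      field_simp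
    rw [this]; exact hbig
  have hk : 0 ≤ (1 + ε) * σ := by positivity
  -- base path
  have hbase : ∀ a b : ℕ, 2 ≤ a → a ≤ b → b ≤ N + 3 →
      ‖(g (bp N s θ e b) - g (bp N s θ e a)) - (σ * (10 * s * ((b : ℝ) - a))) • u‖ ≤ δ * s / 2 ∧
      ‖(g (up N s θ e v i b) - g (up N s θ e v i a)) - (σ * (10 * s * ((b : ℝ) - a))) • u‖ ≤
        δ * s / 2 := by
    intro a b ha hab hb
    have hab' : (a : ℝ) ≤ b := by exact_mod_cast hab
    have ha' : (2 : ℝ) ≤ a := by exact_mod_cast ha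
    have hb' : (b : ℝ) ≤ N + 3 := by exact_mod_cast hb
    have hdx : xs N s θ b - xs N s θ a = 10 * s * ((b : ℝ) - a) := by
      rw [an_xs_mid (by omega) hb, an_xs_mid ha (by omega)]; ring
    have hd0 : 0 ≤ 10 * s * ((b : ℝ) - a) := mul_nonneg (by positivity) (by linarith)
    have hd1' : 10 * s * ((b : ℝ) - a) ≤ 10 * s * (N + 1) :=
      mul_le_mul_of_nonneg_left (by linarith) (by positivity)
    have hd1 : 10 * s * ((b : ℝ) - a) ≤ 1 := hd1'.trans hsN
    have fin : ∀ x : ℝ, 0 ≤ x → x ≤ 2 * s * θ →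
        (2 * ε + ε ^ 2) * (σ * (10 * s * ((b : ℝ) - a))) ^ 2 +
          2 * (σ * (10 * s * ((b : ℝ) - a))) * (μ + ε * σ + 2 * σ * x) ≤ (δ * s / 2) ^ 2 := by
      intro x hx0 hx1
      set d : ℝ := 10 * s * ((b : ℝ) - a) with hd
      have b1 : σ * d ≤ D * 1 := mul_le_mul hσD hd1 hd0 hD.le
      have b1' : σ * d ≤ D * (10 * s * (N + 1)) := mul_le_mul hσD hd1' hd0 hD.le
      have b0 : 0 ≤ σ * d := by positivity
      have c1 : (2 * ε + ε ^ 2) * (σ * d) ^ 2 ≤ 3 * ε * D ^ 2 := by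
        have q1 : 2 * ε + ε ^ 2 ≤ 3 * ε := by nlinarith
        have q2 : (σ * d) ^ 2 ≤ D ^ 2 := by
          refine pow_le_pow_left₀ b0 ?_ 2
          linarith
        have q3 : 0 ≤ (σ * d) ^ 2 := sq_nonneg _
        nlinarith
      have c2 : 2 * (σ * d) * μ ≤ 20 * (N + 1) * D * s * μ := by
        have := mul_le_mul_of_nonneg_right b1' hμ0
        nlinarith
      have c3 : 2 * (σ * d) * (ε * σ) ≤ 2 * ε * D ^ 2 := by
        have q1 : (σ * d) * σ ≤ D * D := mul_le_mul (by linarith) hσD hσ.le hD.le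
        nlinarith
      have c4 : 2 * (σ * d) * (2 * σ * x) ≤ 80 * (N + 1) * D ^ 2 * θ * s ^ 2 := by
        have q1 : 2 * σ * x ≤ 2 * D * (2 * s * θ) :=
          mul_le_mul (by linarith) hx1 hx0 (by positivity)
        have q2 : 2 * (σ * d) * (2 * σ * x) ≤
            2 * (D * (10 * s * (N + 1))) * (2 * D * (2 * s * θ)) :=
          mul_le_mul (by linarith) q1 (by positivity) (by positivity)
        refine q2.trans (le_of_eq ?_)
        ring
      have : (2 * ε + ε ^ 2) * (σ * d) ^ 2 + 2 * (σ * d) * (μ + ε * σ + 2 * σ * x) =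
          (2 * ε + ε ^ 2) * (σ * d) ^ 2 + 2 * (σ * d) * μ + 2 * (σ * d) * (ε * σ) +
            2 * (σ * d) * (2 * σ * x) := by ring
      rw [this]
      linarith
    have hδs : 0 ≤ δ * s / 2 := by positivity
    constructor
    · have hr := path_rigid (n := N + 5) (y := fun j => g (bp N s θ e j)) (Lm := xs N s θ)
        (u := u) (σ := σ) (ε := ε) (μ := μ) (x := 0) (d := 10 * s * ((b : ℝ) - a)) hu1 hσ.le hε0 hε1
        le_rfl
        (fun j hj => by
          have := hch (bp N s θ e j, bp N s θ e (j + 1)) (Or.inl (Or.inl ⟨j, by omega, rfl⟩))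
          simp only at this
          rwa [an_bp_step hF hP hj] at this)
        (by rw [an_xs_last, an_xs_zero]; ring)
        (by simpa [an_bp_zero, an_bp_last] using hmain) hab (by omega) hdx hd0 hd1
      exact (abs_le_of_sq_le_sq' (hr.trans (fin 0 le_rfl (by positivity))) hδs).2
    · have hr := path_rigid (n := N + 5) (y := fun j => g (up N s θ e v i j)) (Lm := lr N s θ)
        (u := u) (σ := σ) (ε := ε) (μ := μ) (x := 2 * s * θ) (d := 10 * s * ((b : ℝ) - a)) hu1 hσ.le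
        hε0 hε1 (by positivity)
        (fun j hj => by
          have := hch (up N s θ e v i j, up N s θ e v i (j + 1)) (an_up_chord hj)
          simp only at this
          exact this.trans (mul_le_mul_of_nonneg_left (an_up_step hF hP hi hj) hk))
        (by
          simp only [lr]
          have a1 : 2 ≤ N + 5 := by omega
          have a2 : N + 4 ≤ N + 5 := by omega
          have a3 : ¬ (N + 4 ≤ 0) := by omega
          have a4 : ¬ (2 ≤ 0) := by omega
          simp only [a1, a2, a3, a4, if_true, if_false]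
          rw [an_xs_last, an_xs_zero]; ring)
        (by simpa [an_up_zero, an_up_last] using hmain) hab (by omega)
        (by
          simp only [lr]
          have a1 : 2 ≤ b := by omega
          have a2 : ¬ (N + 4 ≤ b) := by omega
          have a3 : ¬ (N + 4 ≤ a) := by omega
          simp only [a1, a2, a3, ha, if_true, if_false]
          linarith) hd0 hd1
      exact (abs_le_of_sq_le_sq' (hr.trans (fin _ (by positivity) le_rfl)) hδs).2
  have hi3 : i + 3 ≤ N + 3 := by omega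
  unfold hp
  rcases le_total j (i + 3) with hle | hle
  · obtain ⟨h1, h2⟩ := hbase j (i + 3) hj2 hle hi3
    set q := (σ * (10 * s * (((i + 3 : ℕ) : ℝ) - j))) • u
    have : (g (up N s θ e v i j) - g (bp N s θ e j)) -
        (g (up N s θ e v i (i + 3)) - g (bp N s θ e (i + 3))) =
        ((g (bp N s θ e (i + 3)) - g (bp N s θ e j)) - q) -
        ((g (up N s θ e v i (i + 3)) - g (up N s θ e v i j)) - q) := by abel
    rw [this]
    refine (norm_sub_le _ _).trans ?_
    linarith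
  · obtain ⟨h1, h2⟩ := hbase (i + 3) j (by omega) hle hj3
    set q := (σ * (10 * s * ((j : ℝ) - ((i + 3 : ℕ) : ℝ)))) • u
    have : (g (up N s θ e v i j) - g (bp N s θ e j)) -
        (g (up N s θ e v i (i + 3)) - g (bp N s θ e (i + 3))) =
        ((g (up N s θ e v i j) - g (up N s θ e v i (i + 3))) - q) -
        ((g (bp N s θ e j) - g (bp N s θ e (i + 3))) - q) := by abel
    rw [this]
    refine (norm_sub_le _ _).trans ?_
    linarith

end Crest.Agent.Doub
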