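import Crest.Agent.Doub.Step

/-!
# Row 254: the inner recursion
-/

set_option autoImplicit false
set_option linter.unusedSectionVars false

namespace Crest.Agent.Doub

open Metric Set Filter Topology
open scoped RealInnerProductSpace

variable {V : Type*} [NormedAddCommGroup V] [InnerProductSpace ℝ V]
variable {W : Type*} [NormedAddCommGroup W] [InnerProductSpace ℝ W]

/-- Packing in finite-dimensional balls. -/
theorem exists_packing [FiniteDimensional ℝ W] (D : ℝ) (hD : 0 < D) :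
    ∃ N : ℕ, 0 < N ∧ ∀ w : ℕ → W, (∀ i < N, ‖w i‖ ≤ D) →
      ∃ i < N, ∃ j < N, i ≠ j ∧ ‖w i - w j‖ < 1 / D := by
  haveI : ProperSpace W := FiniteDimensional.proper ℝ W
  have hcomp : IsCompact (closedBall (0 : W) D) := isCompact_closedBall 0 D
  obtain ⟨t, -, htfin, hcov⟩ := hcomp.finite_cover_balls (e := 1 / (2 * D)) (by positivity)
  refine ⟨htfin.toFinset.card + 1, Nat.succ_pos _, ?_⟩
  intro w hw
  have hex : ∀ i : ℕ, i < htfin.toFinset.card + 1 →
      ∃ x ∈ htfin.toFinset, w i ∈ ball x (1 / (2 * D)) := by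
    intro i hi
    have h1 : w i ∈ closedBall (0 : W) D := by
      rw [mem_closedBall, dist_zero_right]; exact hw i hi
    have h2 := hcov h1
    simp only [mem_iUnion, exists_prop] at h2
    obtain ⟨x, hx, hxw⟩ := h2
    exact ⟨x, by simpa using hx, hxw⟩
  choose! c hc hcw using hex
  obtain ⟨i, hi, j, hj, hij, heq⟩ := Finset.exists_ne_map_eq_of_card_lt_of_maps_to
    (s := Finset.range (htfin.toFinset.card + 1)) (t := htfin.toFinset) (f := c)
    (by simp) (by intro i hi; exact hc i (by simpa using hi))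
  rw [Finset.mem_range] at hi hj
  refine ⟨i, hi, j, hj, hij, ?_⟩
  have h1 := hcw i hi
  have h2 := hcw j hj
  rw [← heq] at h2
  rw [mem_ball, dist_eq_norm] at h1 h2
  have : w i - w j = (w i - c i) - (w j - c i) := by abel
  rw [this]
  refine (norm_sub_le _ _).trans_lt ?_
  have : 1 / D = 1 / (2 * D) + 1 / (2 * D) := by field_simp; norm_num
  rw [this]; linarith

theorem base_good {κ : ℝ} (hκ : 0 < κ) {e : V} (he : ‖e‖ = 1) :
    Good κ 300 e 1 (fun _ => {((0 : V), (0 : V)), (e, e)}) := by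
  have he0 : e ≠ 0 := by
    rintro rfl; simp at he
  have hstep : GoodStep 300 ({((0 : V), (0 : V)), (e, e)} : Set (V × V)) :=
    { fin := by simp
      slow := by
        rintro m (rfl | hm)
        · simp
        · rw [mem_singleton_iff] at hm; subst hm; simp
      nc := by
        rintro m (rfl | hm) m' (rfl | hm') σ h0 h1 h
        · rfl
        · rw [mem_singleton_iff] at hm'; subst hm'
          exfalso
          have e1 : (1 - σ) • e + σ • e = e := by module
          simp only [smul_zero, add_zero] at h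
          rw [e1] at h
          exact he0 h.symm
        · rw [mem_singleton_iff] at hm; subst hm
          exfalso
          have e1 : (1 - σ) • e + σ • e = e := by module
          simp only [smul_zero, add_zero] at h
          rw [e1] at h
          exact he0 h
        · rw [mem_singleton_iff] at hm hm'; rw [hm, hm']
      cov := by
        intro σ h0 h1
        have h2 : Cov 4 (1 / 4) (1 + 1) (({0} : Set V) ∪ {e}) :=
          (cov_subsingleton (by norm_num) subsingleton_singleton).union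
            (cov_subsingleton (by norm_num) subsingleton_singleton)
        refine (h2.mono ?_).mono_card (by norm_num)
        rintro _ ⟨m, (rfl | hm), rfl⟩
        · left; simp
        · rw [mem_singleton_iff] at hm; subst hm
          right
          have e1 : (1 - σ) • e + σ • e = e := by module
          simp [e1] }
  exact
    { Tpos := Nat.one_pos
      step := fun _ _ => hstep
      chain := fun m hm => by omega
      start := by rw [image_insert_eq, image_singleton]
      stop := by rw [image_insert_eq, image_singleton]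
      lens := by
        rintro m - p (rfl | hp)
        · exact ⟨zero_mem_Lens κ hκ.le e, zero_mem_Lens κ hκ.le e⟩
        · rw [mem_singleton_iff] at hp; subst hp
          exact ⟨self_mem_Lens κ hκ.le he, self_mem_Lens κ hκ.le he⟩
      const0 := by intro m _; simp
      conste := by intro m _; simp }

theorem base_prop {D : ℝ} {e : V} (he : ‖e‖ = 1) :
    PProp (W := W) D e 1 (fun _ => {((0 : V), (0 : V)), (e, e)}) 1 1 1 := by
  intro l S u f hl0 hl1 hS0 hSD hu hbil hedge hd0 hde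
  have := (hbil 0 Nat.one_pos (e, e) (by simp) ((0 : V), (0 : V)) (by simp)).2
  simpa [he] using this

theorem exists_structure [FiniteDimensional ℝ W] {N : ℕ} {s θ κ : ℝ} {e : V} {v : ℕ → V}
    (hF : Frame N e v) (hP : Params N s θ κ) (hN : 0 < N) {D δ μ ε₂ : ℝ} (hD : 1 ≤ D)
    (hδ0 : 0 < δ) (hδ : 5 * D * δ ≤ 1) (hμ0 : 0 < μ) (hμ : μ * D < 1) (hε₂0 : 0 ≤ ε₂)
    (hε₂1 : ε₂ ≤ 1)
    (hpar : 5 * ε₂ * D ^ 2 + 20 * (N + 1) * D * s * μ + 80 * (N + 1) * D ^ 2 * θ * s ^ 2 ≤
      (δ * s / 2) ^ 2)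
    (hpack : ∀ w : ℕ → W, (∀ i < N, ‖w i‖ ≤ D) → ∃ i < N, ∃ j < N, i ≠ j ∧ ‖w i - w j‖ < 1 / D)
    (k : ℕ) :
    ∃ (T : ℕ) (M : ℕ → Set (V × V)) (ε η : ℝ), 0 < ε ∧ 0 < η ∧ Good κ 300 e T M ∧
      PProp (W := W) D e T M ε η ((1 + ε₂) ^ k) := by
  obtain ⟨hκ, hs0, -, -⟩ := hP.pos
  have hD0 : 0 < D := by linarith
  induction k with
  | zero =>
    refine ⟨1, _, 1, 1, one_pos, one_pos, base_good hκ hF.norm_e, ?_⟩
    rw [pow_zero]
    exact base_prop hF.norm_e
  | succ k ih =>
    obtain ⟨T, M, ε, η, hε, hη, hM, hPk⟩ := ih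
    -- choose `nC`
    have hB : 0 < η * (10 * s) ^ 2 := by positivity
    obtain ⟨nC, hnC100, hnC⟩ : ∃ nC : ℕ, 100 ≤ nC ∧ 2 * D / nC < η * (10 * s) ^ 2 := by
      obtain ⟨n, hn⟩ := exists_nat_gt (2 * D / (η * (10 * s) ^ 2))
      refine ⟨n + 100, by omega, ?_⟩
      have hn0 : (0 : ℝ) < ((n + 100 : ℕ) : ℝ) := by positivity
      rw [div_lt_iff₀ hB] at hn
      rw [div_lt_iff₀ hn0]
      push_cast
      nlinarith
    set Q : ℝ := D * ((N * blockL nC T : ℕ) : ℝ) with hQ
    have hQ0 : 0 ≤ Q := by positivity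
    have hB2 : 0 < (δ * s / 2) ^ 2 := by positivity
    obtain ⟨nA, hnA100, hnA, hnA'⟩ : ∃ nA : ℕ, 100 ≤ nA ∧ 2 * D / nA < η * (10 * s) ^ 2 ∧
        2 * Q * (2 * D / nA) < (δ * s / 2) ^ 2 := by
      obtain ⟨n, hn⟩ := exists_nat_gt (2 * D / (η * (10 * s) ^ 2))
      obtain ⟨n', hn'⟩ := exists_nat_gt (2 * Q * (2 * D) / (δ * s / 2) ^ 2)
      refine ⟨n + n' + 100, by omega, ?_, ?_⟩
      · have hn0 : (0 : ℝ) < ((n + n' + 100 : ℕ) : ℝ) := by positivity
        rw [div_lt_iff₀ hB] at hn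
        rw [div_lt_iff₀ hn0]
        push_cast
        have : (0 : ℝ) ≤ n' := Nat.cast_nonneg _
        nlinarith
      · have hn0 : (0 : ℝ) < ((n + n' + 100 : ℕ) : ℝ) := by positivity
        rw [div_lt_iff₀ hB2] at hn'
        rw [← mul_div_assoc, div_lt_iff₀ hn0]
        push_cast
        have : (0 : ℝ) ≤ n := Nat.cast_nonneg _
        nlinarith
    set T' : ℕ := nextT N nA nC T with hT'
    -- choose `x = ε' = η'`
    have hx : ∃ x : ℝ, 0 < x ∧ x < ε * (10 * s) ^ 2 ∧
        x + x * D * (T' : ℕ) + 2 * (1 + x) * D / nC < η * (10 * s) ^ 2 ∧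
        x + x * D * (T' : ℕ) + 2 * (1 + x) * D / nA < η * (10 * s) ^ 2 ∧
        (2 * x + x ^ 2) * Q ^ 2 +
          2 * Q * (x + x * D * (T' : ℕ) + 2 * (1 + x) * D / nA) < (δ * s / 2) ^ 2 ∧
        (2 * x + x ^ 2) * (D * (T' : ℕ)) ^ 2 +
          2 * (D * (T' : ℕ)) * (x + x * D * (T' : ℕ)) < (μ / 2) ^ 2 := by
      have key : ∀ (g : ℝ → ℝ) (b : ℝ), Continuous g → g 0 < b → ∀ᶠ x in 𝓝[>] (0 : ℝ), g x < b := by
        intro g b hg hgb
        have h1 : Tendsto g (𝓝[>] (0 : ℝ)) (𝓝 (g 0)) := (hg.tendsto 0).mono_left nhdsWithin_le_nhds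
        exact h1.eventually_lt_const hgb
      have k0 : ∀ᶠ x in 𝓝[>] (0 : ℝ), 0 < x := eventually_mem_nhdsWithin
      have k1 := key (fun x => x) (ε * (10 * s) ^ 2) (by fun_prop) (by positivity)
      have k2 := key (fun x => x + x * D * (T' : ℕ) + 2 * (1 + x) * D / nC) (η * (10 * s) ^ 2)
        (by fun_prop) (by simpa using hnC)
      have k3 := key (fun x => x + x * D * (T' : ℕ) + 2 * (1 + x) * D / nA) (η * (10 * s) ^ 2)
        (by fun_prop) (by simpa using hnA)
      have k4 := key (fun x => (2 * x + x ^ 2) * Q ^ 2 +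
          2 * Q * (x + x * D * (T' : ℕ) + 2 * (1 + x) * D / nA)) ((δ * s / 2) ^ 2)
        (by fun_prop) (by simpa using hnA')
      have k5 := key (fun x => (2 * x + x ^ 2) * (D * (T' : ℕ)) ^ 2 +
          2 * (D * (T' : ℕ)) * (x + x * D * (T' : ℕ))) ((μ / 2) ^ 2)
        (by fun_prop) (by simp; positivity)
      obtain ⟨x, hx⟩ := (k0.and (k1.and (k2.and (k3.and (k4.and k5))))).exists
      exact ⟨x, hx⟩
    obtain ⟨x, hx0, hx1, hx2, hx3, hx4, hx5⟩ := hx
    refine ⟨T', nextM N s θ e v nA nC T M, x, x, hx0, hx0,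
      nextM_good hF hP hN hM hnA100 hnC100, ?_⟩
    rw [pow_succ]
    exact step_analysis hF hP hN hM hnA100 hnC100 hD hδ0.le hδ hμ0.le hμ hε₂0 hε₂1
      (by positivity) hpar hx0.le hx0.le hη.le hε.le hx1.le hx2.le hx3.le hx4.le hx5.le hPk hpack

end Crest.Agent.Doub
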