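import Crest.Agent.Doub.Next
import Crest.Agent.Doub.Phase

/-!
# Row 254: the analytic step `P_k → P_{k+1}`
-/

set_option autoImplicit false
set_option linter.unusedSectionVars false

namespace Crest.Agent.Doub

open Metric Set
open scoped RealInnerProductSpace

variable {V : Type*} [NormedAddCommGroup V] [InnerProductSpace ℝ V]
variable {W : Type*} [NormedAddCommGroup W] [InnerProductSpace ℝ W]

section paths

variable {f : ℕ → V → W} {M' : ℕ → Set (V × V)} {K l : ℝ} {T' : ℕ}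

theorem path_gen (hK : 0 ≤ K)
    (hedge : ∀ m < T', ∀ p ∈ M' m, ‖f (m + 1) p.2 - f m p.1‖ ≤ K * (1 + l ^ 2 * ‖p.2 - p.1‖ ^ 2))
    {t n : ℕ} (hT : t + n ≤ T') {z : ℕ → V} {r : ℝ} (hz : ∀ j < n, (z j, z (j + 1)) ∈ M' (t + j))
    (hr : ∀ j < n, ‖z (j + 1) - z j‖ ≤ r) :
    ‖f (t + n) (z n) - f t (z 0)‖ ≤ K * (n * (1 + l ^ 2 * r ^ 2)) := by
  induction n with
  | zero => simp
  | succ n ih =>
    have h1 := ih (by omega) (fun j hj => hz j (by omega)) (fun j hj => hr j (by omega))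
    have h2 := hedge (t + n) (by omega) _ (hz n (by omega))
    have h3 := hr n (by omega)
    simp only at h2
    have h4 : K * (1 + l ^ 2 * ‖z (n + 1) - z n‖ ^ 2) ≤ K * (1 + l ^ 2 * r ^ 2) := by
      refine mul_le_mul_of_nonneg_left ?_ hK
      have : ‖z (n + 1) - z n‖ ^ 2 ≤ r ^ 2 := pow_le_pow_left₀ (norm_nonneg _) h3 2
      nlinarith [sq_nonneg l]
    have : f (t + (n + 1)) (z (n + 1)) - f t (z 0) =
        (f (t + n + 1) (z (n + 1)) - f (t + n) (z n)) + (f (t + n) (z n) - f t (z 0)) := by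
      rw [← Nat.add_assoc]; abel
    rw [this]
    refine (norm_add_le _ _).trans ?_
    push_cast
    nlinarith

theorem path_static (hK : 0 ≤ K)
    (hedge : ∀ m < T', ∀ p ∈ M' m, ‖f (m + 1) p.2 - f m p.1‖ ≤ K * (1 + l ^ 2 * ‖p.2 - p.1‖ ^ 2))
    {t n : ℕ} (hT : t + n ≤ T') {z : V} (hz : ∀ j < n, (z, z) ∈ M' (t + j)) :
    ‖f (t + n) z - f t z‖ ≤ K * n := by
  have := path_gen (z := fun _ => z) (r := 0) hK hedge hT hz (by simp)
  simpa using this

theorem path_out (hK : 0 ≤ K)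
    (hedge : ∀ m < T', ∀ p ∈ M' m, ‖f (m + 1) p.2 - f m p.1‖ ≤ K * (1 + l ^ 2 * ‖p.2 - p.1‖ ^ 2))
    {t n : ℕ} (hT : t + n ≤ T') (hn : 0 < n) {p : V} (hp : ‖p‖ ≤ 1)
    (hz : ∀ j < n, (((j : ℝ) / n) • p, (((j : ℝ) + 1) / n) • p) ∈ M' (t + j)) :
    ‖f (t + n) p - f t 0‖ ≤ K * (n + l ^ 2 / n) := by
  have hn0 : (0 : ℝ) < n := by exact_mod_cast hn
  have := path_gen (z := fun j => ((j : ℝ) / n) • p) (r := 1 / n) hK hedge hT
    (by intro j hj; have := hz j hj; push_cast; exact this)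
    (by
      intro j hj
      rw [← sub_smul, norm_smul]
      push_cast
      have : ((j : ℝ) + 1) / n - j / n = 1 / n := by field_simp; ring
      rw [this, Real.norm_of_nonneg (by positivity)]
      have h1 : (0 : ℝ) ≤ 1 / n := by positivity
      nlinarith)
  simp only [CharP.cast_eq_zero, zero_div, zero_smul, div_self hn0.ne', one_smul] at this
  refine this.trans (le_of_eq ?_)
  field_simp

theorem path_back (hK : 0 ≤ K)
    (hedge : ∀ m < T', ∀ p ∈ M' m, ‖f (m + 1) p.2 - f m p.1‖ ≤ K * (1 + l ^ 2 * ‖p.2 - p.1‖ ^ 2))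
    {t n : ℕ} (hT : t + n ≤ T') (hn : 0 < n) {p : V} (hp : ‖p‖ ≤ 1)
    (hz : ∀ j < n, ((((n : ℝ) - j) / n) • p, (((n : ℝ) - j - 1) / n) • p) ∈ M' (t + j)) :
    ‖f (t + n) 0 - f t p‖ ≤ K * (n + l ^ 2 / n) := by
  have hn0 : (0 : ℝ) < n := by exact_mod_cast hn
  have := path_gen (z := fun j => (((n : ℝ) - j) / n) • p) (r := 1 / n) hK hedge hT
    (by
      intro j hj
      have := hz j hj
      push_cast
      rw [← sub_sub]
      exact this)
    (by
      intro j hj
      rw [← sub_smul, norm_smul]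
      push_cast
      have : ((n : ℝ) - (j + 1)) / n - (n - j) / n = -(1 / n) := by field_simp; ring
      rw [this, norm_neg, Real.norm_of_nonneg (by positivity)]
      have h1 : (0 : ℝ) ≤ 1 / n := by positivity
      nlinarith)
  simp only [CharP.cast_eq_zero, sub_zero, sub_self, zero_div, zero_smul, div_self hn0.ne',
    one_smul] at this
  refine this.trans (le_of_eq ?_)
  field_simp

theorem portion {a b c d u : W} {K' S T₀ t₁ t₂ x η : ℝ} (hu : ‖u‖ = 1)
    (h1 : ‖b - a‖ ≤ K' * (t₁ + x)) (h2 : ‖d - c‖ ≤ K' * (T₀ - t₂ + x))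
    (h3 : S * T₀ - η ≤ ⟪u, d - a⟫) :
    S * T₀ - η - K' * (T₀ - (t₂ - t₁) + 2 * x) ≤ ⟪u, c - b⟫ := by
  have i1 : (⟪u, b - a⟫ : ℝ) ≤ K' * (t₁ + x) := by
    refine (real_inner_le_norm _ _).trans ?_
    rw [hu, one_mul]; exact h1
  have i2 : (⟪u, d - c⟫ : ℝ) ≤ K' * (T₀ - t₂ + x) := by
    refine (real_inner_le_norm _ _).trans ?_
    rw [hu, one_mul]; exact h2
  have hsum : (⟪u, d - a⟫ : ℝ) = ⟪u, b - a⟫ + ⟪u, c - b⟫ + ⟪u, d - c⟫ := by
    rw [← inner_add_right, ← inner_add_right]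
    congr 1
    abel
  have : K' * (t₁ + x) + K' * (T₀ - t₂ + x) = K' * (T₀ - (t₂ - t₁) + 2 * x) := by ring
  linarith

end paths

section worldlines

variable {N : ℕ} {s θ κ : ℝ} {e : V} {v : ℕ → V} {nA nC T : ℕ} {M : ℕ → Set (V × V)}

theorem subst_static (hF : Frame N e v) (hM : Good κ 300 e T M) {i : ℕ} (hi : i < N) {r : ℕ}
    (hr : r < T) {p : V} (hp : p ∈ (({0, e} : Set V) ∪ pers N s θ e v) ∪ phas N s θ e v i) :
    (p, p) ∈ substStep e (chords N s θ e v i) (M r) := by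
  rw [← chords_endpoints hF hi] at hp
  simp only [substStep, mem_iUnion, exists_prop]
  rcases hp with ⟨c, hc, rfl⟩ | ⟨c, hc, rfl⟩
  · refine ⟨c, hc, _, hM.const0 r hr, ?_⟩
    simp [Prod.map, chordMap_zero]
  · refine ⟨c, hc, _, hM.conste r hr, ?_⟩
    simp [Prod.map, chordMap_self hF.norm_e]

theorem block_static (hF : Frame N e v) (hM : Good κ 300 e T M) {i : ℕ} (hi : i < N) {r : ℕ}
    (hr : r < blockL nC T) {p : V} (hp : p ∈ ({0, e} : Set V) ∪ pers N s θ e v) :
    (p, p) ∈ blockM N s θ e v nC T M i r := by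
  by_cases h1 : r < nC
  · rw [blockM_radStep h1]; exact Or.inl ⟨p, hp, rfl⟩
  · obtain ⟨r', rfl⟩ := Nat.exists_eq_add_of_le (not_lt.mp h1)
    by_cases h2 : r' < T
    · rw [blockM_subst h2]; exact subst_static hF hM hi h2 (Or.inl hp)
    · obtain ⟨r'', rfl⟩ := Nat.exists_eq_add_of_le (not_lt.mp h2)
      rw [blockM_radBack]; exact Or.inl ⟨p, hp, rfl⟩

theorem loop_static (hF : Frame N e v) (hM : Good κ 300 e T M) {m : ℕ}
    (hm : m < N * blockL nC T) {p : V} (hp : p ∈ ({0, e} : Set V) ∪ pers N s θ e v) :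
    (p, p) ∈ nextM N s θ e v nA nC T M (nA + m) := by
  have hL : 0 < blockL nC T := by
    rcases Nat.eq_zero_or_pos (blockL nC T) with h0 | h0
    · rw [h0] at hm; simp at hm
    · exact h0
  have hdm := Nat.div_add_mod m (blockL nC T)
  have hr := Nat.mod_lt m hL
  have hi : m / blockL nC T < N := Nat.div_lt_of_lt_mul (by rwa [Nat.mul_comm] at hm)
  have : m = m / blockL nC T * blockL nC T + m % blockL nC T := by
    rw [Nat.mul_comm]; exact hdm.symm
  rw [this, nextM_block hi hr]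
  exact block_static hF hM hi hr hp

end worldlines

set_option maxHeartbeats 8000000 in
/-- **The analytic step.** -/
theorem step_analysis {N : ℕ} {s θ κ : ℝ} {e : V} {v : ℕ → V} {nA nC T : ℕ}
    {M : ℕ → Set (V × V)} (hF : Frame N e v) (hP : Params N s θ κ) (hN : 0 < N)
    (hM : Good κ 300 e T M) (hnA : 100 ≤ nA) (hnC : 100 ≤ nC)
    {D δ μ ε₂ ε η R ε' η' : ℝ} (hD : 1 ≤ D) (hδ0 : 0 ≤ δ) (hδ : 5 * D * δ ≤ 1) (hμ0 : 0 ≤ μ)
    (hμ : μ * D < 1) (hε₂0 : 0 ≤ ε₂) (hε₂1 : ε₂ ≤ 1) (hR : 0 < R)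
    (hpar : 5 * ε₂ * D ^ 2 + 20 * (N + 1) * D * s * μ + 80 * (N + 1) * D ^ 2 * θ * s ^ 2 ≤
      (δ * s / 2) ^ 2)
    (hε'0 : 0 ≤ ε') (hη'0 : 0 ≤ η') (hη0 : 0 ≤ η) (hε0 : 0 ≤ ε)
    (r3 : ε' ≤ ε * (10 * s) ^ 2)
    (r1 : η' + ε' * D * (nextT N nA nC T : ℕ) + 2 * (1 + ε') * D / nC ≤ η * (10 * s) ^ 2)
    (r2 : η' + ε' * D * (nextT N nA nC T : ℕ) + 2 * (1 + ε') * D / nA ≤ η * (10 * s) ^ 2)
    (r4 : (2 * ε' + ε' ^ 2) * (D * ((N * blockL nC T : ℕ) : ℝ)) ^ 2 +
      2 * (D * ((N * blockL nC T : ℕ) : ℝ)) *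
        (η' + ε' * D * (nextT N nA nC T : ℕ) + 2 * (1 + ε') * D / nA) ≤ (δ * s / 2) ^ 2)
    (r5 : (2 * ε' + ε' ^ 2) * (D * (nextT N nA nC T : ℕ)) ^ 2 +
      2 * (D * (nextT N nA nC T : ℕ)) * (η' + ε' * D * (nextT N nA nC T : ℕ)) ≤ (μ / 2) ^ 2)
    (hPk : PProp (W := W) D e T M ε η R)
    (hpack : ∀ w : ℕ → W, (∀ i < N, ‖w i‖ ≤ D) → ∃ i < N, ∃ j < N, i ≠ j ∧ ‖w i - w j‖ < 1 / D) :
    PProp (W := W) D e (nextT N nA nC T) (nextM N s θ e v nA nC T M) ε' η' (R * (1 + ε₂)) := by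
  intro l S u f hl0 hl1 hS0 hSD hu hbil hedge hd0 hde
  by_contra hcon
  push Not at hcon
  obtain ⟨hθ0, hθ1, hs0, hsN⟩ := an_pos hP
  have hD0 : 0 < D := by linarith
  have hgood := nextM_good hF hP hN hM hnA hnC
  set T' : ℕ := nextT N nA nC T with hT'
  set M' := nextM N s θ e v nA nC T M with hM'
  set L : ℕ := blockL nC T with hL
  have hTdef : T' = nA + (N * L + nA) := rfl
  have hLdef : L = nC + (T + nC) := rfl
  set K : ℝ := (1 + ε' * l ^ 2) * S with hK
  have hl2 : l ^ 2 ≤ 1 := by nlinarith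
  have hl20 : 0 < l ^ 2 := by positivity
  have hK0 : 0 ≤ K := by positivity
  have hnA0 : (0 : ℝ) < nA := by
    have : 0 < nA := by omega
    exact_mod_cast this
  have hnC0 : (0 : ℝ) < nC := by
    have : 0 < nC := by omega
    exact_mod_cast this
  set ηq : ℝ := η' + ε' * D * (T' : ℕ) with hηq
  have hηq0 : 0 ≤ ηq := by positivity
  -- conversion of the deficit
  have conv : ∀ (Δ x : ℝ), 0 ≤ Δ → Δ ≤ T' → 0 ≤ x →
      S * Δ - l ^ 2 * (ηq + 2 * (1 + ε') * D * x) ≤
        S * (T' : ℝ) - η' * l ^ 2 - K * ((T' : ℝ) - Δ + 2 * (l ^ 2 * x)) := by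
    intro Δ x hΔ0 hΔT hx
    have a1 : K * ((T' : ℝ) - Δ + 2 * (l ^ 2 * x)) =
        S * (T' - Δ) + l ^ 2 * (ε' * S * (T' - Δ)) + l ^ 2 * (2 * x * K) := by rw [hK]; ring
    have a2 : ε' * S * (T' - Δ) ≤ ε' * D * T' := by
      have : S * (T' - Δ) ≤ D * T' := mul_le_mul hSD (by linarith) (by linarith) hD0.le
      nlinarith
    have a3 : 2 * x * K ≤ 2 * (1 + ε') * D * x := by
      have : K ≤ (1 + ε') * D := by
        rw [hK]
        refine mul_le_mul ?_ hSD hS0.le (by positivity)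
        nlinarith
      nlinarith
    have a4 := mul_le_mul_of_nonneg_left a2 hl20.le
    have a5 := mul_le_mul_of_nonneg_left a3 hl20.le
    rw [a1, hηq]
    nlinarith
  -- world lines of `0` and `e`
  have q_norm : ∀ q ∈ ({0, e} : Set V), ∀ t n : ℕ, t + n ≤ T' → ‖f (t + n) q - f t q‖ ≤ K * n := by
    intro q hq t n htn
    refine path_static hK0 hedge htn ?_
    intro j hj
    rcases hq with rfl | hq
    · exact hgood.const0 _ (by omega)
    · rw [mem_singleton_iff] at hq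
      subst hq
      exact hgood.conste _ (by omega)
  have hdq : ∀ q ∈ ({0, e} : Set V), S * (T' : ℝ) - η' * l ^ 2 ≤ ⟪u, f T' q - f 0 q⟫ := by
    rintro q (rfl | hq)
    · exact hd0
    · rw [mem_singleton_iff] at hq
      subst hq
      exact hde
  have q_def : ∀ q ∈ ({0, e} : Set V), ∀ t n : ℕ, t + n ≤ T' →
      S * (n : ℝ) - l ^ 2 * ηq ≤ ⟪u, f (t + n) q - f t q⟫ := by
    intro q hq t n htn
    have h1 := q_norm q hq 0 t (by omega)
    rw [Nat.zero_add] at h1
    obtain ⟨r, hr⟩ := Nat.exists_eq_add_of_le htn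
    have h2 := q_norm q hq (t + n) r (by omega)
    rw [← hr] at h2
    have hr' : (r : ℝ) = T' - (t + n : ℝ) := by
      have : (T' : ℝ) = t + n + r := by exact_mod_cast hr
      linarith
    have h3 := portion (a := f 0 q) (b := f t q) (c := f (t + n) q) (d := f T' q) (t₁ := t)
      (t₂ := t + n) (T₀ := T') (x := 0) (K' := K) (S := S) (η := η' * l ^ 2) hu
      (by simpa using h1) (by rw [hr'] at h2; simpa using h2) (hdq q hq)
    have h4 := conv n 0 (by positivity) (by exact_mod_cast (by omega : n ≤ T')) le_rfl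
    have e1 : ((T' : ℝ) - ((t + n : ℝ) - t) + 2 * 0) = (T' : ℝ) - n + 2 * (l ^ 2 * 0) := by ring
    rw [e1] at h3
    refine le_trans ?_ h3
    refine le_trans (le_of_eq ?_) h4
    ring
  -- world lines of persistent points
  have p_out : ∀ p ∈ pers N s θ e v, ‖f nA p - f 0 0‖ ≤ K * (nA + l ^ 2 / nA) := by
    intro p hp
    have := path_out (t := 0) (n := nA) hK0 hedge (by omega) (by omega)
      (pers_lens hF hP hp).2.1 (by
        intro j hj
        rw [Nat.zero_add, hM', nextM_radStep hj]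
        exact Or.inr ⟨p, hp, rfl⟩)
    simpa using this
  have p_static : ∀ p ∈ pers N s θ e v, ∀ t n : ℕ, t + n ≤ N * L →
      ‖f (nA + t + n) p - f (nA + t) p‖ ≤ K * n := by
    intro p hp t n htn
    refine path_static hK0 hedge (by omega) ?_
    intro j hj
    rw [Nat.add_assoc, hM']
    exact loop_static hF hM (show t + j < N * L by omega) (Or.inr hp)
  have p_back : ∀ p ∈ pers N s θ e v, ‖f T' 0 - f (nA + N * L) p‖ ≤ K * (nA + l ^ 2 / nA) := by
    intro p hp
    have := path_back (t := nA + N * L) (n := nA) hK0 hedge (by omega) (by omega)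
      (pers_lens hF hP hp).2.1 (by
        intro j hj
        rw [hM', Nat.add_assoc, nextM_radBack]
        exact Or.inr ⟨p, hp, rfl⟩)
    have e1 : nA + N * L + nA = T' := by omega
    rw [e1] at this
    exact this
  have p_def : ∀ p ∈ pers N s θ e v, ∀ t n : ℕ, t + n ≤ N * L →
      S * (n : ℝ) - l ^ 2 * (ηq + 2 * (1 + ε') * D / nA) ≤
        ⟪u, f (nA + t + n) p - f (nA + t) p⟫ := by
    intro p hp t n htn
    have h1 := p_out p hp
    have h1' := p_static p hp 0 t (by omega)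
    have h2' := p_back p hp
    obtain ⟨r, hr⟩ := Nat.exists_eq_add_of_le htn
    have h2 := p_static p hp (t + n) r (by omega)
    have e2 : nA + (t + n) + r = nA + N * L := by omega
    have e3 : nA + (t + n) = nA + t + n := by omega
    rw [e2, e3] at h2
    simp only [Nat.add_zero] at h1'
    have hb1 : ‖f (nA + t) p - f 0 0‖ ≤ K * (((nA : ℝ) + t) + l ^ 2 * (1 / nA)) := by
      have : f (nA + t) p - f 0 0 = (f (nA + t) p - f nA p) + (f nA p - f 0 0) := by abel
      rw [this]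
      refine (norm_add_le _ _).trans ?_
      have e4 : K * (((nA : ℝ) + t) + l ^ 2 * (1 / nA)) = K * t + K * (nA + l ^ 2 / nA) := by ring
      rw [e4]
      linarith
    have hrr : (T' : ℝ) = nA + t + n + (r + nA) := by
      have : T' = nA + t + n + (r + nA) := by omega
      exact_mod_cast this
    have hb2 : ‖f T' 0 - f (nA + t + n) p‖ ≤
        K * ((T' : ℝ) - ((nA : ℝ) + t + n) + l ^ 2 * (1 / nA)) := by
      have : f T' 0 - f (nA + t + n) p =
          (f T' 0 - f (nA + N * L) p) + (f (nA + N * L) p - f (nA + t + n) p) := by abel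
      rw [this]
      refine (norm_add_le _ _).trans ?_
      have e4 : K * ((T' : ℝ) - ((nA : ℝ) + t + n) + l ^ 2 * (1 / nA)) =
          K * (nA + l ^ 2 / nA) + K * r := by rw [hrr]; ring
      rw [e4]
      linarith
    have h3 := portion (t₁ := (nA : ℝ) + t) (t₂ := (nA : ℝ) + t + n) (T₀ := T')
      (x := l ^ 2 * (1 / nA)) (K' := K) (S := S) (η := η' * l ^ 2) hu hb1 hb2 hd0
    have h4 := conv n (1 / nA) (by positivity) (by exact_mod_cast (by omega : n ≤ T'))
      (by positivity)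
    have e1 : ((T' : ℝ) - (((nA : ℝ) + t + n) - (nA + t)) + 2 * (l ^ 2 * (1 / nA))) =
        (T' : ℝ) - n + 2 * (l ^ 2 * (1 / nA)) := by ring
    rw [e1] at h3
    refine le_trans ?_ h3
    refine le_trans (le_of_eq ?_) h4
    ring
  -- the reference times
  set X : ℕ → ℕ := fun i => nA + (i * L + nC) with hX
  have hXL : ∀ i < N, i * L + L ≤ N * L := by
    intro i hi
    have := Nat.mul_le_mul_right L hi
    rwa [Nat.succ_mul] at this
  have hXT : ∀ i < N, X i + T ≤ T' := by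
    intro i hi
    have := hXL i hi
    simp only [hX]; omega
  -- world lines of phase points
  have w_def : ∀ i < N, ∀ w ∈ phas N s θ e v i,
      S * (T : ℝ) - l ^ 2 * (ηq + 2 * (1 + ε') * D / nC) ≤
        ⟪u, f (X i + T) w - f (X i) w⟫ := by
    intro i hi w hw
    have hLi := hXL i hi
    have h0mem : (0 : V) ∈ ({0, e} : Set V) := by simp
    have g1 := q_norm 0 h0mem 0 (nA + i * L) (by omega)
    rw [Nat.zero_add] at g1
    have g2 : ‖f (nA + i * L + nC) w - f (nA + i * L) 0‖ ≤ K * (nC + l ^ 2 / nC) := by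
      refine path_out hK0 hedge (by omega) (by omega) (phas_lens hF hP hi hw).2.1 ?_
      intro j hj
      rw [hM', Nat.add_assoc, nextM_block hi (by omega), blockM_radStep hj]
      exact Or.inr ⟨w, hw, rfl⟩
    have g3 : ‖f (nA + i * L + nC + T + nC) 0 - f (nA + i * L + nC + T) w‖ ≤
        K * (nC + l ^ 2 / nC) := by
      refine path_back hK0 hedge (by omega) (by omega) (phas_lens hF hP hi hw).2.1 ?_
      intro j hj
      have e1 : nA + i * L + nC + T + j = nA + (i * L + (nC + (T + j))) := by omega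
      rw [hM', e1, nextM_block hi (by omega), blockM_radBack]
      exact Or.inr ⟨w, hw, rfl⟩
    obtain ⟨r, hr⟩ : ∃ r, T' = nA + i * L + nC + T + nC + r :=
      Nat.exists_eq_add_of_le (by omega)
    have g4 := q_norm 0 h0mem (nA + i * L + nC + T + nC) r (by omega)
    rw [← hr] at g4
    have hXi : X i = nA + i * L + nC := by simp only [hX]; omega
    rw [hXi]
    have hb1 : ‖f (nA + i * L + nC) w - f 0 0‖ ≤
        K * (((nA + i * L : ℕ) : ℝ) + nC + l ^ 2 * (1 / nC)) := by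
      have : f (nA + i * L + nC) w - f 0 0 =
          (f (nA + i * L + nC) w - f (nA + i * L) 0) + (f (nA + i * L) 0 - f 0 0) := by abel
      rw [this]
      refine (norm_add_le _ _).trans ?_
      have e4 : K * (((nA + i * L : ℕ) : ℝ) + nC + l ^ 2 * (1 / nC)) =
          K * (nC + l ^ 2 / nC) + K * ((nA + i * L : ℕ) : ℝ) := by ring
      rw [e4]
      linarith
    have hrr : (T' : ℝ) = ((nA + i * L : ℕ) : ℝ) + nC + T + nC + r := by
      exact_mod_cast hr
    have hb2 : ‖f T' 0 - f (nA + i * L + nC + T) w‖ ≤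
        K * ((T' : ℝ) - (((nA + i * L : ℕ) : ℝ) + nC + T) + l ^ 2 * (1 / nC)) := by
      have : f T' 0 - f (nA + i * L + nC + T) w =
          (f T' 0 - f (nA + i * L + nC + T + nC) 0) +
            (f (nA + i * L + nC + T + nC) 0 - f (nA + i * L + nC + T) w) := by abel
      rw [this]
      refine (norm_add_le _ _).trans ?_
      have e4 : K * ((T' : ℝ) - (((nA + i * L : ℕ) : ℝ) + nC + T) + l ^ 2 * (1 / nC)) =
          K * r + K * (nC + l ^ 2 / nC) := by rw [hrr]; ring
      rw [e4]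
      linarith
    have h3 := portion (t₁ := ((nA + i * L : ℕ) : ℝ) + nC)
      (t₂ := ((nA + i * L : ℕ) : ℝ) + nC + T) (T₀ := T')
      (x := l ^ 2 * (1 / nC)) (K' := K) (S := S) (η := η' * l ^ 2) hu hb1 hb2 hd0
    have h4 := conv T (1 / nC) (by positivity) (by exact_mod_cast (by omega : T ≤ T'))
      (by positivity)
    have e1 : ((T' : ℝ) - ((((nA + i * L : ℕ) : ℝ) + nC + T) - (((nA + i * L : ℕ) : ℝ) + nC)) +
        2 * (l ^ 2 * (1 / nC))) = (T' : ℝ) - T + 2 * (l ^ 2 * (1 / nC)) := by ring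
    rw [e1] at h3
    refine le_trans ?_ h3
    refine le_trans (le_of_eq ?_) h4
    ring
  -- all endpoints of chords in the static window of block `i`
  have end_def : ∀ i < N, ∀ p ∈ (({0, e} : Set V) ∪ pers N s θ e v) ∪ phas N s θ e v i,
      S * (T : ℝ) - l ^ 2 * (η * (10 * s) ^ 2) ≤ ⟪u, f (X i + T) p - f (X i) p⟫ := by
    intro i hi p hp
    have hLi := hXL i hi
    rcases hp with (hp | hp) | hp
    · refine le_trans ?_ (q_def p hp (X i) T (hXT i hi))
      have : ηq ≤ η * (10 * s) ^ 2 := by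
        have h1 : 0 ≤ 2 * (1 + ε') * D / nC := by positivity
        linarith
      nlinarith [mul_le_mul_of_nonneg_left this hl20.le]
    · have h1 := p_def p hp (i * L + nC) T (by omega)
      refine le_trans ?_ h1
      have := mul_le_mul_of_nonneg_left r2 hl20.le
      linarith
    · refine le_trans ?_ (w_def i hi p hp)
      have := mul_le_mul_of_nonneg_left r1 hl20.le
      linarith
  -- membership of substituted moves
  have sub_mem : ∀ i < N, ∀ c ∈ chords N s θ e v i, ∀ m < T, ∀ p ∈ M m,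
      (chordMap e c p.1, chordMap e c p.2) ∈ M' (X i + m) := by
    intro i hi c hc m hm p hp
    have e1 : X i + m = nA + (i * L + (nC + m)) := by simp only [hX]; omega
    rw [hM', e1, nextM_block hi (by omega), blockM_subst hm]
    simp only [substStep, mem_iUnion, exists_prop]
    exact ⟨c, hc, p, hp, rfl⟩
  have hTpos := hM.Tpos
  -- application of `P_k`
  have chord_bd : ∀ i < N, ∀ c ∈ chords N s θ e v i,
      ‖f (X i) c.2 - f (X i) c.1‖ * R ≤ D * (l * ‖c.2 - c.1‖) := by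
    intro i hi c hc
    by_cases hcc : c.1 = c.2
    · rw [hcc]; simp
    have hlen1 := chords_len_le hF hP hi hc
    have hlen2 := chords_len_ge hF hP hi hc hcc
    have hlen0 : 0 < ‖c.2 - c.1‖ := norm_pos_iff.mpr (sub_ne_zero.mpr (Ne.symm hcc))
    set lc := ‖c.2 - c.1‖ with hlc
    have hXi := hXT i hi
    have hmemE : c.1 ∈ (({0, e} : Set V) ∪ pers N s θ e v) ∪ phas N s θ e v i ∧
        c.2 ∈ (({0, e} : Set V) ∪ pers N s θ e v) ∪ phas N s θ e v i := by
      rw [← chords_endpoints hF hi]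
      exact ⟨Or.inl ⟨c, hc, rfl⟩, Or.inr ⟨c, hc, rfl⟩⟩
    have hsq : (10 * s) ^ 2 ≤ lc ^ 2 := pow_le_pow_left₀ (by positivity) hlen2 2
    have := hPk (l * lc) S u (fun m z => f (X i + m) (chordMap e c z)) (by positivity)
      (by nlinarith) hS0 hSD hu
      (by
        intro m hm p hp q hq
        have h1 := hbil (X i + m) (by omega) _ (sub_mem i hi c hc m hm p hp) _
          (sub_mem i hi c hc m hm q hq)
        simp only at h1
        rw [chordMap_norm_sub] at h1
        rw [mul_assoc]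
        exact h1)
      (by
        intro m hm p hp
        have h1 := hedge (X i + m) (by omega) _ (sub_mem i hi c hc m hm p hp)
        simp only at h1
        rw [chordMap_norm_sub] at h1
        rw [← Nat.add_assoc]
        refine h1.trans ?_
        have a1 : ε' * l ^ 2 ≤ ε * (l * lc) ^ 2 := by
          calc ε' * l ^ 2 ≤ (ε * (10 * s) ^ 2) * l ^ 2 := mul_le_mul_of_nonneg_right r3 hl20.le
            _ ≤ (ε * lc ^ 2) * l ^ 2 :=
              mul_le_mul_of_nonneg_right (mul_le_mul_of_nonneg_left hsq hε0) hl20.le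
            _ = ε * (l * lc) ^ 2 := by ring
        have a2 : K * (1 + l ^ 2 * (‖c.2 - c.1‖ * ‖p.2 - p.1‖) ^ 2) =
            (1 + ε' * l ^ 2) * (S * (1 + (l * lc) ^ 2 * ‖p.2 - p.1‖ ^ 2)) := by
          rw [hK, hlc]; ring
        rw [a2, mul_assoc (1 + ε * (l * lc) ^ 2)]
        exact mul_le_mul_of_nonneg_right (by linarith) (by positivity))
      (by
        have h1 := end_def i hi c.1 hmemE.1
        simp only [chordMap_zero, Nat.add_zero]
        refine le_trans ?_ h1
        have := mul_le_mul_of_nonneg_left (mul_le_mul_of_nonneg_left hsq hη0) hl20.le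
        nlinarith)
      (by
        have h1 := end_def i hi c.2 hmemE.2
        simp only [chordMap_self hF.norm_e, Nat.add_zero]
        refine le_trans ?_ h1
        have := mul_le_mul_of_nonneg_left (mul_le_mul_of_nonneg_left hsq hη0) hl20.le
        nlinarith)
    simpa [chordMap_zero, chordMap_self hF.norm_e] using this
  -- the slope `σ`
  have hT'pos : 0 < T' := hgood.Tpos
  have hb0 := hbil 0 hT'pos _ (hgood.conste 0 hT'pos) _ (hgood.const0 0 hT'pos)
  simp only [sub_zero, hF.norm_e, mul_one] at hb0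
  set σ : ℝ := ‖f 0 e - f 0 0‖ / l with hσ
  have hσl : ‖f 0 e - f 0 0‖ = σ * l := by rw [hσ]; field_simp
  have hσD : σ ≤ D := by
    rw [hσ, div_le_iff₀ hl0]; exact hb0.2
  have hσ1 : 1 ≤ D * σ := by
    have := hb0.1
    rw [hσl] at this
    nlinarith
  have hσ0 : 0 < σ := by
    by_contra h
    push Not at h
    nlinarith
  have hμσ : μ < σ := by
    by_contra h
    push Not at h
    nlinarith
  have hDσ : D ≤ (1 + ε₂) * σ * R := by
    rw [hσl] at hcon
    have : D * l < ((1 + ε₂) * σ * R) * l := by linarith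
    exact (lt_of_mul_lt_mul_right this hl0.le).le
  -- `g_i`
  have hg_chord : ∀ i < N, ∀ c ∈ chords N s θ e v i,
      ‖l⁻¹ • f (X i) c.2 - l⁻¹ • f (X i) c.1‖ ≤ (1 + ε₂) * σ * ‖c.2 - c.1‖ := by
    intro i hi c hc
    have h1 := chord_bd i hi c hc
    rw [← smul_sub, norm_smul, norm_inv, Real.norm_of_nonneg hl0.le]
    have h2 : ‖f (X i) c.2 - f (X i) c.1‖ ≤ (1 + ε₂) * σ * (l * ‖c.2 - c.1‖) := by
      have h3 : ‖f (X i) c.2 - f (X i) c.1‖ * R ≤ ((1 + ε₂) * σ * (l * ‖c.2 - c.1‖)) * R := by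
        refine h1.trans ?_
        calc D * (l * ‖c.2 - c.1‖) ≤ ((1 + ε₂) * σ * R) * (l * ‖c.2 - c.1‖) :=
              mul_le_mul_of_nonneg_right hDσ (by positivity)
          _ = ((1 + ε₂) * σ * (l * ‖c.2 - c.1‖)) * R := by ring
      exact le_of_mul_le_mul_right h3 hR
    rw [inv_mul_le_iff₀ hl0]
    refine h2.trans (le_of_eq ?_)
    ring
  have q_rig : ∀ q ∈ ({0, e} : Set V), ∀ i < N,
      ‖(f (X i) q - f 0 q) - (S * (X i : ℝ)) • u‖ ≤ l * (μ / 2) := by
    intro q hq i hi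
    have hXi := hXT i hi
    have h1 := q_norm q hq 0 (X i) (by omega)
    have h2 := q_def q hq 0 (X i) (by omega)
    rw [Nat.zero_add] at h1 h2
    have hXle : (X i : ℝ) ≤ T' := by exact_mod_cast (by omega : X i ≤ T')
    have hX0 : (0 : ℝ) ≤ X i := Nat.cast_nonneg _
    have h3 := rigid (y := f (X i) q - f 0 q) (u := u) (a := S * (X i : ℝ)) (ε := ε' * l ^ 2)
      (η := l ^ 2 * ηq) (by positivity) hu (by rw [hK] at h1; linarith) h2
    have hSX : S * (X i : ℝ) ≤ D * T' := mul_le_mul hSD hXle hX0 hD0.le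
    have hSX0 : 0 ≤ S * (X i : ℝ) := by positivity
    have b1 : (S * (X i : ℝ)) ^ 2 ≤ (D * T') ^ 2 := pow_le_pow_left₀ hSX0 hSX 2
    have b2 : 2 * (ε' * l ^ 2) + (ε' * l ^ 2) ^ 2 ≤ l ^ 2 * (2 * ε' + ε' ^ 2) := by
      have : (ε' * l ^ 2) ^ 2 = l ^ 2 * (ε' ^ 2 * l ^ 2) := by ring
      rw [this]
      nlinarith [mul_le_mul_of_nonneg_left hl2 (sq_nonneg ε')]
    have h4 : ‖(f (X i) q - f 0 q) - (S * (X i : ℝ)) • u‖ ^ 2 ≤ (l * (μ / 2)) ^ 2 := by
      refine h3.trans ?_
      have c1 : (2 * (ε' * l ^ 2) + (ε' * l ^ 2) ^ 2) * (S * (X i : ℝ)) ^ 2 ≤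
          (l ^ 2 * (2 * ε' + ε' ^ 2)) * (D * T') ^ 2 :=
        mul_le_mul b2 b1 (sq_nonneg _) (by positivity)
      have c2 : 2 * (S * (X i : ℝ)) * (l ^ 2 * ηq) ≤ 2 * (D * T') * (l ^ 2 * ηq) :=
        mul_le_mul_of_nonneg_right (by linarith) (by positivity)
      have c3 := mul_le_mul_of_nonneg_left r5 hl20.le
      nlinarith
    exact (abs_le_of_sq_le_sq' h4 (by positivity)).2
  have hg_big : ∀ i < N, σ - μ ≤ ‖l⁻¹ • f (X i) e - l⁻¹ • f (X i) 0‖ := by
    intro i hi
    have h1 := q_rig 0 (by simp) i hi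
    have h2 := q_rig e (by simp) i hi
    rw [← smul_sub, norm_smul, norm_inv, Real.norm_of_nonneg hl0.le, le_inv_mul_iff₀ hl0]
    set y := (S * (X i : ℝ)) • u
    have h3 : f 0 e - f 0 0 = (f (X i) e - f (X i) 0) - ((f (X i) e - f 0 e) - y) +
        ((f (X i) 0 - f 0 0) - y) := by abel
    have h4 : ‖f 0 e - f 0 0‖ ≤ ‖f (X i) e - f (X i) 0‖ + l * (μ / 2) + l * (μ / 2) := by
      rw [h3]
      refine (norm_add_le _ _).trans (add_le_add ((norm_sub_le _ _).trans ?_) h1)
      linarith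
    rw [hσl] at h4
    linarith
  -- persistence
  have p_rig : ∀ p ∈ pers N s θ e v, ∀ i < N, ∀ j < N,
      ‖(f (X j) p - f (X i) p) - (S * ((X j : ℝ) - X i)) • u‖ ≤ l * (δ * s / 2) := by
    have main : ∀ p ∈ pers N s θ e v, ∀ i < N, ∀ j < N, i ≤ j →
        ‖(f (X j) p - f (X i) p) - (S * ((X j : ℝ) - X i)) • u‖ ≤ l * (δ * s / 2) := by
      intro p hp i hi j hj hij
      have hLj := hXL j hj
      obtain ⟨k, rfl⟩ := Nat.exists_eq_add_of_le hij
      have e0 : (i + k) * L = i * L + k * L := Nat.add_mul _ _ _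
      have h1 := p_static p hp (i * L + nC) (k * L) (by omega)
      have h2 := p_def p hp (i * L + nC) (k * L) (by omega)
      have e1 : nA + (i * L + nC) + k * L = X (i + k) := by simp only [hX]; omega
      have e2 : nA + (i * L + nC) = X i := rfl
      rw [e1, e2] at h1 h2
      have e3 : (X (i + k) : ℝ) - X i = ((k * L : ℕ) : ℝ) := by
        have : X (i + k) = X i + k * L := by simp only [hX]; omega
        rw [this]; push_cast; ring
      rw [e3]
      have hn : ((k * L : ℕ) : ℝ) ≤ ((N * L : ℕ) : ℝ) := by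
        exact_mod_cast (by omega : k * L ≤ N * L)
      set n : ℝ := ((k * L : ℕ) : ℝ) with hn'
      have hn0 : 0 ≤ n := Nat.cast_nonneg _
      set ηA : ℝ := ηq + 2 * (1 + ε') * D / nA with hηA
      have hηA0 : 0 ≤ ηA := by positivity
      have h3 := rigid (y := f (X (i + k)) p - f (X i) p) (u := u) (a := S * n)
        (ε := ε' * l ^ 2) (η := l ^ 2 * ηA) (by positivity) hu
        (by rw [hK] at h1; linarith) h2
      have hSX : S * n ≤ D * ((N * L : ℕ) : ℝ) := mul_le_mul hSD hn hn0 hD0.le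
      have hSX0 : 0 ≤ S * n := by positivity
      have b1 : (S * n) ^ 2 ≤ (D * ((N * L : ℕ) : ℝ)) ^ 2 := pow_le_pow_left₀ hSX0 hSX 2
      have b2 : 2 * (ε' * l ^ 2) + (ε' * l ^ 2) ^ 2 ≤ l ^ 2 * (2 * ε' + ε' ^ 2) := by
        have : (ε' * l ^ 2) ^ 2 = l ^ 2 * (ε' ^ 2 * l ^ 2) := by ring
        rw [this]
        nlinarith [mul_le_mul_of_nonneg_left hl2 (sq_nonneg ε')]
      have h4 : ‖(f (X (i + k)) p - f (X i) p) - (S * n) • u‖ ^ 2 ≤ (l * (δ * s / 2)) ^ 2 := by
        refine h3.trans ?_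
        have c1 : (2 * (ε' * l ^ 2) + (ε' * l ^ 2) ^ 2) * (S * n) ^ 2 ≤
            (l ^ 2 * (2 * ε' + ε' ^ 2)) * (D * ((N * L : ℕ) : ℝ)) ^ 2 :=
          mul_le_mul b2 b1 (sq_nonneg _) (by positivity)
        have c2 : 2 * (S * n) * (l ^ 2 * ηA) ≤
            2 * (D * ((N * L : ℕ) : ℝ)) * (l ^ 2 * ηA) :=
          mul_le_mul_of_nonneg_right (by linarith) (by positivity)
        have c3 := mul_le_mul_of_nonneg_left r4 hl20.le
        nlinarith
      exact (abs_le_of_sq_le_sq' h4 (by positivity)).2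
    intro p hp i hi j hj
    rcases le_total i j with h | h
    · exact main p hp i hi j hj h
    · have h1 := main p hp j hj i hi h
      rw [← norm_neg]
      have : -((f (X j) p - f (X i) p) - (S * ((X j : ℝ) - X i)) • u) =
          (f (X i) p - f (X j) p) - (S * ((X i : ℝ) - X j)) • u := by module
      rw [this]; exact h1
  -- membership
  have hp_pers : ∀ k < N, hp N s θ e v k ∈ pers N s θ e v := fun k hk => Or.inr ⟨k, hk, rfl⟩
  have bp_pers : ∀ k < N, bp N s θ e (k + 3) ∈ pers N s θ e v :=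
    fun k hk => Or.inl ⟨k + 3, by omega, by omega, rfl⟩
  have mem_X : ∀ i < N, ∀ p ∈ (({0, e} : Set V) ∪ pers N s θ e v) ∪ phas N s θ e v i,
      (p, p) ∈ M' (X i) := by
    intro i hi p hp
    have hLi := hXL i hi
    have e1 : X i = nA + (i * L + (nC + 0)) := by simp only [hX]; omega
    rw [hM', e1, nextM_block hi (by omega), blockM_subst hTpos]
    exact subst_static hF hM hi hTpos hp
  -- the vectors `w_i`
  obtain ⟨i, hi, j, hj, hij, hlt⟩ := hpack
    (fun i => s⁻¹ • (l⁻¹ • f (X i) (hp N s θ e v i) - l⁻¹ • f (X i) (bp N s θ e (i + 3)))) (by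
      intro i hi
      have hXi := hXT i hi
      have h1 := (hbil (X i) (by omega) _ (mem_X i hi _ (Or.inl (Or.inr (hp_pers i hi)))) _
        (mem_X i hi _ (Or.inl (Or.inr (bp_pers i hi))))).2
      simp only at h1
      have h2 : ‖hp N s θ e v i - bp N s θ e (i + 3)‖ = s := by
        have : hp N s θ e v i - bp N s θ e (i + 3) = s • v i := by
          unfold hp up bp
          have : ys N s (i + 3) = s := by
            have : 2 ≤ i + 3 ∧ i + 3 ≤ N + 3 := by omega
            simp [ys, this]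
          rw [this]; abel
        rw [this, norm_smul, hF.norm_v i hi, mul_one, Real.norm_of_nonneg hs0.le]
      rw [h2] at h1
      rw [← smul_sub, norm_smul, norm_smul, norm_inv, norm_inv, Real.norm_of_nonneg hs0.le,
        Real.norm_of_nonneg hl0.le, inv_mul_le_iff₀ hs0, inv_mul_le_iff₀ hl0]
      linarith)
  -- contradiction
  have hXi := hXT i hi
  have hphas : up N s θ e v i (j + 3) ∈ phas N s θ e v i := ⟨j + 3, by omega, by omega, rfl⟩
  have hlow := (hbil (X i) (by omega) _ (mem_X i hi _ (Or.inr hphas)) _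
    (mem_X i hi _ (Or.inl (Or.inr (hp_pers j hj))))).1
  simp only at hlow
  have hdist : 14 / 10 * s ≤ ‖up N s θ e v i (j + 3) - hp N s θ e v j‖ := by
    have hy : ys N s (j + 3) = s := by
      have : 2 ≤ j + 3 ∧ j + 3 ≤ N + 3 := by omega
      simp [ys]; omega
    have : up N s θ e v i (j + 3) - hp N s θ e v j = s • (v i - v j) := by
      unfold hp up
      rw [hy]; module
    rw [this, norm_smul, Real.norm_of_nonneg hs0.le]
    have h2 : ‖v i - v j‖ ^ 2 = 2 := by
      rw [norm_sub_sq_real, hF.norm_v i hi, hF.norm_v j hj, hF.inner_vv i hi j hj hij]; norm_num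
    have h3 : 14 / 10 ≤ ‖v i - v j‖ := by
      by_contra h
      push Not at h
      have : ‖v i - v j‖ ^ 2 < (14 / 10) ^ 2 :=
        pow_lt_pow_left₀ h (norm_nonneg _) (by norm_num)
      rw [h2] at this
      norm_num at this
    nlinarith
  have hphase := phase_lemma hF hP hi (g := fun z => l⁻¹ • f (X i) z) (σ := σ) (ε := ε₂) (μ := μ)
    (δ := δ) (D := D) hσ0 hσD hε₂0 hε₂1 hμ0 hμσ hδ0 (hg_chord i hi) (hg_big i hi) hpar
    (j := j + 3) (by omega) (by omega)
  -- persistence of `h_j - b_j`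
  have hpers : ‖(l⁻¹ • f (X i) (hp N s θ e v j) - l⁻¹ • f (X i) (bp N s θ e (j + 3))) -
      (l⁻¹ • f (X j) (hp N s θ e v j) - l⁻¹ • f (X j) (bp N s θ e (j + 3)))‖ ≤ δ * s := by
    have h1 := p_rig _ (hp_pers j hj) j hj i hi
    have h2 := p_rig _ (bp_pers j hj) j hj i hi
    set y := (S * ((X i : ℝ) - X j)) • u
    have e1 : (l⁻¹ • f (X i) (hp N s θ e v j) - l⁻¹ • f (X i) (bp N s θ e (j + 3))) -
        (l⁻¹ • f (X j) (hp N s θ e v j) - l⁻¹ • f (X j) (bp N s θ e (j + 3))) =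
        l⁻¹ • (((f (X i) (hp N s θ e v j) - f (X j) (hp N s θ e v j)) - y) -
          ((f (X i) (bp N s θ e (j + 3)) - f (X j) (bp N s θ e (j + 3))) - y)) := by module
    rw [e1, norm_smul, norm_inv, Real.norm_of_nonneg hl0.le, inv_mul_le_iff₀ hl0]
    refine (norm_sub_le _ _).trans ?_
    linarith
  set gu := l⁻¹ • f (X i) (up N s θ e v i (j + 3))
  set gb := l⁻¹ • f (X i) (bp N s θ e (j + 3))
  set gh := l⁻¹ • f (X i) (hp N s θ e v j)
  set wi := l⁻¹ • f (X i) (hp N s θ e v i) - l⁻¹ • f (X i) (bp N s θ e (i + 3))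
  set wj := l⁻¹ • f (X j) (hp N s θ e v j) - l⁻¹ • f (X j) (bp N s θ e (j + 3))
  have hwij : ‖wi - wj‖ < s / D := by
    rw [← smul_sub, norm_smul, norm_inv, Real.norm_of_nonneg hs0.le, inv_mul_lt_iff₀ hs0] at hlt
    refine hlt.trans_le (le_of_eq ?_)
    field_simp
  have hgugh : ‖gu - gh‖ < s / D + 2 * (δ * s) := by
    have : gu - gh = ((gu - gb) - wi) + (wi - wj) - ((gh - gb) - wj) := by abel
    rw [this]
    refine (norm_sub_le _ _).trans_lt ?_
    have := norm_add_le ((gu - gb) - wi) (wi - wj)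
    linarith
  have hlow' : 14 / 10 * s ≤ D * ‖gu - gh‖ := by
    have : D * ‖f (X i) (up N s θ e v i (j + 3)) - f (X i) (hp N s θ e v j)‖ =
        l * (D * ‖gu - gh‖) := by
      have e1 : gu - gh = l⁻¹ • (f (X i) (up N s θ e v i (j + 3)) - f (X i) (hp N s θ e v j)) := by
        rw [smul_sub]
      rw [e1, norm_smul, norm_inv, Real.norm_of_nonneg hl0.le]
      field_simp
    rw [this] at hlow
    have h5 := le_of_mul_le_mul_left hlow hl0
    linarith
  have h6 : D * ‖gu - gh‖ < s + 2 * (D * δ) * s := by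
    have := mul_lt_mul_of_pos_left hgugh hD0
    refine this.trans_le (le_of_eq ?_)
    field_simp
  have h7 : (5 * D * δ) * s ≤ 1 * s := mul_le_mul_of_nonneg_right hδ hs0.le
  have h8 : 2 * (D * δ) * s = 2 / 5 * ((5 * D * δ) * s) := by ring
  linarith

end Crest.Agent.Doub
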